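import Vale.Agent.Lib.P063.Fixed

/-!
Uniform random colorings of the coordinates: expectations of product events and the basic
statistics of the leaves.
-/

namespace Vale.Agent.Lib.P063

open Finset Real

/-- `1 - 1/M`, the probability that a coordinate avoids a given color. -/
noncomputable def tauM (M : ℕ) : ℝ := 1 - 1 / (M : ℝ)

lemma tauM_nonneg {M : ℕ} (hM : 1 ≤ M) : 0 ≤ tauM M := by
  unfold tauM
  have : (1 : ℝ) ≤ M := by exact_mod_cast hM
  rw [sub_nonneg, div_le_one (by linarith)]
  exact this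

lemma tauM_le_one (M : ℕ) : tauM M ≤ 1 := by
  unfold tauM
  have : 0 ≤ 1 / (M : ℝ) := by positivity
  linarith

lemma tauM_pos {M : ℕ} (hM : 2 ≤ M) : 0 < tauM M := by
  unfold tauM
  have : (2 : ℝ) ≤ M := by exact_mod_cast hM
  rw [sub_pos, div_lt_one (by linarith)]
  linarith

lemma succ_mul_tau_pow_le {M : ℕ} (hM : 1 ≤ M) (k : ℕ) :
    ((k : ℝ) + 1) * tauM M ^ k ≤ M := by
  have hM' : (1 : ℝ) ≤ M := by exact_mod_cast hM
  have hτ := tauM_nonneg hM
  have key : ∀ k : ℕ, ((k : ℝ) + 1) * tauM M ^ k + M * tauM M ^ (k + 1) ≤ M := by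
    intro k
    induction k with
    | zero =>
      simp only [Nat.cast_zero, zero_add, pow_zero, one_mul, pow_one]
      unfold tauM
      have : (M : ℝ) * (1 - 1 / (M : ℝ)) = M - 1 := by field_simp
      linarith
    | succ k ih =>
      refine le_trans ?_ ih
      have hτk : 0 ≤ tauM M ^ k := pow_nonneg hτ k
      have e1 : tauM M * (M : ℝ) = M - 1 := by
        unfold tauM
        field_simp
      have e2 : (((k + 1 : ℕ) : ℝ) + 1) * tauM M ^ (k + 1) + M * tauM M ^ (k + 1 + 1)
          = tauM M ^ k * (tauM M * ((k : ℝ) + 1 + M)) := by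
        push_cast
        rw [pow_succ (tauM M) (k + 1), pow_succ (tauM M) k]
        have : (M : ℝ) * (tauM M ^ k * tauM M * tauM M) = tauM M ^ k * tauM M * (tauM M * M) := by
          ring
        rw [this, e1]
        ring
      have e3 : ((k : ℝ) + 1) * tauM M ^ k + M * tauM M ^ (k + 1)
          = tauM M ^ k * ((k : ℝ) + M) := by
        rw [pow_succ]
        have : (M : ℝ) * (tauM M ^ k * tauM M) = tauM M ^ k * (tauM M * M) := by ring
        rw [this, e1]
        ring
      rw [e2, e3]
      apply mul_le_mul_of_nonneg_left _ hτk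
      have e4 : tauM M * ((k : ℝ) + 1 + M) = tauM M * ((k : ℝ) + 1) + (M - 1) := by
        rw [mul_add, e1]
      rw [e4]
      have : tauM M * ((k : ℝ) + 1) ≤ 1 * ((k : ℝ) + 1) :=
        mul_le_mul_of_nonneg_right (tauM_le_one M) (by positivity)
      linarith
  have := key k
  have h2 : 0 ≤ (M : ℝ) * tauM M ^ (k + 1) := by positivity
  linarith

lemma succ_succ_mul_tau_pow_le {M : ℕ} (hM : 1 ≤ M) (k : ℕ) :
    ((k : ℝ) + 2) * ((k : ℝ) + 1) * tauM M ^ k ≤ 4 * (M : ℝ) ^ 2 := by
  have hτ := tauM_nonneg hM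
  set j := k / 2 with hj
  set i := k - k / 2 with hi
  have hk : k = j + i := by omega
  have h1 := succ_mul_tau_pow_le hM j
  have h2 := succ_mul_tau_pow_le hM i
  have h3 : (k : ℝ) + 1 ≤ 2 * ((j : ℝ) + 1) := by
    have : k + 1 ≤ 2 * (j + 1) := by omega
    exact_mod_cast this
  have h4 : (k : ℝ) + 2 ≤ 2 * ((i : ℝ) + 1) := by
    have : k + 2 ≤ 2 * (i + 1) := by omega
    exact_mod_cast this
  have hj0 : 0 ≤ tauM M ^ j := pow_nonneg hτ j
  have hi0 : 0 ≤ tauM M ^ i := pow_nonneg hτ i
  have e : tauM M ^ k = tauM M ^ j * tauM M ^ i := by rw [hk, pow_add]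
  rw [e]
  have h5 : ((k : ℝ) + 2) * ((k : ℝ) + 1) ≤ (2 * ((i : ℝ) + 1)) * (2 * ((j : ℝ) + 1)) :=
    mul_le_mul h4 h3 (by positivity) (by positivity)
  calc ((k : ℝ) + 2) * ((k : ℝ) + 1) * (tauM M ^ j * tauM M ^ i)
      ≤ (2 * ((i : ℝ) + 1)) * (2 * ((j : ℝ) + 1)) * (tauM M ^ j * tauM M ^ i) :=
        mul_le_mul_of_nonneg_right h5 (by positivity)
    _ = 4 * (((j : ℝ) + 1) * tauM M ^ j) * (((i : ℝ) + 1) * tauM M ^ i) := by ring
    _ ≤ 4 * (M : ℝ) * M := by
        apply mul_le_mul _ h2 (by positivity) (by positivity)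
        linarith
    _ = 4 * (M : ℝ) ^ 2 := by ring

lemma one_sub_tau_pow_le {M : ℕ} (hM : 1 ≤ M) (s : ℕ) : 1 - tauM M ^ s ≤ (s : ℝ) / M := by
  have hM' : (1 : ℝ) ≤ M := by exact_mod_cast hM
  have h1 : -2 ≤ -(1 / (M : ℝ)) := by
    have : 1 / (M : ℝ) ≤ 1 := by rw [div_le_one (by linarith)]; exact hM'
    linarith
  have h2 := one_add_mul_le_pow h1 s
  have e : (1 : ℝ) + -(1 / (M : ℝ)) = tauM M := by unfold tauM; ring
  rw [e] at h2
  have e2 : (s : ℝ) * -(1 / (M : ℝ)) = - ((s : ℝ) / M) := by ring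
  rw [e2] at h2
  linarith

lemma log_one_div_tau_le {M : ℕ} (hM : 2 ≤ M) : log (1 / tauM M) ≤ 2 / (M : ℝ) := by
  have hM' : (2 : ℝ) ≤ M := by exact_mod_cast hM
  have hτ := tauM_pos hM
  refine (Real.log_le_sub_one_of_pos (by positivity)).trans ?_
  unfold tauM
  have h1 : (1 : ℝ) / (1 - 1 / (M : ℝ)) - 1 = 1 / ((M : ℝ) - 1) := by
    have : (M : ℝ) - 1 ≠ 0 := by linarith
    have h2 : (M : ℝ) ≠ 0 := by linarith
    field_simp
    ring
  rw [h1]
  rw [div_le_div_iff₀ (by linarith) (by linarith)]
  linarith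

/-- `min (k+1) M` dominates the damped count. -/
lemma succ_tau_le_min {M : ℕ} (hM : 1 ≤ M) (k : ℕ) :
    ((k : ℝ) + 1) * tauM M ^ k ≤ min ((k : ℝ) + 1) M := by
  apply le_min
  · have : tauM M ^ k ≤ 1 := pow_le_one₀ (tauM_nonneg hM) (tauM_le_one M)
    have h0 : (0 : ℝ) ≤ (k : ℝ) + 1 := by positivity
    nlinarith
  · exact succ_mul_tau_pow_le hM k

variable {X : Type*} [DecidableEq X] [Fintype X]

/-- The uniform probability of one coloring. -/
noncomputable def pc (X : Type*) [Fintype X] (M : ℕ) : ℝ := 1 / (M : ℝ) ^ (Fintype.card X)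

lemma pc_pos (X : Type*) [Fintype X] {M : ℕ} (hM : 0 < M) : 0 < pc X M := by
  unfold pc
  have : (0 : ℝ) < M := by exact_mod_cast hM
  positivity

/-- Expectation over a uniformly random coloring. -/
noncomputable def Ec (M : ℕ) (g : (X → Fin M) → ℝ) : ℝ := ∑ c, pc X M * g c

lemma Ec_add (M : ℕ) (g h : (X → Fin M) → ℝ) :
    Ec M (fun c => g c + h c) = Ec M g + Ec M h := by
  unfold Ec
  rw [← Finset.sum_add_distrib]
  apply Finset.sum_congr rfl
  intros
  ring

lemma Ec_sub (M : ℕ) (g h : (X → Fin M) → ℝ) :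
    Ec M (fun c => g c - h c) = Ec M g - Ec M h := by
  unfold Ec
  rw [← Finset.sum_sub_distrib]
  apply Finset.sum_congr rfl
  intros
  ring

lemma Ec_smul (M : ℕ) (a : ℝ) (g : (X → Fin M) → ℝ) :
    Ec M (fun c => a * g c) = a * Ec M g := by
  unfold Ec
  rw [Finset.mul_sum]
  apply Finset.sum_congr rfl
  intros
  ring

lemma Ec_sum {ι : Type*} (M : ℕ) (s : Finset ι) (g : ι → (X → Fin M) → ℝ) :
    Ec M (fun c => ∑ i ∈ s, g i c) = ∑ i ∈ s, Ec M (g i) := by
  unfold Ec
  rw [Finset.sum_comm]
  apply Finset.sum_congr rfl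
  intros
  rw [Finset.mul_sum]

lemma Ec_mono {M : ℕ} (hM : 0 < M) {g h : (X → Fin M) → ℝ} (hgh : ∀ c, g c ≤ h c) :
    Ec M g ≤ Ec M h := by
  unfold Ec
  apply Finset.sum_le_sum
  intro c _
  exact mul_le_mul_of_nonneg_left (hgh c) (pc_pos X hM).le

lemma Ec_nonneg {M : ℕ} (hM : 0 < M) {g : (X → Fin M) → ℝ} (hg : ∀ c, 0 ≤ g c) :
    0 ≤ Ec M g := by
  unfold Ec
  exact Finset.sum_nonneg fun c _ => mul_nonneg (pc_pos X hM).le (hg c)

lemma Ec_const {M : ℕ} (hM : 0 < M) (a : ℝ) : Ec (X := X) M (fun _ => a) = a := by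
  unfold Ec pc
  rw [Finset.sum_const, Finset.card_univ, Fintype.card_fun, Fintype.card_fin, nsmul_eq_mul]
  have : (M : ℝ) ≠ 0 := by exact_mod_cast hM.ne'
  push_cast
  field_simp

/-- The probability of a product event. -/
lemma Ec_forall {M : ℕ} (hM : 0 < M) (S : Finset X) (B : X → Finset (Fin M)) :
    Ec M (fun c => if ∀ e ∈ S, c e ∈ B e then (1 : ℝ) else 0)
      = ∏ e ∈ S, (((B e).card : ℝ) / M) := by
  classical
  have hM' : (M : ℝ) ≠ 0 := by exact_mod_cast hM.ne'
  have hset : (Finset.univ.filter fun c : X → Fin M => ∀ e ∈ S, c e ∈ B e)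
      = Fintype.piFinset (fun e => if e ∈ S then B e else Finset.univ) := by
    ext c
    simp only [Finset.mem_filter, Finset.mem_univ, true_and, Fintype.mem_piFinset]
    constructor
    · intro h e
      by_cases he : e ∈ S
      · simp [he, h e he]
      · simp [he]
    · intro h e he
      have := h e
      simpa [he] using this
  have hcard : ((Finset.univ.filter fun c : X → Fin M => ∀ e ∈ S, c e ∈ B e).card : ℝ)
      = ∏ e, (if e ∈ S then ((B e).card : ℝ) else M) := by
    rw [hset, Fintype.card_piFinset]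
    push_cast
    apply Finset.prod_congr rfl
    intro e _
    split_ifs <;> simp
  unfold Ec
  rw [← Finset.mul_sum, Finset.sum_boole, hcard]
  unfold pc
  rw [one_div, ← Finset.card_univ, ← Finset.prod_const, ← Finset.prod_inv_distrib,
    ← Finset.prod_mul_distrib]
  have : ∀ e ∈ (Finset.univ : Finset X), (M : ℝ)⁻¹ * (if e ∈ S then ((B e).card : ℝ) else M)
      = if e ∈ S then ((B e).card : ℝ) / M else 1 := by
    intro e _
    split_ifs
    · rw [div_eq_inv_mul]
    · field_simp
  rw [Finset.prod_congr rfl this, Finset.prod_ite_mem, Finset.univ_inter]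

/-- The leaf of color `i`. -/
def JC {m M : ℕ} (c : X → Fin M) (i : Fin m) : Finset X :=
  Finset.univ.filter fun e => (c e).val = i.val

/-- The coordinates with one of the first `m` colors. -/
def JJC (m : ℕ) {M : ℕ} (c : X → Fin M) : Finset X :=
  Finset.univ.filter fun e => (c e).val < m

lemma mem_JC {m M : ℕ} {c : X → Fin M} {i : Fin m} {e : X} :
    e ∈ JC c i ↔ (c e).val = i.val := by simp [JC]

lemma mem_JJC {m M : ℕ} {c : X → Fin M} {e : X} : e ∈ JJC m c ↔ (c e).val < m := by simp [JJC]

lemma JC_subset {m M : ℕ} (c : X → Fin M) (i : Fin m) : JC c i ⊆ JJC m c := by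
  intro e he
  rw [mem_JC] at he
  rw [mem_JJC, he]
  exact i.isLt

lemma card_compl_singleton_real {M : ℕ} (hM : 0 < M) (k : Fin M) :
    (((({k} : Finset (Fin M))ᶜ).card : ℝ)) / M = tauM M := by
  have hM' : (M : ℝ) ≠ 0 := by exact_mod_cast hM.ne'
  rw [Finset.card_compl, Finset.card_singleton, Fintype.card_fin, Nat.cast_sub (by omega)]
  unfold tauM
  push_cast
  field_simp

lemma evEmpty {m M : ℕ} (hmM : m ≤ M) (hM : 0 < M) (S : Finset X) (i : Fin m) :
    Ec M (fun c : X → Fin M => if S ∩ JC c i = ∅ then (1 : ℝ) else 0) = tauM M ^ S.card := by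
  have h := Ec_forall hM S (fun _ => ({Fin.castLE hmM i} : Finset (Fin M))ᶜ)
  simp only [card_compl_singleton_real hM, Finset.prod_const] at h
  rw [← h]
  unfold Ec
  apply Finset.sum_congr rfl
  intro c _
  congr 1
  apply if_congr _ rfl rfl
  rw [Finset.eq_empty_iff_forall_notMem]
  constructor
  · intro h2 e he
    rw [Finset.mem_compl, Finset.mem_singleton]
    intro h3
    apply h2 e
    rw [Finset.mem_inter, mem_JC, h3]
    exact ⟨he, rfl⟩
  · intro h2 e he
    rw [Finset.mem_inter, mem_JC] at he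
    have h3 := h2 e he.1
    rw [Finset.mem_compl, Finset.mem_singleton] at h3
    apply h3
    apply Fin.ext
    simpa using he.2

/-- Characterisation of the singleton trace on a leaf as a product event. -/
lemma inter_JC_eq_singleton {m M : ℕ} (hmM : m ≤ M) {S : Finset X} {e : X} (he : e ∈ S) (i : Fin m)
    (c : X → Fin M) :
    S ∩ JC c i = {e} ↔ ∀ x ∈ S, c x ∈ (if x = e then ({Fin.castLE hmM i} : Finset (Fin M))
      else ({Fin.castLE hmM i} : Finset (Fin M))ᶜ) := by
  have hval : ∀ x, (c x).val = i.val ↔ c x = Fin.castLE hmM i := by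
    intro x
    rw [Fin.ext_iff]
    simp
  constructor
  · intro h x hx
    by_cases hxe : x = e
    · subst hxe
      rw [if_pos rfl, Finset.mem_singleton, ← hval, ← mem_JC (m := m) (M := M)]
      have : x ∈ S ∩ JC c i := by rw [h]; simp
      exact (Finset.mem_inter.mp this).2
    · rw [if_neg hxe, Finset.mem_compl, Finset.mem_singleton, ← hval, ← mem_JC (m := m) (M := M)]
      intro h2
      have : x ∈ S ∩ JC c i := Finset.mem_inter.mpr ⟨hx, h2⟩
      rw [h, Finset.mem_singleton] at this
      exact hxe this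
  · intro h
    ext x
    rw [Finset.mem_inter, mem_JC, Finset.mem_singleton]
    constructor
    · rintro ⟨hx, h2⟩
      by_contra hxe
      have := h x hx
      rw [if_neg hxe, Finset.mem_compl, Finset.mem_singleton, ← hval] at this
      exact this h2
    · rintro rfl
      refine ⟨he, ?_⟩
      have := h x he
      rw [if_pos rfl, Finset.mem_singleton, ← hval] at this
      exact this

lemma evOne {m M : ℕ} (hmM : m ≤ M) (hM : 0 < M) {S : Finset X} {e : X} (he : e ∈ S) (i : Fin m) :
    Ec M (fun c : X → Fin M => if S ∩ JC c i = {e} then (1 : ℝ) else 0)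
      = (1 / (M : ℝ)) * tauM M ^ (S.card - 1) := by
  have h := Ec_forall hM S (fun x => if x = e then ({Fin.castLE hmM i} : Finset (Fin M))
      else ({Fin.castLE hmM i} : Finset (Fin M))ᶜ)
  rw [← Finset.mul_prod_erase S _ he] at h
  simp only [if_true, Finset.card_singleton, Nat.cast_one] at h
  have h2 : ∏ x ∈ S.erase e, (((if x = e then ({Fin.castLE hmM i} : Finset (Fin M))
      else ({Fin.castLE hmM i} : Finset (Fin M))ᶜ).card : ℝ) / M) = tauM M ^ (S.card - 1) := by
    rw [← Finset.card_erase_of_mem he, ← Finset.prod_const]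
    apply Finset.prod_congr rfl
    intro x hx
    rw [if_neg (Finset.ne_of_mem_erase hx), card_compl_singleton_real hM]
  rw [h2] at h
  rw [← h]
  unfold Ec
  apply Finset.sum_congr rfl
  intro c _
  congr 1
  apply if_congr (inter_JC_eq_singleton hmM he i c) rfl rfl

lemma evTwo {m M : ℕ} (hmM : m ≤ M) (hM : 0 < M) {S : Finset X} {e e' : X} (he : e ∈ S)
    (he' : e' ∈ S) (hne : e' ≠ e) (i : Fin m) :
    Ec M (fun c : X → Fin M => if S ∩ JC c i = {e} ∧ (c e').val < m then (1 : ℝ) else 0)
      ≤ (1 / (M : ℝ)) * ((m : ℝ) / M) * tauM M ^ (S.card - 2) := by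
  classical
  have hM' : (0 : ℝ) < M := by exact_mod_cast hM
  set k := Fin.castLE hmM i with hk
  set D : Finset (Fin M) := (Finset.univ.filter fun l : Fin M => l.val < m) ∩ ({k} : Finset (Fin M))ᶜ
    with hD
  have hDcard : (D.card : ℝ) ≤ m := by
    have h1 : D.card ≤ (Finset.univ.filter fun l : Fin M => l.val < m).card :=
      Finset.card_le_card Finset.inter_subset_left
    have h2 : (Finset.univ.filter fun l : Fin M => l.val < m).card = min M m :=
      Fin.card_filter_val_lt
    rw [h2] at h1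
    have h3 : D.card ≤ m := h1.trans (min_le_right _ _)
    exact_mod_cast h3
  set B : X → Finset (Fin M) := fun x => if x = e then {k} else if x = e' then D else {k}ᶜ with hB
  have h := Ec_forall hM S B
  have hprod : ∏ x ∈ S, (((B x).card : ℝ) / M)
      = (1 / (M : ℝ)) * ((D.card : ℝ) / M) * tauM M ^ (S.card - 2) := by
    rw [← Finset.mul_prod_erase S _ he, ← Finset.mul_prod_erase (S.erase e) _
      (Finset.mem_erase.mpr ⟨hne, he'⟩)]
    have h1 : B e = {k} := by simp [hB]
    have h2 : B e' = D := by simp [hB, hne]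
    rw [h1, h2, Finset.card_singleton]
    have h3 : ∏ x ∈ (S.erase e).erase e', (((B x).card : ℝ) / M) = tauM M ^ (S.card - 2) := by
      have hc : ((S.erase e).erase e').card = S.card - 2 := by
        rw [Finset.card_erase_of_mem (Finset.mem_erase.mpr ⟨hne, he'⟩), Finset.card_erase_of_mem he]
        omega
      rw [← hc, ← Finset.prod_const]
      apply Finset.prod_congr rfl
      intro x hx
      have hx1 : x ≠ e' := Finset.ne_of_mem_erase hx
      have hx2 : x ≠ e := Finset.ne_of_mem_erase (Finset.mem_of_mem_erase hx)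
      have : B x = {k}ᶜ := by simp [hB, hx1, hx2]
      rw [this, card_compl_singleton_real hM]
    rw [h3]
    push_cast
    ring
  have hevent : Ec M (fun c : X → Fin M => if S ∩ JC c i = {e} ∧ (c e').val < m then (1 : ℝ) else 0)
      = Ec M (fun c : X → Fin M => if ∀ x ∈ S, c x ∈ B x then (1 : ℝ) else 0) := by
    unfold Ec
    apply Finset.sum_congr rfl
    intro c _
    congr 1
    apply if_congr _ rfl rfl
    rw [inter_JC_eq_singleton hmM he i c]
    constructor
    · rintro ⟨h1, h2⟩ x hx
      have h3 := h1 x hx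
      by_cases hxe : x = e
      · simpa [hB, hxe] using h3
      · by_cases hxe' : x = e'
        · subst hxe'
          simp only [hB, hxe, if_false, if_true, hD, Finset.mem_inter, Finset.mem_filter,
            Finset.mem_univ, true_and]
          rw [if_neg hxe] at h3
          exact ⟨h2, h3⟩
        · simpa [hB, hxe, hxe'] using h3
    · intro h1
      constructor
      · intro x hx
        have h3 := h1 x hx
        by_cases hxe : x = e
        · simpa [hB, hxe] using h3
        · by_cases hxe' : x = e'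
          · subst hxe'
            simp only [hB, hxe, if_false, if_true, hD, Finset.mem_inter] at h3
            rw [if_neg hxe]
            exact h3.2
          · simpa [hB, hxe, hxe'] using h3
      · have h3 := h1 e' he'
        simp only [hB, hne, if_false, if_true, hD, Finset.mem_inter, Finset.mem_filter,
          Finset.mem_univ, true_and] at h3
        exact h3.1
  rw [hevent, h, hprod]
  have htau : 0 ≤ tauM M ^ (S.card - 2) := pow_nonneg (tauM_nonneg hM) _
  apply mul_le_mul_of_nonneg_right _ htau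
  apply mul_le_mul_of_nonneg_left _ (by positivity)
  exact div_le_div_of_nonneg_right hDcard hM'.le

lemma evLt {m M : ℕ} (hmM : m ≤ M) (hM : 0 < M) (e : X) :
    Ec M (fun c : X → Fin M => if (c e).val < m then (1 : ℝ) else 0) = (m : ℝ) / M := by
  have h := Ec_forall hM {e} (fun _ => Finset.univ.filter fun l : Fin M => l.val < m)
  rw [Finset.prod_singleton, Fin.card_filter_val_lt, min_eq_right hmM] at h
  rw [← h]
  unfold Ec
  apply Finset.sum_congr rfl
  intro c _
  congr 1
  apply if_congr _ rfl rfl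
  simp

lemma evLt2 {m M : ℕ} (hmM : m ≤ M) (hM : 0 < M) {e e' : X} (hne : e ≠ e') :
    Ec M (fun c : X → Fin M => if (c e).val < m ∧ (c e').val < m then (1 : ℝ) else 0)
      = ((m : ℝ) / M) ^ 2 := by
  have h := Ec_forall hM {e, e'} (fun _ => Finset.univ.filter fun l : Fin M => l.val < m)
  rw [Finset.prod_pair hne, Fin.card_filter_val_lt, min_eq_right hmM, ← pow_two] at h
  rw [← h]
  unfold Ec
  apply Finset.sum_congr rfl
  intro c _
  congr 1
  apply if_congr _ rfl rfl
  simp

lemma evColl {m M : ℕ} (hmM : m ≤ M) (hM : 0 < M) {e e' : X} (hne : e ≠ e') :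
    Ec M (fun c : X → Fin M => if (c e).val < m ∧ c e' = c e then (1 : ℝ) else 0)
      = ((m : ℝ) / M) * (1 / M) := by
  have hM' : (M : ℝ) ≠ 0 := by exact_mod_cast hM.ne'
  have hpt : ∀ c : X → Fin M, (if (c e).val < m ∧ c e' = c e then (1 : ℝ) else 0)
      = ∑ i : Fin m, if ∀ x ∈ ({e, e'} : Finset X), c x ∈ ({Fin.castLE hmM i} : Finset (Fin M))
        then (1 : ℝ) else 0 := by
    intro c
    by_cases h : (c e).val < m ∧ c e' = c e
    · rw [if_pos h]
      rw [Finset.sum_eq_single (⟨(c e).val, h.1⟩ : Fin m)]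
      · rw [if_pos]
        intro x hx
        rw [Finset.mem_insert, Finset.mem_singleton] at hx
        rw [Finset.mem_singleton]
        rcases hx with rfl | rfl
        · exact Fin.ext (by simp)
        · exact h.2.trans (Fin.ext (by simp))
      · intro i _ hi
        rw [if_neg]
        intro h2
        have h3 := h2 e (by simp)
        rw [Finset.mem_singleton] at h3
        apply hi
        apply Fin.ext
        have h5 : (c e).val = i.val := by rw [h3]; simp
        exact h5.symm
      · intro h2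
        exact absurd (Finset.mem_univ _) h2
    · rw [if_neg h]
      symm
      apply Finset.sum_eq_zero
      intro i _
      rw [if_neg]
      intro h2
      apply h
      have h3 := h2 e (by simp)
      have h4 := h2 e' (by simp)
      rw [Finset.mem_singleton] at h3 h4
      constructor
      · rw [h3]
        simp
      · rw [h3, h4]
  have hsum : Ec M (fun c : X → Fin M => if (c e).val < m ∧ c e' = c e then (1 : ℝ) else 0)
      = ∑ i : Fin m, Ec M (fun c : X → Fin M =>
        if ∀ x ∈ ({e, e'} : Finset X), c x ∈ ({Fin.castLE hmM i} : Finset (Fin M))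
          then (1 : ℝ) else 0) := by
    rw [← Ec_sum]
    unfold Ec
    apply Finset.sum_congr rfl
    intro c _
    congr 1
    exact hpt c
  rw [hsum]
  have : ∀ i : Fin m, Ec M (fun c : X → Fin M =>
        if ∀ x ∈ ({e, e'} : Finset X), c x ∈ ({Fin.castLE hmM i} : Finset (Fin M))
          then (1 : ℝ) else 0) = (1 / M) * (1 / M) := by
    intro i
    rw [Ec_forall hM, Finset.prod_pair hne]
    simp
  simp only [this, Finset.sum_const, Finset.card_univ, Fintype.card_fin, nsmul_eq_mul]
  field_simp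

end Vale.Agent.Lib.P063
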