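import Mathlib

/-!
The biased cube: points are finsets of coordinates; partial averages and partial Fourier
coefficients, defined by explicit sums, with their recursion in one coordinate.
-/

namespace Vale.Agent.Lib.P063

open Finset

variable {X : Type*} [DecidableEq X]

/-- Standard deviation of a `p`-biased bit. -/
noncomputable def sig (p : ℝ) : ℝ := Real.sqrt (p * (1 - p))

lemma sig_pos {p : ℝ} (h0 : 0 < p) (h1 : p < 1) : 0 < sig p :=
  Real.sqrt_pos.mpr (mul_pos h0 (by linarith))

lemma sig_sq {p : ℝ} (h0 : 0 < p) (h1 : p < 1) : sig p ^ 2 = p * (1 - p) :=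
  Real.sq_sqrt (mul_pos h0 (by linarith)).le

/-- Expectation over one coordinate. -/
noncomputable def Eop (p : ℝ) (e : X) (φ : Finset X → ℝ) (x : Finset X) : ℝ :=
  p * φ (insert e x) + (1 - p) * φ (x.erase e)

/-- First Fourier coefficient in one coordinate. -/
noncomputable def Dop (p : ℝ) (e : X) (φ : Finset X → ℝ) (x : Finset X) : ℝ :=
  sig p * (φ (insert e x) - φ (x.erase e))

/-- Probability weight of the trace `U` on `T`. -/
noncomputable def wt (p : ℝ) (T U : Finset X) : ℝ := p ^ U.card * (1 - p) ^ (T \ U).card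

/-- The biased character of `A` at the point `U`. -/
noncomputable def chi (p : ℝ) (A U : Finset X) : ℝ :=
  ∏ e ∈ A, if e ∈ U then (1 - p) / sig p else - p / sig p

/-- Partial Fourier coefficient: integrate over the coordinates in `T` against the character
of `A`; the coordinates outside `T` are kept from `x`. -/
noncomputable def coef (p : ℝ) (T A : Finset X) (φ : Finset X → ℝ) (x : Finset X) : ℝ :=
  ∑ U ∈ T.powerset, wt p T U * chi p A U * φ ((x \ T) ∪ U)

/-- Partial average over `T`. -/
noncomputable def avg (p : ℝ) (T : Finset X) (φ : Finset X → ℝ) (x : Finset X) : ℝ :=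
  coef p T ∅ φ x

lemma wt_insert_left {p : ℝ} {T U : Finset X} {e : X} (he : e ∉ T) (hU : U ⊆ T) :
    wt p (insert e T) U = (1 - p) * wt p T U := by
  have heU : e ∉ U := fun h => he (hU h)
  have : insert e T \ U = insert e (T \ U) := by
    rw [Finset.insert_sdiff_of_notMem _ heU]
  unfold wt
  rw [this, Finset.card_insert_of_notMem (by simp [he])]
  ring

lemma wt_insert_both {p : ℝ} {T U : Finset X} {e : X} (he : e ∉ T) (hU : U ⊆ T) :
    wt p (insert e T) (insert e U) = p * wt p T U := by
  have heU : e ∉ U := fun h => he (hU h)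
  have : insert e T \ insert e U = T \ U := by
    ext a
    by_cases ha : a = e
    · subst ha; simp [he]
    · simp [ha]
  unfold wt
  rw [this, Finset.card_insert_of_notMem heU]
  ring

lemma chi_insert_point {p : ℝ} {A U : Finset X} {e : X} (he : e ∉ A) :
    chi p A (insert e U) = chi p A U := by
  unfold chi
  apply Finset.prod_congr rfl
  intro a ha
  have : a ≠ e := fun h => he (h ▸ ha)
  simp [this]

lemma chi_insert_set_not {p : ℝ} {A U : Finset X} {e : X} (he : e ∉ A) (heU : e ∉ U) :
    chi p (insert e A) U = (- p / sig p) * chi p A U := by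
  unfold chi
  rw [Finset.prod_insert he]
  simp [heU]

lemma chi_insert_set_in {p : ℝ} {A U : Finset X} {e : X} (he : e ∉ A) :
    chi p (insert e A) (insert e U) = ((1 - p) / sig p) * chi p A U := by
  have h := chi_insert_point (p := p) (U := U) he
  unfold chi at h ⊢
  rw [Finset.prod_insert he, h]
  simp

lemma pt_sdiff_insert_in {x T U : Finset X} {e : X} :
    (x \ insert e T) ∪ insert e U = insert e ((x \ T) ∪ U) := by
  ext a
  by_cases ha : a = e
  · subst ha; simp
  · simp [ha]

lemma pt_sdiff_insert_out {x T U : Finset X} {e : X} (he : e ∉ T) (hU : U ⊆ T) :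
    (x \ insert e T) ∪ U = ((x \ T) ∪ U).erase e := by
  have heU : e ∉ U := fun h => he (hU h)
  ext a
  by_cases ha : a = e
  · subst ha; simp [heU]
  · simp [ha]

/-- Integrating one more coordinate, with trivial character there. -/
lemma coef_insert {p : ℝ} {T A : Finset X} {e : X} (he : e ∉ T) (heA : e ∉ A)
    (φ : Finset X → ℝ) (x : Finset X) :
    coef p (insert e T) A φ x = coef p T A (Eop p e φ) x := by
  unfold coef Eop
  rw [Finset.sum_powerset_insert he, ← Finset.sum_add_distrib]
  apply Finset.sum_congr rfl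
  intro U hU
  rw [Finset.mem_powerset] at hU
  rw [wt_insert_left he hU, wt_insert_both he hU, chi_insert_point heA,
    pt_sdiff_insert_in, pt_sdiff_insert_out he hU]
  ring

/-- Integrating one more coordinate, with the nontrivial character there. -/
lemma coef_insert_mem {p : ℝ} (h0 : 0 < p) (h1 : p < 1) {T A : Finset X} {e : X} (he : e ∉ T)
    (heA : e ∉ A) (φ : Finset X → ℝ) (x : Finset X) :
    coef p (insert e T) (insert e A) φ x = coef p T A (Dop p e φ) x := by
  have hs := sig_pos h0 h1
  have hs2 := sig_sq h0 h1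
  unfold coef Dop
  rw [Finset.sum_powerset_insert he, ← Finset.sum_add_distrib]
  apply Finset.sum_congr rfl
  intro U hU
  rw [Finset.mem_powerset] at hU
  have heU : e ∉ U := fun h => he (hU h)
  rw [wt_insert_left he hU, wt_insert_both he hU, chi_insert_set_not heA heU, chi_insert_set_in heA,
    pt_sdiff_insert_in, pt_sdiff_insert_out he hU]
  have key : p * ((1 - p) / sig p) = sig p := by
    field_simp
    nlinarith
  have key2 : (1 - p) * (- p / sig p) = - sig p := by
    field_simp
    nlinarith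
  calc (1 - p) * wt p T U * (-p / sig p * chi p A U) * φ (((x \ T) ∪ U).erase e)
        + p * wt p T U * ((1 - p) / sig p * chi p A U) * φ (insert e ((x \ T) ∪ U))
      = ((1 - p) * (-p / sig p)) * wt p T U * chi p A U * φ (((x \ T) ∪ U).erase e)
        + (p * ((1 - p) / sig p)) * wt p T U * chi p A U * φ (insert e ((x \ T) ∪ U)) := by ring
    _ = _ := by rw [key, key2]; ring

lemma coef_empty (p : ℝ) (φ : Finset X → ℝ) (x : Finset X) : coef p ∅ ∅ φ x = φ x := by
  simp [coef, wt, chi]

lemma avg_insert {p : ℝ} {T : Finset X} {e : X} (he : e ∉ T) (φ : Finset X → ℝ) (x : Finset X) :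
    avg p (insert e T) φ x = avg p T (Eop p e φ) x :=
  coef_insert he (by simp) φ x

lemma avg_empty (p : ℝ) (φ : Finset X → ℝ) (x : Finset X) : avg p ∅ φ x = φ x :=
  coef_empty p φ x

/-! ### Commutation of one-coordinate operators with partial coefficients -/

lemma pt_insert_sdiff {x T U : Finset X} {e : X} (he : e ∉ T) :
    (insert e x \ T) ∪ U = insert e ((x \ T) ∪ U) := by
  ext a
  by_cases ha : a = e
  · subst ha; simp [he]
  · simp [ha]

lemma pt_erase_sdiff {x T U : Finset X} {e : X} (he : e ∉ T) (hU : U ⊆ T) :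
    (x.erase e \ T) ∪ U = ((x \ T) ∪ U).erase e := by
  have heU : e ∉ U := fun h => he (hU h)
  ext a
  by_cases ha : a = e
  · subst ha; simp [heU]
  · simp [ha]

lemma Eop_coef {p : ℝ} {T : Finset X} {e : X} (he : e ∉ T) (A : Finset X)
    (φ : Finset X → ℝ) (x : Finset X) :
    Eop p e (coef p T A φ) x = coef p T A (Eop p e φ) x := by
  unfold Eop coef
  rw [Finset.mul_sum, Finset.mul_sum, ← Finset.sum_add_distrib]
  apply Finset.sum_congr rfl
  intro U hU
  rw [Finset.mem_powerset] at hU
  rw [pt_insert_sdiff he, pt_erase_sdiff he hU]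
  ring

lemma Dop_coef {p : ℝ} {T : Finset X} {e : X} (he : e ∉ T) (A : Finset X)
    (φ : Finset X → ℝ) (x : Finset X) :
    Dop p e (coef p T A φ) x = coef p T A (Dop p e φ) x := by
  unfold Dop coef
  rw [← Finset.sum_sub_distrib, Finset.mul_sum]
  apply Finset.sum_congr rfl
  intro U hU
  rw [Finset.mem_powerset] at hU
  rw [pt_insert_sdiff he, pt_erase_sdiff he hU]
  ring

/-- Composition of partial coefficients over disjoint blocks. -/
lemma coef_coef {p : ℝ} (h0 : 0 < p) (h1 : p < 1) {T₂ A₂ : Finset X} (hA₂ : A₂ ⊆ T₂)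
    (T₁ : Finset X) (hd : Disjoint T₁ T₂) (A₁ : Finset X) (hA₁ : A₁ ⊆ T₁)
    (φ : Finset X → ℝ) (x : Finset X) :
    coef p T₁ A₁ (coef p T₂ A₂ φ) x = coef p (T₁ ∪ T₂) (A₁ ∪ A₂) φ x := by
  classical
  induction T₁ using Finset.induction_on generalizing A₁ φ with
  | empty =>
    have : A₁ = ∅ := Finset.subset_empty.mp hA₁
    subst this
    simp [coef_empty]
  | insert e T' he ih =>
    have heT₂ : e ∉ T₂ := fun h => (Finset.disjoint_left.mp hd (Finset.mem_insert_self e T')) h
    have hd' : Disjoint T' T₂ := Finset.disjoint_of_subset_left (Finset.subset_insert e T') hd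
    have heU : e ∉ T' ∪ T₂ := by simp [he, heT₂]
    have heA₂ : e ∉ A₂ := fun h => heT₂ (hA₂ h)
    have hU : insert e T' ∪ T₂ = insert e (T' ∪ T₂) := Finset.insert_union e T' T₂
    by_cases hA : e ∈ A₁
    · have hAe : A₁ = insert e (A₁.erase e) := (Finset.insert_erase hA).symm
      have hA' : A₁.erase e ⊆ T' := by
        intro a ha
        rw [Finset.mem_erase] at ha
        exact (Finset.mem_insert.mp (hA₁ ha.2)).resolve_left ha.1
      have heA' : e ∉ A₁.erase e := Finset.notMem_erase e A₁
      have heA'' : e ∉ A₁.erase e ∪ A₂ := by simp [heA₂]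
      rw [hAe, coef_insert_mem h0 h1 he heA', Finset.insert_union e (A₁.erase e) A₂, hU,
        coef_insert_mem h0 h1 heU heA'']
      have : Dop p e (coef p T₂ A₂ φ) = coef p T₂ A₂ (Dop p e φ) := by
        funext y
        exact Dop_coef heT₂ A₂ φ y
      rw [this]
      exact ih hd' _ hA' _
    · have hA' : A₁ ⊆ T' := by
        intro a ha
        have : a ≠ e := fun h => hA (h ▸ ha)
        exact (Finset.mem_insert.mp (hA₁ ha)).resolve_left this
      have heA'' : e ∉ A₁ ∪ A₂ := by simp [hA, heA₂]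
      rw [coef_insert he hA, hU, coef_insert heU heA'']
      have : Eop p e (coef p T₂ A₂ φ) = coef p T₂ A₂ (Eop p e φ) := by
        funext y
        exact Eop_coef heT₂ A₂ φ y
      rw [this]
      exact ih hd' _ hA' _

/-! ### Linearity, positivity -/

lemma coef_add (p : ℝ) (T A : Finset X) (φ ψ : Finset X → ℝ) (x : Finset X) :
    coef p T A (fun y => φ y + ψ y) x = coef p T A φ x + coef p T A ψ x := by
  unfold coef
  rw [← Finset.sum_add_distrib]
  apply Finset.sum_congr rfl
  intros
  ring

lemma coef_sub (p : ℝ) (T A : Finset X) (φ ψ : Finset X → ℝ) (x : Finset X) :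
    coef p T A (fun y => φ y - ψ y) x = coef p T A φ x - coef p T A ψ x := by
  unfold coef
  rw [← Finset.sum_sub_distrib]
  apply Finset.sum_congr rfl
  intros
  ring

lemma coef_smul (p : ℝ) (T A : Finset X) (c : ℝ) (φ : Finset X → ℝ) (x : Finset X) :
    coef p T A (fun y => c * φ y) x = c * coef p T A φ x := by
  unfold coef
  rw [Finset.mul_sum]
  apply Finset.sum_congr rfl
  intros
  ring

lemma coef_sum {ι : Type*} (p : ℝ) (T A : Finset X) (s : Finset ι) (φ : ι → Finset X → ℝ)
    (x : Finset X) :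
    coef p T A (fun y => ∑ i ∈ s, φ i y) x = ∑ i ∈ s, coef p T A (φ i) x := by
  unfold coef
  rw [Finset.sum_comm]
  apply Finset.sum_congr rfl
  intros
  rw [Finset.mul_sum]

lemma avg_add (p : ℝ) (T : Finset X) (φ ψ : Finset X → ℝ) (x : Finset X) :
    avg p T (fun y => φ y + ψ y) x = avg p T φ x + avg p T ψ x := coef_add p T ∅ φ ψ x

lemma avg_sub (p : ℝ) (T : Finset X) (φ ψ : Finset X → ℝ) (x : Finset X) :
    avg p T (fun y => φ y - ψ y) x = avg p T φ x - avg p T ψ x := coef_sub p T ∅ φ ψ x

lemma avg_smul (p : ℝ) (T : Finset X) (c : ℝ) (φ : Finset X → ℝ) (x : Finset X) :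
    avg p T (fun y => c * φ y) x = c * avg p T φ x := coef_smul p T ∅ c φ x

lemma avg_sum {ι : Type*} (p : ℝ) (T : Finset X) (s : Finset ι) (φ : ι → Finset X → ℝ)
    (x : Finset X) :
    avg p T (fun y => ∑ i ∈ s, φ i y) x = ∑ i ∈ s, avg p T (φ i) x := coef_sum p T ∅ s φ x

lemma avg_eq_sum (p : ℝ) (T : Finset X) (φ : Finset X → ℝ) (x : Finset X) :
    avg p T φ x = ∑ U ∈ T.powerset, wt p T U * φ ((x \ T) ∪ U) := by
  unfold avg coef chi
  simp

lemma wt_pos {p : ℝ} (h0 : 0 < p) (h1 : p < 1) (T U : Finset X) : 0 < wt p T U := by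
  unfold wt
  have : 0 < 1 - p := by linarith
  positivity

lemma avg_mono {p : ℝ} (h0 : 0 < p) (h1 : p < 1) (T : Finset X) {φ ψ : Finset X → ℝ}
    (x : Finset X) (h : ∀ y, φ y ≤ ψ y) : avg p T φ x ≤ avg p T ψ x := by
  rw [avg_eq_sum, avg_eq_sum]
  apply Finset.sum_le_sum
  intro U _
  exact mul_le_mul_of_nonneg_left (h _) (wt_pos h0 h1 T U).le

lemma avg_nonneg {p : ℝ} (h0 : 0 < p) (h1 : p < 1) (T : Finset X) {φ : Finset X → ℝ}
    (x : Finset X) (h : ∀ y, 0 ≤ φ y) : 0 ≤ avg p T φ x := by
  rw [avg_eq_sum]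
  exact Finset.sum_nonneg fun U _ => mul_nonneg (wt_pos h0 h1 T U).le (h _)

lemma avg_const (p : ℝ) (T : Finset X) (c : ℝ) (x : Finset X) :
    avg p T (fun _ => c) x = c := by
  classical
  induction T using Finset.induction_on generalizing x with
  | empty => exact avg_empty p _ x
  | insert e T he ih =>
    rw [avg_insert he]
    have : Eop p e (fun _ : Finset X => c) = fun _ => c := by
      funext y
      simp only [Eop]
      ring
    rw [this]
    exact ih x

/-- `avg` only depends on the values `φ ((x \ T) ∪ U)`. -/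
lemma avg_congr_pts (p : ℝ) (T : Finset X) {φ ψ : Finset X → ℝ} (x : Finset X)
    (h : ∀ U ⊆ T, φ ((x \ T) ∪ U) = ψ ((x \ T) ∪ U)) : avg p T φ x = avg p T ψ x := by
  rw [avg_eq_sum, avg_eq_sum]
  apply Finset.sum_congr rfl
  intro U hU
  rw [h U (Finset.mem_powerset.mp hU)]

lemma abs_avg_le {p : ℝ} (h0 : 0 < p) (h1 : p < 1) (T : Finset X) (φ : Finset X → ℝ)
    (x : Finset X) : |avg p T φ x| ≤ avg p T (fun y => |φ y|) x := by
  rw [avg_eq_sum, avg_eq_sum]
  refine (Finset.abs_sum_le_sum_abs _ _).trans (le_of_eq ?_)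
  apply Finset.sum_congr rfl
  intro U _
  rw [abs_mul, abs_of_pos (wt_pos h0 h1 T U)]

/-- A nonnegative function with zero average vanishes at all relevant points. -/
lemma avg_eq_zero {p : ℝ} (h0 : 0 < p) (h1 : p < 1) (T : Finset X) {φ : Finset X → ℝ}
    (x : Finset X) (h : ∀ y, 0 ≤ φ y) (hz : avg p T φ x = 0) (U : Finset X) (hU : U ⊆ T) :
    φ ((x \ T) ∪ U) = 0 := by
  rw [avg_eq_sum] at hz
  have := (Finset.sum_eq_zero_iff_of_nonneg
    (fun U _ => mul_nonneg (wt_pos h0 h1 T U).le (h _))).mp hz U (Finset.mem_powerset.mpr hU)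
  rcases mul_eq_zero.mp this with h2 | h2
  · exact absurd h2 (wt_pos h0 h1 T U).ne'
  · exact h2

/-! ### Parseval -/

lemma Eop_mul {p : ℝ} (h0 : 0 < p) (h1 : p < 1) (e : X) (φ ψ : Finset X → ℝ) (x : Finset X) :
    Eop p e (fun y => φ y * ψ y) x = Eop p e φ x * Eop p e ψ x + Dop p e φ x * Dop p e ψ x := by
  unfold Eop Dop
  have hs2 := sig_sq h0 h1
  have : sig p * (φ (insert e x) - φ (x.erase e)) * (sig p * (ψ (insert e x) - ψ (x.erase e)))
      = sig p ^ 2 * ((φ (insert e x) - φ (x.erase e)) * (ψ (insert e x) - ψ (x.erase e))) := by ring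
  rw [this, hs2]
  ring

/-- Parseval over a block. -/
theorem parseval {p : ℝ} (h0 : 0 < p) (h1 : p < 1) (T : Finset X) (φ ψ : Finset X → ℝ)
    (x : Finset X) :
    avg p T (fun y => φ y * ψ y) x = ∑ A ∈ T.powerset, coef p T A φ x * coef p T A ψ x := by
  classical
  induction T using Finset.induction_on generalizing φ ψ x with
  | empty => simp [avg_empty, coef_empty]
  | insert e T he ih =>
    rw [avg_insert he, Finset.sum_powerset_insert he]
    have : Eop p e (fun y => φ y * ψ y)
        = fun y => Eop p e φ y * Eop p e ψ y + Dop p e φ y * Dop p e ψ y := by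
      funext y
      exact Eop_mul h0 h1 e φ ψ y
    rw [this, avg_add, ih, ih]
    congr 1
    · apply Finset.sum_congr rfl
      intro A hA
      have heA : e ∉ A := fun h => he (Finset.mem_powerset.mp hA h)
      rw [coef_insert he heA, coef_insert he heA]
    · apply Finset.sum_congr rfl
      intro A hA
      have heA : e ∉ A := fun h => he (Finset.mem_powerset.mp hA h)
      rw [coef_insert_mem h0 h1 he heA, coef_insert_mem h0 h1 he heA]

lemma parseval_sq {p : ℝ} (h0 : 0 < p) (h1 : p < 1) (T : Finset X) (φ : Finset X → ℝ)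
    (x : Finset X) :
    avg p T (fun y => φ y ^ 2) x = ∑ A ∈ T.powerset, coef p T A φ x ^ 2 := by
  have := parseval h0 h1 T φ φ x
  simp only [← pow_two] at this
  exact this

/-- Cauchy-Schwarz for partial averages. -/
lemma avg_mul_sq_le {p : ℝ} (h0 : 0 < p) (h1 : p < 1) (T : Finset X) (φ ψ : Finset X → ℝ)
    (x : Finset X) :
    avg p T (fun y => φ y * ψ y) x ^ 2
      ≤ avg p T (fun y => φ y ^ 2) x * avg p T (fun y => ψ y ^ 2) x := by
  rw [parseval h0 h1, parseval_sq h0 h1, parseval_sq h0 h1]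
  exact Finset.sum_mul_sq_le_sq_mul_sq _ _ _

/-- Two successive averages over disjoint blocks. -/
lemma avg_avg {p : ℝ} (h0 : 0 < p) (h1 : p < 1) {T₁ T₂ : Finset X} (hd : Disjoint T₁ T₂)
    (φ : Finset X → ℝ) (x : Finset X) :
    avg p T₁ (avg p T₂ φ) x = avg p (T₁ ∪ T₂) φ x := by
  have := coef_coef h0 h1 (T₂ := T₂) (A₂ := ∅) (by simp) T₁ hd ∅ (by simp) φ x
  rw [Finset.union_empty] at this
  exact this

/-- An average only depends on the point outside the block. -/
lemma coef_of_sdiff_eq (p : ℝ) (T A : Finset X) (φ : Finset X → ℝ) {x x' : Finset X}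
    (h : x \ T = x' \ T) : coef p T A φ x = coef p T A φ x' := by
  unfold coef
  rw [h]

end Vale.Agent.Lib.P063
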