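import Mathlib

/-!
Hypergraph properties on `n` vertices and their threshold width.
-/

namespace Vale.Agent.Lib.P063

/-- The edge set `E_{n,r}`: the `r`-subsets of the vertex set. A hypergraph is a finset of edges. -/
abbrev Edge (n r : ℕ) : Type := {e : Finset (Fin n) // e.card = r}

/-- The action of a vertex permutation on edges. -/
def permEdge {n r : ℕ} (g : Equiv.Perm (Fin n)) (e : Edge n r) : Edge n r :=
  ⟨e.1.map g.toEmbedding, by rw [Finset.card_map]; exact e.2⟩

/-- The action of a vertex permutation on hypergraphs. -/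
def permHyper {n r : ℕ} (g : Equiv.Perm (Fin n)) (G : Finset (Edge n r)) : Finset (Edge n r) :=
  G.image (permEdge g)

/-- A family of hypergraphs is a hypergraph property if it is invariant under all vertex
permutations. -/
def IsHyperProperty {n r : ℕ} (P : Finset (Finset (Edge n r))) : Prop :=
  ∀ (g : Equiv.Perm (Fin n)) (G : Finset (Edge n r)), G ∈ P → permHyper g G ∈ P

/-- A family of hypergraphs is increasing if adding edges preserves membership. -/
def IsIncreasingFamily {n r : ℕ} (P : Finset (Finset (Edge n r))) : Prop :=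
  ∀ G G' : Finset (Edge n r), G ⊆ G' → G ∈ P → G' ∈ P

/-- The probability `μ_p(P)` that the random hypergraph, with each edge present independently with
probability `p`, lies in `P`. -/
noncomputable def muP {n r : ℕ} (P : Finset (Finset (Edge n r))) (p : ℝ) : ℝ :=
  ∑ G ∈ P, p ^ G.card * (1 - p) ^ (Fintype.card (Edge n r) - G.card)

/-- `p_a(P) = inf {p ∈ [0,1] : μ_p(P) ≥ a}`. -/
noncomputable def critP {n r : ℕ} (P : Finset (Finset (Edge n r))) (a : ℝ) : ℝ :=
  sInf {p : ℝ | p ∈ Set.Icc (0 : ℝ) 1 ∧ a ≤ muP P p}

/-- The threshold width `w_ε(P) = p_{1-ε}(P) - p_ε(P)`. -/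
noncomputable def widthP {n r : ℕ} (P : Finset (Finset (Edge n r))) (ε : ℝ) : ℝ :=
  critP P (1 - ε) - critP P ε

end Vale.Agent.Lib.P063
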