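import Vale.Agent.Lib.P063.Spectral

/-!
The entropy bound for the sketch of the spectral set, for a fixed coloring of the coordinates.
-/

namespace Vale.Agent.Lib.P063

open Finset Real

variable {X : Type*} [DecidableEq X] [Fintype X]

/-- The conditional spectral weights given the coordinates outside `J`. -/
noncomputable def Qy (p : ℝ) (f : Finset X → ℝ) (J y A : Finset X) : ℝ := coef p J A f y ^ 2

lemma Qy_nonneg (p : ℝ) (f : Finset X → ℝ) (J y A : Finset X) : 0 ≤ Qy p f J y A := sq_nonneg _

/-- One averaging step for a classification `O` of the traces on `J`, with one exceptional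
class `none`. -/
theorem outer_step {τ : Type*} [Fintype τ] [DecidableEq τ] {p : ℝ} (h0 : 0 < p) (h1 : p < 1)
    {f : Finset X → ℝ} (hf : ∀ x, f x ^ 2 = 1) (J : Finset X) (O : Finset X → Option τ)
    (x₀ : Finset X) :
    Hlaw univ (wgt p f) (fun S => O (S ∩ J))
      ≤ avg p Jᶜ (fun y => Hlaw J.powerset (Qy p f J y) O) x₀ + 1
        + CLS p * ∑ S, (if O (S ∩ J) = none then 0 else ((S \ J).card : ℝ)) * wgt p f S := by
  classical
  set φ : Option τ → Finset X → ℝ := fun o y => law J.powerset (Qy p f J y) O o with hφ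
  have hφ0 : ∀ o y, 0 ≤ φ o y := fun o y => law_nonneg _ (fun A _ => Qy_nonneg p f J y A) O o
  have hlaw : ∀ o, law univ (wgt p f) (fun S => O (S ∩ J)) o = avg p Jᶜ (φ o) x₀ := by
    intro o
    have e1 : φ o = fun y => ∑ A ∈ J.powerset, (if O A = o then (1 : ℝ) else 0) * coef p J A f y ^ 2 := by
      funext y
      simp only [hφ, law, Finset.sum_filter, ite_mul, one_mul, zero_mul, Qy]
    rw [e1, avg_weighted h0 h1 f J]
    simp only [law, Finset.sum_filter, ite_mul, one_mul, zero_mul]
  have hH : Hlaw univ (wgt p f) (fun S => O (S ∩ J))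
      = avg p Jᶜ (fun y => Hlaw J.powerset (Qy p f J y) O) x₀ + ∑ o, Ent p Jᶜ (φ o) x₀ := by
    unfold Hlaw
    simp_rw [hlaw, neg_avg_eq]
    rw [Finset.sum_add_distrib, avg_sum]
  rw [hH, add_assoc]
  apply add_le_add_right
  have hE : ∀ A ∈ J.powerset, Ent p Jᶜ (Qy p f J · A) x₀
      ≤ CLS p * ∑ B ∈ Jᶜ.powerset, (B.card : ℝ) * wgt p f (A ∪ B) := by
    intro A hA
    have := lsi h0 h1 Jᶜ (coef p J A f) x₀
    rwa [energy_coef h0 h1 f (Finset.mem_powerset.mp hA)] at this
  set E' : Finset X → ℝ := fun A => if O A = none then 0 else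
    CLS p * ∑ B ∈ Jᶜ.powerset, (B.card : ℝ) * wgt p f (A ∪ B) with hE'
  have hsome : ∀ t : τ, Ent p Jᶜ (φ (some t)) x₀ ≤ ∑ A ∈ J.powerset with O A = some t, E' A := by
    intro t
    have h2 : φ (some t) = fun y => ∑ A ∈ J.powerset with O A = some t, Qy p f J y A := rfl
    rw [h2]
    refine (Ent_sum_le h0 h1 _ _ _ x₀ (fun A _ y => Qy_nonneg p f J y A)).trans ?_
    apply Finset.sum_le_sum
    intro A hA
    have hA' := Finset.mem_filter.mp hA
    simp only [hE', hA'.2, reduceCtorEq, if_false]
    exact hE A hA'.1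
  have hnone : Ent p Jᶜ (φ none) x₀ ≤ 1 := by
    apply Ent_le_one h0 h1 _ _ (hφ0 none)
    intro y
    have h3 : φ none y ≤ ∑ A ∈ J.powerset, Qy p f J y A := by
      simp only [hφ, law]
      apply Finset.sum_le_sum_of_subset_of_nonneg (Finset.filter_subset _ _)
      intro A _ _
      exact Qy_nonneg p f J y A
    have h4 : ∑ A ∈ J.powerset, Qy p f J y A = 1 := sum_sq_coef h0 h1 hf J y
    linarith
  have hfib : ∑ t : τ, ∑ A ∈ J.powerset with O A = some t, E' A = ∑ A ∈ J.powerset, E' A := by
    rw [← Finset.sum_fiberwise J.powerset O E', Fintype.sum_option]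
    have : ∑ A ∈ J.powerset with O A = none, E' A = 0 := by
      apply Finset.sum_eq_zero
      intro A hA
      simp only [hE', (Finset.mem_filter.mp hA).2, if_true]
    rw [this, zero_add]
  have hsumS : ∑ A ∈ J.powerset, E' A
      = CLS p * ∑ S, (if O (S ∩ J) = none then 0 else ((S \ J).card : ℝ)) * wgt p f S := by
    rw [sum_split J (fun S => (if O (S ∩ J) = none then 0 else ((S \ J).card : ℝ)) * wgt p f S),
      Finset.mul_sum]
    apply Finset.sum_congr rfl
    intro A hA
    have hA' := Finset.mem_powerset.mp hA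
    have hinner : ∀ B ∈ Jᶜ.powerset, (if O ((A ∪ B) ∩ J) = none then 0 else (((A ∪ B) \ J).card : ℝ))
        * wgt p f (A ∪ B) = (if O A = none then 0 else (B.card : ℝ) * wgt p f (A ∪ B)) := by
      intro B hB
      have hB' := Finset.mem_powerset.mp hB
      rw [inter_of_split hA' hB', sdiff_of_split hA' hB']
      split_ifs <;> simp
    rw [Finset.sum_congr rfl hinner]
    simp only [hE']
    split_ifs
    · simp
    · rfl
  rw [Fintype.sum_option]
  calc Ent p Jᶜ (φ none) x₀ + ∑ t : τ, Ent p Jᶜ (φ (some t)) x₀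
      ≤ 1 + ∑ t : τ, ∑ A ∈ J.powerset with O A = some t, E' A :=
        add_le_add hnone (Finset.sum_le_sum fun t _ => hsome t)
    _ = _ := by rw [hfib, hsumS]

/-- Reduction to the entropies of the entries of a tuple. -/
theorem tuple_step {ι α τ : Type*} [Fintype ι] [DecidableEq ι] [Fintype α] [DecidableEq α]
    [Fintype τ] [DecidableEq τ] {p : ℝ} (h0 : 0 < p) (h1 : p < 1)
    {f : Finset X → ℝ} (hf : ∀ x, f x ^ 2 = 1) (J y : Finset X) (T : ι → Finset X → α)
    (g : (ι → α) → τ) :
    Hlaw J.powerset (Qy p f J y) (fun A => g (fun i => T i A))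
      ≤ ∑ i, Hlaw J.powerset (Qy p f J y) (T i) := by
  refine (Hlaw_comp_le _ (fun A _ => Qy_nonneg p f J y A) (fun A i => T i A) g).trans ?_
  exact Hlaw_tuple_le _ (fun A _ => Qy_nonneg p f J y A) (sum_sq_coef h0 h1 hf J y) T

/-! ### Leaves -/

/-- The output of a leaf: `some none` for the empty trace, `some (some e)` for the trace `{e}`,
and `none` if the trace has at least two elements. -/
noncomputable def leaf (B : Finset X) : Option (Option X) :=
  if B = ∅ then some none else if h : ∃ e, B = {e} then some (some h.choose) else none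

lemma leaf_eq_some_none {B : Finset X} : leaf B = some none ↔ B = ∅ := by
  unfold leaf
  split_ifs with h h'
  · simp [h]
  · simp [h]
  · simp [h]

lemma leaf_eq_some_some {B : Finset X} {e : X} : leaf B = some (some e) ↔ B = {e} := by
  unfold leaf
  split_ifs with h h'
  · subst h
    simp
  · constructor
    · intro h2
      have h3 : h'.choose = e := by simpa using h2
      have h4 := h'.choose_spec
      rw [h3] at h4
      exact h4
    · intro h2
      have h4 := h'.choose_spec
      have h5 : ({e} : Finset X) = {h'.choose} := h2.symm.trans h4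
      have h6 : e = h'.choose := Finset.singleton_inj.mp h5
      simp [← h6]
  · simp only [false_iff]
    intro h2
    exact h' ⟨e, h2⟩

lemma leaf_eq_none {B : Finset X} : leaf B = none ↔ 2 ≤ B.card := by
  unfold leaf
  split_ifs with h h'
  · subst h; simp
  · simp only [false_iff, not_le]
    obtain ⟨e, he⟩ := h'
    rw [he]; simp
  · simp only [true_iff]
    have h2 : B.card ≠ 0 := by simpa using h
    have h3 : B.card ≠ 1 := by
      intro h4
      exact h' (Finset.card_eq_one.mp h4)
    omega

/-- Sum over the traces on `J` with a prescribed singleton trace on the sub-block `K`. -/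
lemma sum_block {K J : Finset X} (hKJ : K ⊆ J) {e : X} (he : e ∈ K) (h : Finset X → ℝ) :
    ∑ A ∈ J.powerset, (if A ∩ K = {e} then h A else 0)
      = ∑ B ∈ (J \ K).powerset, h (insert e B) := by
  have hd : Disjoint K (J \ K) := Finset.disjoint_sdiff
  have hU : K ∪ (J \ K) = J := Finset.union_sdiff_of_subset hKJ
  have := sum_powerset_union K hd (fun A => if A ∩ K = {e} then h A else 0)
  rw [hU] at this
  rw [this]
  rw [Finset.sum_eq_single ({e} : Finset X)]
  · apply Finset.sum_congr rfl
    intro B hB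
    have hB' := Finset.mem_powerset.mp hB
    have h1 : ({e} ∪ B) ∩ K = {e} := by
      ext a
      simp only [Finset.mem_inter, Finset.mem_union, Finset.mem_singleton]
      constructor
      · rintro ⟨h2 | h2, h3⟩
        · exact h2
        · exact absurd h3 (Finset.mem_sdiff.mp (hB' h2)).2
      · rintro rfl
        exact ⟨Or.inl rfl, he⟩
    rw [h1, if_pos rfl, Finset.singleton_union]
  · intro A₁ hA₁ hne
    apply Finset.sum_eq_zero
    intro B hB
    have hA₁' := Finset.mem_powerset.mp hA₁
    have hB' := Finset.mem_powerset.mp hB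
    have h1 : (A₁ ∪ B) ∩ K = A₁ := by
      ext a
      simp only [Finset.mem_inter, Finset.mem_union]
      constructor
      · rintro ⟨h2 | h2, h3⟩
        · exact h2
        · exact absurd h3 (Finset.mem_sdiff.mp (hB' h2)).2
      · intro h2
        exact ⟨Or.inl h2, hA₁' h2⟩
    rw [h1, if_neg hne]
  · intro h2
    exact absurd (Finset.mem_powerset.mpr (Finset.singleton_subset_iff.mpr he)) h2

lemma insert_sdiff_block {K J B : Finset X} {e : X} (he : e ∈ K) (hB : B ⊆ J \ K) :
    insert e B \ K = B := by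
  ext a
  simp only [Finset.mem_sdiff, Finset.mem_insert]
  constructor
  · rintro ⟨h1 | h1, h2⟩
    · exact absurd (h1 ▸ he) h2
    · exact h1
  · intro h1
    exact ⟨Or.inr h1, (Finset.mem_sdiff.mp (hB h1)).2⟩

lemma coef_block {p : ℝ} (h0 : 0 < p) (h1 : p < 1) (f : Finset X → ℝ) {K J B : Finset X} {e : X}
    (hKJ : K ⊆ J) (he : e ∈ K) (hB : B ⊆ J \ K) (y : Finset X) :
    coef p (J \ K) B (coef p K {e} f) y = coef p J (insert e B) f y := by
  rw [coef_coef h0 h1 (Finset.singleton_subset_iff.mpr he) (J \ K) Finset.sdiff_disjoint B hB f y,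
    Finset.sdiff_union_of_subset hKJ, Finset.union_comm, Finset.singleton_union]

lemma law_leaf_some {p : ℝ} (h0 : 0 < p) (h1 : p < 1) (f : Finset X → ℝ) {K J : Finset X} {e : X}
    (hKJ : K ⊆ J) (he : e ∈ K) (y : Finset X) :
    law J.powerset (Qy p f J y) (fun A => leaf (A ∩ K)) (some (some e))
      = avg p (J \ K) (fun y' => coef p K {e} f y' ^ 2) y := by
  rw [parseval_sq h0 h1]
  unfold law
  rw [Finset.sum_filter]
  simp only [leaf_eq_some_some]
  rw [sum_block hKJ he]
  apply Finset.sum_congr rfl
  intro B hB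
  rw [coef_block h0 h1 f hKJ he (Finset.mem_powerset.mp hB)]
  rfl

lemma law_leaf_some_out (p : ℝ) (f : Finset X → ℝ) {K J : Finset X} {e : X} (he : e ∉ K)
    (y : Finset X) :
    law J.powerset (Qy p f J y) (fun A => leaf (A ∩ K)) (some (some e)) = 0 := by
  unfold law
  apply Finset.sum_eq_zero
  intro A hA
  have h2 := (Finset.mem_filter.mp hA).2
  rw [leaf_eq_some_some] at h2
  have h3 : e ∈ A ∩ K := by rw [h2]; simp
  exact absurd (Finset.mem_inter.mp h3).2 he

lemma energy_block {p : ℝ} (h0 : 0 < p) (h1 : p < 1) (f : Finset X → ℝ) {K J : Finset X} {e : X}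
    (hKJ : K ⊆ J) (he : e ∈ K) (y : Finset X) :
    ∑ B ∈ (J \ K).powerset, (B.card : ℝ) * coef p (J \ K) B (coef p K {e} f) y ^ 2
      = ∑ A ∈ J.powerset, (if A ∩ K = {e} then ((A \ K).card : ℝ) else 0) * coef p J A f y ^ 2 := by
  have := sum_block hKJ he (fun A => ((A \ K).card : ℝ) * coef p J A f y ^ 2)
  have e1 : ∀ A ∈ J.powerset, (if A ∩ K = {e} then ((A \ K).card : ℝ) else 0) * coef p J A f y ^ 2
      = if A ∩ K = {e} then ((A \ K).card : ℝ) * coef p J A f y ^ 2 else 0 := by
    intro A _
    split_ifs <;> simp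
  rw [Finset.sum_congr rfl e1, this]
  apply Finset.sum_congr rfl
  intro B hB
  have hB' := Finset.mem_powerset.mp hB
  rw [coef_block h0 h1 f hKJ he hB', insert_sdiff_block he hB']

/-- The total weight of the sets containing `e` controls the `L¹` norm of the derivative. -/
lemma avg_abs_Dop {p : ℝ} (h0 : 0 < p) (h1 : p < 1) {f : Finset X → ℝ} (hf : ∀ x, f x ^ 2 = 1)
    (e : X) (x : Finset X) :
    avg p (univ.erase e) (fun y => |Dop p e f y|) x
      = (1 / (2 * sig p)) * ∑ S, (if e ∈ S then wgt p f S else 0) := by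
  have hs := sig_pos h0 h1
  have h2 : avg p (univ.erase e) (fun y => Dop p e f y ^ 2) x
      = 2 * sig p * avg p (univ.erase e) (fun y => |Dop p e f y|) x := by
    rw [← avg_smul]
    congr 1
    funext y
    exact Dop_sq h0 h1 hf e y
  have h3 : avg p (univ.erase e) (fun y => Dop p e f y ^ 2) x
      = ∑ S, (if e ∈ S then wgt p f S else 0) := by
    rw [parseval_sq h0 h1]
    have hU : (univ : Finset X) = insert e (univ.erase e) := (Finset.insert_erase (mem_univ e)).symm
    have he : e ∉ (univ : Finset X).erase e := Finset.notMem_erase e _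
    have : ∑ S, (if e ∈ S then wgt p f S else 0)
        = ∑ S ∈ (insert e (univ.erase e) : Finset X).powerset, (if e ∈ S then wgt p f S else 0) := by
      rw [← hU, Finset.powerset_univ]
    rw [this, Finset.sum_powerset_insert he]
    have hz : ∑ S ∈ ((univ : Finset X).erase e).powerset, (if e ∈ S then wgt p f S else 0) = 0 := by
      apply Finset.sum_eq_zero
      intro S hS
      rw [if_neg (fun h => he (Finset.mem_powerset.mp hS h))]
    rw [hz, zero_add]
    apply Finset.sum_congr rfl
    intro B hB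
    have heB : e ∉ B := fun h => he (Finset.mem_powerset.mp hB h)
    rw [if_pos (Finset.mem_insert_self e B), ← coef_insert_mem h0 h1 he heB, ← hU, coef_univ_eq]
    rfl
  rw [← h3, h2]
  field_simp

/-- The first-order coefficient on a leaf is controlled by the global derivative. -/
lemma avg_abs_leaf {p : ℝ} (h0 : 0 < p) (h1 : p < 1) {f : Finset X → ℝ} (hf : ∀ x, f x ^ 2 = 1)
    {K J : Finset X} {e : X} (hKJ : K ⊆ J) (he : e ∈ K) (x : Finset X) :
    avg p Jᶜ (fun y => avg p (J \ K) (fun y' => |coef p K {e} f y'|) y) x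
      ≤ (1 / (2 * sig p)) * ∑ S, (if e ∈ S then wgt p f S else 0) := by
  have hG : ∀ y', coef p K {e} f y' = avg p (K.erase e) (Dop p e f) y' := by
    intro y'
    have h2 := coef_insert_mem h0 h1 (T := K.erase e) (A := ∅) (e := e) (Finset.notMem_erase e K)
      (Finset.notMem_empty e) f y'
    rw [Finset.insert_erase he] at h2
    exact h2
  have h3 : ∀ y', |coef p K {e} f y'| ≤ avg p (K.erase e) (fun y => |Dop p e f y|) y' := by
    intro y'
    rw [hG]
    exact abs_avg_le h0 h1 _ _ _
  have hd1 : Disjoint (J \ K) (K.erase e) :=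
    Finset.disjoint_of_subset_right (Finset.erase_subset e K) Finset.sdiff_disjoint
  have hd2 : Disjoint Jᶜ ((J \ K) ∪ K.erase e) := by
    rw [Finset.disjoint_left]
    intro a ha hb
    rw [Finset.mem_compl] at ha
    rcases Finset.mem_union.mp hb with hb | hb
    · exact ha (Finset.mem_sdiff.mp hb).1
    · exact ha (hKJ (Finset.mem_erase.mp hb).2)
  have hset : Jᶜ ∪ ((J \ K) ∪ K.erase e) = univ.erase e := by
    ext a
    simp only [Finset.mem_union, Finset.mem_compl, Finset.mem_sdiff, Finset.mem_erase,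
      Finset.mem_univ, and_true]
    constructor
    · rintro (h5 | ⟨h5, h6⟩ | ⟨h5, h6⟩)
      · rintro rfl
        exact h5 (hKJ he)
      · rintro rfl
        exact h6 he
      · exact h5
    · intro h2
      by_cases h3 : a ∈ J
      · by_cases h4 : a ∈ K
        · exact Or.inr (Or.inr ⟨h2, h4⟩)
        · exact Or.inr (Or.inl ⟨h3, h4⟩)
      · exact Or.inl h3
  calc avg p Jᶜ (fun y => avg p (J \ K) (fun y' => |coef p K {e} f y'|) y) x
      ≤ avg p Jᶜ (fun y => avg p (J \ K) (avg p (K.erase e) (fun y => |Dop p e f y|)) y) x :=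
        avg_mono h0 h1 _ _ fun y => avg_mono h0 h1 _ _ h3
    _ = avg p Jᶜ (avg p ((J \ K) ∪ K.erase e) (fun y => |Dop p e f y|)) x := by
        congr 1
        funext y
        exact avg_avg h0 h1 hd1 _ y
    _ = avg p (univ.erase e) (fun y => |Dop p e f y|) x := by
        rw [avg_avg h0 h1 hd2, hset]
    _ = _ := avg_abs_Dop h0 h1 hf e x

/-- The bound for the entropy of one leaf, averaged over the coordinates outside `J`. -/
theorem leaf_bound {p : ℝ} (h0 : 0 < p) (h1 : p < 1) {f : Finset X → ℝ} (hf : ∀ x, f x ^ 2 = 1)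
    {K J : Finset X} (hKJ : K ⊆ J) {t y₀ : ℝ} (ht : 0 < t) (hy₀ : 0 < y₀)
    (x₀ : Finset X) :
    avg p Jᶜ (fun y => Hlaw J.powerset (Qy p f J y) (fun A => leaf (A ∩ K))) x₀
      ≤ y₀ + ∑ S, (CLS p * (if (S ∩ K).card = 1 then (((S ∩ J) \ K).card : ℝ) else 0)
          + (if S ∩ K = ∅ then 0 else 1)
          + log (1 / y₀) * (if 2 ≤ (S ∩ K).card then 1 else 0)
          + 2 * log (1 / t) * (if (S ∩ K).card = 1 then 1 else 0)
          + (t / sig p) * ((S ∩ K).card : ℝ)) * wgt p f S := by
  classical
  have hs := sig_pos h0 h1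
  have hinter : ∀ S : Finset X, S ∩ J ∩ K = S ∩ K := by
    intro S
    rw [Finset.inter_assoc, Finset.inter_eq_right.mpr hKJ]
  -- the three kinds of classes
  set L : Option (Option X) → Finset X → ℝ :=
    fun a y => law J.powerset (Qy p f J y) (fun A => leaf (A ∩ K)) a with hL
  have hL0 : ∀ a y, 0 ≤ L a y := fun a y => law_nonneg _ (fun A _ => Qy_nonneg p f J y A) _ a
  have hLavg : ∀ a, avg p Jᶜ (L a) x₀ = ∑ S, (if leaf (S ∩ K) = a then 1 else 0) * wgt p f S := by
    intro a
    have e1 : L a = fun y =>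
        ∑ A ∈ J.powerset, (if leaf (A ∩ K) = a then (1 : ℝ) else 0) * coef p J A f y ^ 2 := by
      funext y
      simp only [hL, law, Finset.sum_filter, ite_mul, one_mul, zero_mul, Qy]
    rw [e1, avg_weighted h0 h1 f J]
    apply Finset.sum_congr rfl
    intro S _
    rw [hinter]
  have hexp : (fun y => Hlaw J.powerset (Qy p f J y) (fun A => leaf (A ∩ K)))
      = fun y => negMulLog (L none y) + (negMulLog (L (some none) y)
        + ∑ e : X, negMulLog (L (some (some e)) y)) := by
    funext y
    unfold Hlaw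
    rw [Fintype.sum_option, Fintype.sum_option]
  rw [hexp, avg_add, avg_add, avg_sum]
  -- class of at least two elements
  have hnone : avg p Jᶜ (fun y => negMulLog (L none y)) x₀
      ≤ y₀ + log (1 / y₀) * ∑ S, (if 2 ≤ (S ∩ K).card then 1 else 0) * wgt p f S := by
    have h2 : ∀ y, negMulLog (L none y) ≤ y₀ - L none y + log (1 / y₀) * L none y := by
      intro y
      have := neg_le_linear (hL0 none y) hy₀
      linarith
    have h3 := avg_mono h0 h1 Jᶜ x₀ h2
    rw [avg_add, avg_sub, avg_const, avg_smul, hLavg] at h3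
    simp only [leaf_eq_none] at h3
    have h4 : 0 ≤ ∑ S, (if 2 ≤ (S ∩ K).card then (1 : ℝ) else 0) * wgt p f S :=
      Finset.sum_nonneg fun S _ => mul_nonneg (by split_ifs <;> norm_num) (wgt_nonneg p f S)
    linarith
  -- empty class
  have hempty : avg p Jᶜ (fun y => negMulLog (L (some none) y)) x₀
      ≤ ∑ S, (if S ∩ K = ∅ then 0 else 1) * wgt p f S := by
    have h2 : ∀ y, negMulLog (L (some none) y) ≤ 1 - L (some none) y :=
      fun y => neg_le_one_sub (hL0 _ y)
    have h3 := avg_mono h0 h1 Jᶜ x₀ h2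
    rw [avg_sub, avg_const, hLavg] at h3
    simp only [leaf_eq_some_none] at h3
    have h5 := sum_wgt h0 h1 hf
    have h6 : ∑ S, (if S ∩ K = ∅ then 0 else 1) * wgt p f S
        = ∑ S, wgt p f S - ∑ S, (if S ∩ K = ∅ then 1 else 0) * wgt p f S := by
      rw [← Finset.sum_sub_distrib]
      apply Finset.sum_congr rfl
      intro S _
      split_ifs <;> ring
    rw [h6, h5]
    exact h3
  -- singleton classes
  have hsingle : ∀ e : X, avg p Jᶜ (fun y => negMulLog (L (some (some e)) y)) x₀
      ≤ if e ∈ K then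
          ∑ S, (CLS p * (if S ∩ K = {e} then (((S ∩ J) \ K).card : ℝ) else 0)
            + 2 * log (1 / t) * (if S ∩ K = {e} then 1 else 0)
            + (t / sig p) * (if e ∈ S then 1 else 0)) * wgt p f S
        else 0 := by
    intro e
    by_cases he : e ∈ K
    · rw [if_pos he]
      set G := coef p K {e} f with hG
      have hlaw : ∀ y, L (some (some e)) y = avg p (J \ K) (fun y' => G y' ^ 2) y :=
        fun y => law_leaf_some h0 h1 f hKJ he y
      have hpt : ∀ y, negMulLog (L (some (some e)) y)
          ≤ avg p (J \ K) (fun y' => 2 * t * |G y'| + 2 * log (1 / t) * G y' ^ 2) y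
            + CLS p * ∑ A ∈ J.powerset,
                (if A ∩ K = {e} then ((A \ K).card : ℝ) else 0) * coef p J A f y ^ 2 := by
        intro y
        rw [hlaw, neg_avg_eq]
        apply add_le_add
        · apply avg_mono h0 h1
          intro y'
          have := neg_sq_le (G y') ht
          linarith
        · have := lsi h0 h1 (J \ K) G y
          rwa [energy_block h0 h1 f hKJ he] at this
      have h3 := avg_mono h0 h1 Jᶜ x₀ hpt
      rw [avg_add, avg_smul, avg_weighted h0 h1 f J] at h3
      have hsplit : avg p (J \ K) (fun y' => 2 * t * |G y'| + 2 * log (1 / t) * G y' ^ 2)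
          = fun y => (2 * t) * avg p (J \ K) (fun y' => |G y'|) y
            + (2 * log (1 / t)) * L (some (some e)) y := by
        funext y
        rw [avg_add, avg_smul, avg_smul, hlaw]
      rw [hsplit, avg_add, avg_smul, avg_smul, hLavg] at h3
      have h4 := avg_abs_leaf h0 h1 hf hKJ he x₀
      simp only [leaf_eq_some_some] at h3
      have hbound : (2 * t) * avg p Jᶜ (fun y => avg p (J \ K) (fun y' => |G y'|) y) x₀
          ≤ (t / sig p) * ∑ S, (if e ∈ S then wgt p f S else 0) := by
        have := mul_le_mul_of_nonneg_left h4 (by positivity : 0 ≤ 2 * t)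
        refine this.trans (le_of_eq ?_)
        field_simp
      refine h3.trans ?_
      have hsum : ∑ S, (CLS p * (if S ∩ K = {e} then (((S ∩ J) \ K).card : ℝ) else 0)
            + 2 * log (1 / t) * (if S ∩ K = {e} then 1 else 0)
            + (t / sig p) * (if e ∈ S then 1 else 0)) * wgt p f S
          = CLS p * ∑ S, (if S ∩ J ∩ K = {e} then (((S ∩ J) \ K).card : ℝ) else 0) * wgt p f S
            + 2 * log (1 / t) * ∑ S, (if S ∩ K = {e} then 1 else 0) * wgt p f S
            + (t / sig p) * ∑ S, (if e ∈ S then wgt p f S else 0) := by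
        rw [Finset.mul_sum, Finset.mul_sum, Finset.mul_sum, ← Finset.sum_add_distrib,
          ← Finset.sum_add_distrib]
        apply Finset.sum_congr rfl
        intro S _
        rw [hinter]
        split_ifs <;> ring
      rw [hsum]
      linarith
    · rw [if_neg he]
      have : ∀ y, L (some (some e)) y = 0 := fun y => law_leaf_some_out p f he y
      simp only [this, Real.negMulLog_zero]
      rw [avg_const]
  have hsum_single : ∑ e : X, (if e ∈ K then
          ∑ S, (CLS p * (if S ∩ K = {e} then (((S ∩ J) \ K).card : ℝ) else 0)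
            + 2 * log (1 / t) * (if S ∩ K = {e} then 1 else 0)
            + (t / sig p) * (if e ∈ S then 1 else 0)) * wgt p f S
        else 0)
      = ∑ S, (CLS p * (if (S ∩ K).card = 1 then (((S ∩ J) \ K).card : ℝ) else 0)
          + 2 * log (1 / t) * (if (S ∩ K).card = 1 then 1 else 0)
          + (t / sig p) * ((S ∩ K).card : ℝ)) * wgt p f S := by
    rw [Finset.sum_ite_mem, Finset.univ_inter, Finset.sum_comm]
    apply Finset.sum_congr rfl
    intro S _
    rw [← Finset.sum_mul]
    congr 1
    rw [Finset.sum_add_distrib, Finset.sum_add_distrib, ← Finset.mul_sum, ← Finset.mul_sum,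
      ← Finset.mul_sum]
    -- the count over singletons
    have hcnt : ∀ c : ℝ, ∑ e ∈ K, (if S ∩ K = {e} then c else 0)
        = if (S ∩ K).card = 1 then c else 0 := by
      intro c
      split_ifs with h
      · obtain ⟨a, ha⟩ := Finset.card_eq_one.mp h
        have haK : a ∈ K := by
          have : a ∈ S ∩ K := by rw [ha]; simp
          exact (Finset.mem_inter.mp this).2
        rw [Finset.sum_eq_single a]
        · rw [ha, if_pos rfl]
        · intro b _ hb
          rw [ha, if_neg]
          intro h2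
          exact hb (Finset.singleton_inj.mp h2).symm
        · intro h2
          exact absurd haK h2
      · apply Finset.sum_eq_zero
        intro e _
        rw [if_neg]
        intro h2
        apply h
        rw [h2]
        simp
    have hcount : ∑ e ∈ K, (if e ∈ S then (1 : ℝ) else 0) = ((S ∩ K).card : ℝ) := by
      rw [Finset.sum_boole, Finset.filter_mem_eq_inter, Finset.inter_comm]
    rw [hcnt, hcnt, hcount]
  -- assembling
  have hmain := add_le_add hnone (add_le_add hempty (Finset.sum_le_sum fun e (_ : e ∈ univ) => hsingle e))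
  refine hmain.trans (le_of_eq ?_)
  rw [hsum_single, Finset.mul_sum, add_assoc, ← Finset.sum_add_distrib, ← Finset.sum_add_distrib]
  congr 1
  apply Finset.sum_congr rfl
  intro S _
  split_ifs <;> ring

/-- The tuple of leaf outputs of `S`. -/
noncomputable def tup {m : ℕ} (J : Fin m → Finset X) (S : Finset X) : Fin m → Option (Option X) :=
  fun i => leaf (S ∩ J i)

/-- The classified output: the tuple of leaf outputs if the predicate `Good` holds, and a single
exceptional value otherwise. -/
noncomputable def outC {m : ℕ} (J : Fin m → Finset X) (Good : (Fin m → Option (Option X)) → Prop)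
    [DecidablePred Good] (S : Finset X) : Option (Fin m → Option (Option X)) :=
  if Good (tup J S) then some (tup J S) else none

lemma tup_inter {m : ℕ} {J : Fin m → Finset X} {JJ : Finset X} (hJ : ∀ i, J i ⊆ JJ) (S : Finset X) :
    tup J (S ∩ JJ) = tup J S := by
  funext i
  unfold tup
  rw [Finset.inter_assoc, Finset.inter_eq_right.mpr (hJ i)]

/-- The entropy bound for a fixed system of leaves. -/
theorem fixed_bound {m : ℕ} {p : ℝ} (h0 : 0 < p) (h1 : p < 1) {f : Finset X → ℝ}
    (hf : ∀ x, f x ^ 2 = 1) {J : Fin m → Finset X} {JJ : Finset X} (hJ : ∀ i, J i ⊆ JJ)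
    (Good : (Fin m → Option (Option X)) → Prop) [DecidablePred Good]
    {t y₀ : ℝ} (ht : 0 < t) (hy₀ : 0 < y₀) :
    Hlaw univ (wgt p f) (outC J Good)
      ≤ 1 + m * y₀ + ∑ S, (CLS p * ((if Good (tup J S) then ((S \ JJ).card : ℝ) else 0)
            + ∑ i, (if (S ∩ J i).card = 1 then (((S ∩ JJ) \ J i).card : ℝ) else 0))
          + (∑ i, if S ∩ J i = ∅ then (0 : ℝ) else 1)
          + log (1 / y₀) * (∑ i, if 2 ≤ (S ∩ J i).card then (1 : ℝ) else 0)
          + 2 * log (1 / t) * (∑ i, if (S ∩ J i).card = 1 then (1 : ℝ) else 0)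
          + (t / sig p) * (∑ i, ((S ∩ J i).card : ℝ))) * wgt p f S := by
  classical
  have hO : ∀ S, outC J Good S = outC J Good (S ∩ JJ) := by
    intro S
    unfold outC
    rw [tup_inter hJ]
  have hfun : outC J Good = fun S => outC J Good (S ∩ JJ) := funext hO
  have h2 := outer_step h0 h1 hf JJ (outC J Good) ∅
  rw [← hfun] at h2
  have h3 : ∀ y, Hlaw JJ.powerset (Qy p f JJ y) (outC J Good)
      ≤ ∑ i, Hlaw JJ.powerset (Qy p f JJ y) (fun A => leaf (A ∩ J i)) := by
    intro y
    exact tuple_step h0 h1 hf JJ y (fun i A => leaf (A ∩ J i))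
      (fun t => if Good t then some t else none)
  have h4 := avg_mono h0 h1 JJᶜ ∅ h3
  rw [avg_sum] at h4
  have h5 : ∑ i, avg p JJᶜ (fun y => Hlaw JJ.powerset (Qy p f JJ y) (fun A => leaf (A ∩ J i))) ∅
      ≤ ∑ i : Fin m, (y₀ + ∑ S, (CLS p * (if (S ∩ J i).card = 1 then (((S ∩ JJ) \ J i).card : ℝ) else 0)
          + (if S ∩ J i = ∅ then 0 else 1)
          + log (1 / y₀) * (if 2 ≤ (S ∩ J i).card then 1 else 0)
          + 2 * log (1 / t) * (if (S ∩ J i).card = 1 then 1 else 0)
          + (t / sig p) * ((S ∩ J i).card : ℝ)) * wgt p f S) :=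
    Finset.sum_le_sum fun i _ => leaf_bound h0 h1 hf (hJ i) ht hy₀ ∅
  have h6 : ∑ S, (if outC J Good (S ∩ JJ) = none then 0 else ((S \ JJ).card : ℝ)) * wgt p f S
      = ∑ S, (if Good (tup J S) then ((S \ JJ).card : ℝ) else 0) * wgt p f S := by
    apply Finset.sum_congr rfl
    intro S _
    rw [← hO]
    by_cases h : Good (tup J S)
    · have h' : outC J Good S = some (tup J S) := by unfold outC; rw [if_pos h]
      rw [h', if_pos h]; simp
    · have h' : outC J Good S = none := by unfold outC; rw [if_neg h]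
      rw [h', if_neg h]; simp
  rw [h6] at h2
  refine h2.trans ?_
  rw [Finset.sum_add_distrib, Finset.sum_const, Finset.card_univ, Fintype.card_fin, nsmul_eq_mul] at h5
  have h7 : ∑ i : Fin m, ∑ S, (CLS p * (if (S ∩ J i).card = 1 then (((S ∩ JJ) \ J i).card : ℝ) else 0)
          + (if S ∩ J i = ∅ then 0 else 1)
          + log (1 / y₀) * (if 2 ≤ (S ∩ J i).card then 1 else 0)
          + 2 * log (1 / t) * (if (S ∩ J i).card = 1 then 1 else 0)
          + (t / sig p) * ((S ∩ J i).card : ℝ)) * wgt p f S
      = ∑ S, (CLS p * (∑ i, (if (S ∩ J i).card = 1 then (((S ∩ JJ) \ J i).card : ℝ) else 0))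
          + (∑ i, if S ∩ J i = ∅ then (0 : ℝ) else 1)
          + log (1 / y₀) * (∑ i, if 2 ≤ (S ∩ J i).card then (1 : ℝ) else 0)
          + 2 * log (1 / t) * (∑ i, if (S ∩ J i).card = 1 then (1 : ℝ) else 0)
          + (t / sig p) * (∑ i, ((S ∩ J i).card : ℝ))) * wgt p f S := by
    rw [Finset.sum_comm]
    apply Finset.sum_congr rfl
    intro S _
    rw [← Finset.sum_mul]
    congr 1
    simp only [Finset.sum_add_distrib, Finset.mul_sum]
  rw [h7] at h5
  have h8 : CLS p * ∑ S, (if Good (tup J S) then ((S \ JJ).card : ℝ) else 0) * wgt p f S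
      + ∑ S, (CLS p * (∑ i, (if (S ∩ J i).card = 1 then (((S ∩ JJ) \ J i).card : ℝ) else 0))
          + (∑ i, if S ∩ J i = ∅ then (0 : ℝ) else 1)
          + log (1 / y₀) * (∑ i, if 2 ≤ (S ∩ J i).card then (1 : ℝ) else 0)
          + 2 * log (1 / t) * (∑ i, if (S ∩ J i).card = 1 then (1 : ℝ) else 0)
          + (t / sig p) * (∑ i, ((S ∩ J i).card : ℝ))) * wgt p f S
      = ∑ S, (CLS p * ((if Good (tup J S) then ((S \ JJ).card : ℝ) else 0)
            + ∑ i, (if (S ∩ J i).card = 1 then (((S ∩ JJ) \ J i).card : ℝ) else 0))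
          + (∑ i, if S ∩ J i = ∅ then (0 : ℝ) else 1)
          + log (1 / y₀) * (∑ i, if 2 ≤ (S ∩ J i).card then (1 : ℝ) else 0)
          + 2 * log (1 / t) * (∑ i, if (S ∩ J i).card = 1 then (1 : ℝ) else 0)
          + (t / sig p) * (∑ i, ((S ∩ J i).card : ℝ))) * wgt p f S := by
    rw [Finset.mul_sum, ← Finset.sum_add_distrib]
    apply Finset.sum_congr rfl
    intro S _
    ring
  linarith

end Vale.Agent.Lib.P063
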