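import Vale.Agent.Lib.P063.Upper

/-!
Symmetries: a permutation of the coordinates preserving `f` preserves the spectral weights and the
law of the sketch.
-/

namespace Vale.Agent.Lib.P063

open Finset Real

variable {X : Type*} [DecidableEq X] [Fintype X]

lemma fhat_eq_sum (p : ℝ) (f : Finset X → ℝ) (S : Finset X) :
    fhat p f S = ∑ U, wt p univ U * chi p S U * f U := by
  unfold fhat coef
  rw [Finset.powerset_univ]
  apply Finset.sum_congr rfl
  intro U _
  simp

lemma wt_univ_map (p : ℝ) (γ : Equiv.Perm X) (U : Finset X) :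
    wt p univ (U.map γ.toEmbedding) = wt p univ U := by
  unfold wt
  rw [Finset.card_map, ← Finset.compl_eq_univ_sdiff, ← Finset.compl_eq_univ_sdiff, Finset.card_compl,
    Finset.card_compl, Finset.card_map]

lemma chi_map (p : ℝ) (γ : Equiv.Perm X) (S U : Finset X) :
    chi p (S.map γ.toEmbedding) (U.map γ.toEmbedding) = chi p S U := by
  unfold chi
  rw [Finset.prod_map]
  apply Finset.prod_congr rfl
  intro e _
  simp

/-- Invariance of the Fourier coefficients. -/
lemma fhat_map (p : ℝ) {f : Finset X → ℝ} (γ : Equiv.Perm X)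
    (hf : ∀ x, f (x.map γ.toEmbedding) = f x) (S : Finset X) :
    fhat p f (S.map γ.toEmbedding) = fhat p f S := by
  rw [fhat_eq_sum, fhat_eq_sum]
  apply Finset.sum_bij (fun U _ => U.map γ.symm.toEmbedding)
  · intro U _
    exact Finset.mem_univ _
  · intro U _ U' _ h
    exact Finset.map_injective _ h
  · intro U _
    refine ⟨U.map γ.toEmbedding, Finset.mem_univ _, ?_⟩
    ext a
    simp
  · intro U _
    have e1 : U = (U.map γ.symm.toEmbedding).map γ.toEmbedding := by
      ext a
      simp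
    conv_lhs => rw [e1]
    rw [wt_univ_map, chi_map, hf]

lemma wgt_map (p : ℝ) {f : Finset X → ℝ} (γ : Equiv.Perm X)
    (hf : ∀ x, f (x.map γ.toEmbedding) = f x) (S : Finset X) :
    wgt p f (S.map γ.toEmbedding) = wgt p f S := by
  unfold wgt
  rw [fhat_map p γ hf]

lemma JC_comp {m M : ℕ} (c : X → Fin M) (γ : Equiv.Perm X) (i : Fin m) :
    JC (c ∘ γ.symm) i = (JC c i).map γ.toEmbedding := by
  ext a
  simp [mem_JC]

lemma inter_map_JC {m M : ℕ} (c : X → Fin M) (γ : Equiv.Perm X) (S : Finset X) (i : Fin m) :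
    S.map γ.toEmbedding ∩ JC (c ∘ γ.symm) i = (S ∩ JC c i).map γ.toEmbedding := by
  rw [JC_comp, Finset.map_inter]

lemma goodC_comp {m M : ℕ} (c : X → Fin M) (γ : Equiv.Perm X) (S : Finset X) :
    goodC m (c ∘ γ.symm) (S.map γ.toEmbedding) ↔ goodC m c S := by
  unfold goodC
  simp only [inter_map_JC, ne_eq, Finset.map_eq_empty]

/-- Equivariance of the sketch. -/
lemma Rc_comp {m M : ℕ} (c : X → Fin M) (γ : Equiv.Perm X) (S : Finset X) :
    Rc m (c ∘ γ.symm) (S.map γ.toEmbedding) = (Rc m c S).map γ.toEmbedding := by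
  ext a
  rw [mem_Rc, goodC_comp]
  simp only [inter_map_JC]
  constructor
  · rintro ⟨hg, i, hi⟩
    rw [Finset.mem_map]
    refine ⟨γ.symm a, ?_, by simp⟩
    rw [mem_Rc]
    refine ⟨hg, i, ?_⟩
    have : ({a} : Finset X) = ({γ.symm a} : Finset X).map γ.toEmbedding := by simp
    rw [this] at hi
    exact Finset.map_injective _ hi
  · intro h
    rw [Finset.mem_map] at h
    obtain ⟨b, hb, rfl⟩ := h
    obtain ⟨hg, i, hi⟩ := mem_Rc.mp hb
    refine ⟨hg, i, ?_⟩
    rw [hi]
    simp

/-- The law of the sketch, over a random coloring and a random spectral set. -/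
noncomputable def lawR (m M : ℕ) (p : ℝ) (f : Finset X → ℝ) (r : Finset X) : ℝ :=
  law ((Finset.univ : Finset (X → Fin M)) ×ˢ (Finset.univ : Finset (Finset X)))
    (fun a => pc X M * wgt p f a.2) (fun a => Rc m a.1 a.2) r

lemma lawR_nonneg {m M : ℕ} (hM : 0 < M) (p : ℝ) (f : Finset X → ℝ) (r : Finset X) :
    0 ≤ lawR m M p f r :=
  law_nonneg _ (fun a _ => mul_nonneg (pc_pos X hM).le (wgt_nonneg p f a.2)) _ r

lemma sum_lawR {m M : ℕ} (hM : 0 < M) {p : ℝ} (h0 : 0 < p) (h1 : p < 1) {f : Finset X → ℝ}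
    (hf : ∀ x, f x ^ 2 = 1) : ∑ r, lawR m M p f r = 1 := by
  unfold lawR
  rw [sum_law, Finset.sum_product]
  have := Ec_const (X := X) hM 1
  unfold Ec at this
  calc ∑ c : X → Fin M, ∑ S, pc X M * wgt p f S = ∑ c : X → Fin M, pc X M * 1 := by
        apply Finset.sum_congr rfl
        intro c _
        rw [← Finset.mul_sum, sum_wgt h0 h1 hf]
    _ = 1 := this

/-- Invariance of the law of the sketch. -/
lemma lawR_map {m M : ℕ} (p : ℝ) {f : Finset X → ℝ} (γ : Equiv.Perm X)
    (hf : ∀ x, f (x.map γ.toEmbedding) = f x) (r : Finset X) :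
    lawR m M p f (r.map γ.toEmbedding) = lawR m M p f r := by
  unfold lawR law
  rw [Finset.sum_filter, Finset.sum_filter]
  symm
  apply Finset.sum_bij (fun (a : (X → Fin M) × Finset X) _ =>
    ((a.1 ∘ γ.symm, a.2.map γ.toEmbedding) : (X → Fin M) × Finset X))
  · intro a _
    exact Finset.mem_product.mpr ⟨Finset.mem_univ _, Finset.mem_univ _⟩
  · intro a _ b _ h
    have h1 : a.1 ∘ γ.symm = b.1 ∘ γ.symm := congrArg Prod.fst h
    have h2 : a.2.map γ.toEmbedding = b.2.map γ.toEmbedding := congrArg Prod.snd h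
    apply Prod.ext
    · funext x
      have := congrFun h1 (γ x)
      simpa using this
    · exact Finset.map_injective _ h2
  · intro b _
    refine ⟨(b.1 ∘ γ, b.2.map γ.symm.toEmbedding), Finset.mem_product.mpr ⟨Finset.mem_univ _,
      Finset.mem_univ _⟩, ?_⟩
    apply Prod.ext
    · funext x
      simp
    · ext a
      simp
  · intro a _
    simp only
    rw [Rc_comp, wgt_map p γ hf]
    by_cases h : Rc m a.1 a.2 = r
    · rw [if_pos h, if_pos (by rw [h])]
    · rw [if_neg h, if_neg (fun h2 => h (Finset.map_injective _ h2))]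

/-- The average over the sketch of a function, in terms of colorings and spectral sets. -/
lemma sum_lawR_mul (m M : ℕ) (p : ℝ) (f : Finset X → ℝ) (h : Finset X → ℝ) :
    ∑ r, lawR m M p f r * h r
      = ∑ S, wgt p f S * Ec M (fun c : X → Fin M => h (Rc m c S)) := by
  unfold lawR
  rw [sum_law_mul, Finset.sum_product_right]
  apply Finset.sum_congr rfl
  intro S _
  unfold Ec
  rw [Finset.mul_sum]
  apply Finset.sum_congr rfl
  intro c _
  ring

end Vale.Agent.Lib.P063
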