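import Vale.Agent.Lib.P063.Defs
import Vale.Agent.Lib.P063.Symm

/-!
The lower bound for the entropy of the sketch on hypergraphs: orbits and vertex supports.
-/

namespace Vale.Agent.Lib.P063

open Finset Real

variable {n r : ℕ}

/-- The permutation of the edges induced by a vertex permutation. -/
def edgePerm (g : Equiv.Perm (Fin n)) : Equiv.Perm (Edge n r) where
  toFun := permEdge g
  invFun := permEdge g.symm
  left_inv := by
    intro e
    apply Subtype.ext
    ext a
    simp [permEdge]
  right_inv := by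
    intro e
    apply Subtype.ext
    ext a
    simp [permEdge]

/-- The vertices covered by a set of edges. -/
def Vt (R : Finset (Edge n r)) : Finset (Fin n) := R.biUnion fun e => e.1

lemma Vt_map (g : Equiv.Perm (Fin n)) (R : Finset (Edge n r)) :
    Vt (R.map (edgePerm g).toEmbedding) = (Vt R).map g.toEmbedding := by
  ext a
  simp only [Vt, Finset.mem_biUnion, Finset.mem_map]
  constructor
  · rintro ⟨e, ⟨e', he', rfl⟩, ha⟩
    simp only [edgePerm, permEdge, Equiv.coe_toEmbedding, Equiv.coe_fn_mk] at ha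
    rw [Finset.mem_map] at ha
    obtain ⟨b, hb, rfl⟩ := ha
    exact ⟨b, ⟨e', he', hb⟩, rfl⟩
  · rintro ⟨b, ⟨e', he', hb⟩, rfl⟩
    refine ⟨(edgePerm g).toEmbedding e', ⟨e', he', rfl⟩, ?_⟩
    simp only [edgePerm, permEdge, Equiv.coe_toEmbedding, Equiv.coe_fn_mk]
    exact Finset.mem_map_of_mem _ hb

lemma Vt_card_le (R : Finset (Edge n r)) : (Vt R).card ≤ r * R.card := by
  unfold Vt
  refine Finset.card_biUnion_le.trans ?_
  rw [Finset.sum_congr rfl (fun e _ => e.2), Finset.sum_const, smul_eq_mul, mul_comm]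

/-- Two vertex sets of equal size are related by a vertex permutation. -/
lemma exists_perm_map {s t : Finset (Fin n)} (h : s.card = t.card) :
    ∃ g : Equiv.Perm (Fin n), s.map g.toEmbedding = t := by
  classical
  let e : {x // x ∈ s} ≃ {x // x ∈ t} := Finset.equivOfCardEq h
  refine ⟨e.extendSubtype, ?_⟩
  apply Finset.eq_of_subset_of_card_le
  · intro a ha
    rw [Finset.mem_map] at ha
    obtain ⟨b, hb, rfl⟩ := ha
    exact Equiv.extendSubtype_mem e b hb
  · rw [Finset.card_map, h]

variable {X : Type*}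

/-- The orbit bound. -/
lemma lawR_orbit {m M : ℕ} (hM : 0 < M) {p : ℝ} (h0 : 0 < p) (h1 : p < 1)
    {f : Finset (Edge n r) → ℝ} (hf2 : ∀ x, f x ^ 2 = 1)
    (hf : ∀ (g : Equiv.Perm (Fin n)) (x : Finset (Edge n r)),
      f (x.map (edgePerm g).toEmbedding) = f x) (R : Finset (Edge n r)) :
    lawR m M p f R * (n.choose (Vt R).card : ℝ) ≤ 1 := by
  classical
  set v := (Vt R).card with hv
  have hex : ∀ W : Finset (Fin n), W ∈ Finset.powersetCard v (Finset.univ : Finset (Fin n)) →
      ∃ g : Equiv.Perm (Fin n), (Vt R).map g.toEmbedding = W := by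
    intro W hW
    exact exists_perm_map (by rw [(Finset.mem_powersetCard.mp hW).2])
  choose! g hg using hex
  set φ : Finset (Fin n) → Finset (Edge n r) := fun W => R.map (edgePerm (g W)).toEmbedding with hφ
  have hinj : Set.InjOn φ (Finset.powersetCard v (Finset.univ : Finset (Fin n))) := by
    intro W hW W' hW' h
    have h1 : Vt (φ W) = W := by
      simp only [hφ]
      rw [Vt_map, hg W hW]
    have h2 : Vt (φ W') = W' := by
      simp only [hφ]
      rw [Vt_map, hg W' hW']
    rw [← h1, ← h2, h]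
  have hsum : ∑ W ∈ Finset.powersetCard v (Finset.univ : Finset (Fin n)), lawR m M p f (φ W) ≤ 1 := by
    rw [← Finset.sum_image (f := lawR m M p f) hinj, ← sum_lawR (m := m) hM h0 h1 hf2]
    exact Finset.sum_le_sum_of_subset_of_nonneg (Finset.subset_univ _)
      (fun r' _ _ => lawR_nonneg hM p f r')
  have hconst : ∀ W ∈ Finset.powersetCard v (Finset.univ : Finset (Fin n)),
      lawR m M p f (φ W) = lawR m M p f R := fun W _ => lawR_map p (edgePerm (g W)) (hf (g W)) R
  rw [Finset.sum_congr rfl hconst, Finset.sum_const, Finset.card_powersetCard, Finset.card_univ,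
    Fintype.card_fin, nsmul_eq_mul] at hsum
  linarith

/-- A lower bound for binomial coefficients. -/
lemma sqrt_pow_le_choose {v : ℕ} (h : 4 * v ^ 2 ≤ n) :
    Real.sqrt n ^ v ≤ (n.choose v : ℝ) := by
  rcases Nat.eq_zero_or_pos v with hv | hv
  · rw [hv]; simp
  have hvn : v ≤ n := by nlinarith
  have hv1 : (1 : ℝ) ≤ v := by exact_mod_cast hv
  have hn : (4 : ℝ) * (v : ℝ) ^ 2 ≤ n := by exact_mod_cast h
  set x := Real.sqrt n with hx
  have hx2 : x ^ 2 = n := Real.sq_sqrt (by positivity)
  have hx0 : 0 ≤ x := Real.sqrt_nonneg _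
  have h2v : 2 * (v : ℝ) ≤ x := by
    apply (pow_le_pow_iff_left₀ (by positivity) hx0 (two_ne_zero)).mp
    nlinarith
  have hx1 : 1 ≤ x := by linarith
  have hmain : (v : ℝ) * x ≤ ((n + 1 - v : ℕ) : ℝ) := by
    rw [Nat.cast_sub (by omega)]
    push_cast
    nlinarith
  have h1 := Nat.pow_le_choose (α := ℝ) v n
  have h2 : ((v.factorial : ℕ) : ℝ) ≤ (v : ℝ) ^ v := by
    exact_mod_cast Nat.factorial_le_pow v
  have hfpos : (0 : ℝ) < (v.factorial : ℕ) := by exact_mod_cast Nat.factorial_pos v
  refine le_trans ?_ h1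
  rw [le_div_iff₀ hfpos]
  calc x ^ v * (v.factorial : ℝ) ≤ x ^ v * (v : ℝ) ^ v :=
        mul_le_mul_of_nonneg_left h2 (by positivity)
    _ = ((v : ℝ) * x) ^ v := by rw [mul_pow]; ring
    _ ≤ _ := pow_le_pow_left₀ (by positivity) hmain v

/-- The entropy of the sketch is at least the size of the orbit. -/
theorem entropy_lower {m M : ℕ} (hM : 0 < M) (hn : 4 * (r * m) ^ 2 ≤ n) {p : ℝ} (h0 : 0 < p)
    (h1 : p < 1) {f : Finset (Edge n r) → ℝ} (hf2 : ∀ x, f x ^ 2 = 1)
    (hf : ∀ (g : Equiv.Perm (Fin n)) (x : Finset (Edge n r)),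
      f (x.map (edgePerm g).toEmbedding) = f x) :
    (1 / 2) * log n * ∑ R, lawR m M p f R * ((Vt R).card : ℝ)
      ≤ Hlaw ((Finset.univ : Finset (Edge n r → Fin M)) ×ˢ (Finset.univ : Finset (Finset (Edge n r))))
        (fun a => pc (Edge n r) M * wgt p f a.2) (fun a => Rc m a.1 a.2) := by
  classical
  unfold Hlaw
  rw [Finset.mul_sum]
  apply Finset.sum_le_sum
  intro R _
  show (1 / 2) * log n * (lawR m M p f R * ((Vt R).card : ℝ)) ≤ negMulLog (lawR m M p f R)
  set P := lawR m M p f R with hP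
  have hP0 : 0 ≤ P := lawR_nonneg hM p f R
  rcases hP0.eq_or_lt with h | hpos
  · rw [← h]; simp
  -- the sketch is realised, so it is small
  have hcard : R.card ≤ m := by
    have hne : ((Finset.univ : Finset (Edge n r → Fin M)) ×ˢ (Finset.univ : Finset (Finset (Edge n r)))).filter
        (fun a => Rc m a.1 a.2 = R) ≠ ∅ := by
      intro hemp
      have : P = 0 := by
        rw [hP]
        unfold lawR law
        rw [hemp]
        simp
      linarith
    obtain ⟨a, ha⟩ := Finset.nonempty_iff_ne_empty.mpr hne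
    have ha' := (Finset.mem_filter.mp ha).2
    rw [← ha']
    exact Rc_card_le a.1 a.2
  set v := (Vt R).card with hv
  have hvle : v ≤ r * m := (Vt_card_le R).trans (Nat.mul_le_mul_left r hcard)
  have hv4 : 4 * v ^ 2 ≤ n := by
    refine le_trans ?_ hn
    exact Nat.mul_le_mul_left 4 (Nat.pow_le_pow_left hvle 2)
  have hchoose := sqrt_pow_le_choose hv4
  have horb := lawR_orbit (m := m) hM h0 h1 hf2 hf R
  rw [← hP, ← hv] at horb
  have hn1 : (0 : ℝ) ≤ n := by positivity
  by_cases hv0 : v = 0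
  · rw [hv0]
    simp only [Nat.cast_zero, mul_zero]
    have : P ≤ 1 := by
      rw [hv0] at horb
      simpa using horb
    exact Real.negMulLog_nonneg hP0 this
  have hvpos : 0 < v := Nat.pos_of_ne_zero hv0
  have hnpos : 0 < n := by nlinarith
  have hn1' : (1 : ℝ) ≤ n := by exact_mod_cast hnpos
  have hspos : 0 < Real.sqrt n := Real.sqrt_pos.mpr (by linarith)
  have hcpos : (0 : ℝ) < (n.choose v : ℝ) := lt_of_lt_of_le (by positivity) hchoose
  have hlog1 : (v : ℝ) * ((1 / 2) * log n) ≤ log (n.choose v : ℝ) := by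
    have h2 := Real.log_le_log (by positivity) hchoose
    rw [Real.log_pow, Real.log_sqrt (by linarith)] at h2
    calc (v : ℝ) * ((1 / 2) * log n) = (v : ℝ) * (log n / 2) := by ring
      _ ≤ _ := h2
  have hlog2 : log P + log (n.choose v : ℝ) ≤ 0 := by
    rw [← Real.log_mul hpos.ne' hcpos.ne']
    exact Real.log_nonpos (by positivity) horb
  unfold negMulLog
  have : P * ((v : ℝ) * ((1 / 2) * log n)) ≤ P * (- log P) :=
    mul_le_mul_of_nonneg_left (by linarith) hP0
  nlinarith

end Vale.Agent.Lib.P063
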