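import Vale.Agent.Lib.P063.LSI

/-!
Entropy toolbox: linear upper bounds for `negMulLog`, subadditivity of the entropy functional,
subadditivity of the Shannon entropy of tuples, and a bound for mixtures.
-/

namespace Vale.Agent.Lib.P063

open Finset Real

lemma neg_le_linear {w y : ℝ} (hw : 0 ≤ w) (hy : 0 < y) :
    negMulLog w ≤ y - w + w * log (1 / y) := by
  rcases hw.eq_or_lt with h | h
  · rw [← h]; simp [hy.le]
  · have h1 := Real.log_le_sub_one_of_pos (div_pos hy h)
    rw [Real.log_div hy.ne' h.ne'] at h1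
    have h2 : w * (log y - log w) ≤ w * (y / w - 1) := mul_le_mul_of_nonneg_left h1 hw
    have h3 : w * (y / w - 1) = y - w := by field_simp
    rw [one_div, Real.log_inv]
    unfold negMulLog
    nlinarith

lemma neg_le_one_sub {w : ℝ} (hw : 0 ≤ w) : negMulLog w ≤ 1 - w := by
  have := neg_le_linear hw one_pos
  simpa using this

lemma neg_sq_le (a : ℝ) {t : ℝ} (ht : 0 < t) :
    negMulLog (a ^ 2) ≤ 2 * t * |a| + 2 * a ^ 2 * log (1 / t) := by
  rcases eq_or_ne a 0 with h | h
  · rw [h]; simp
  · have hab : 0 < |a| := abs_pos.mpr h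
    have h1 := Real.log_le_sub_one_of_pos (div_pos ht hab)
    rw [Real.log_div ht.ne' hab.ne'] at h1
    have hsq : a ^ 2 = |a| ^ 2 := (sq_abs a).symm
    have hlog : log (a ^ 2) = 2 * log |a| := by rw [hsq, Real.log_pow]; norm_num
    have h2 : |a| ^ 2 * (log t - log |a|) ≤ |a| ^ 2 * (t / |a| - 1) :=
      mul_le_mul_of_nonneg_left h1 (by positivity)
    have h3 : |a| ^ 2 * (t / |a| - 1) = t * |a| - |a| ^ 2 := by field_simp
    unfold negMulLog
    rw [hlog, one_div, Real.log_inv, hsq]
    nlinarith [sq_nonneg |a|]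

lemma neg_add_le {a b : ℝ} (ha : 0 ≤ a) (hb : 0 ≤ b) :
    negMulLog (a + b) ≤ negMulLog a + negMulLog b := by
  rcases ha.eq_or_lt with h | h
  · rw [← h]; simp
  rcases hb.eq_or_lt with h' | h'
  · rw [← h']; simp
  unfold negMulLog
  have h1 : log a ≤ log (a + b) := Real.log_le_log h (by linarith)
  have h2 : log b ≤ log (a + b) := Real.log_le_log h' (by linarith)
  nlinarith

lemma neg_sum_le {ι : Type*} (s : Finset ι) (z : ι → ℝ) (hz : ∀ i ∈ s, 0 ≤ z i) :
    negMulLog (∑ i ∈ s, z i) ≤ ∑ i ∈ s, negMulLog (z i) := by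
  classical
  induction s using Finset.induction_on with
  | empty => simp
  | insert a s ha ih =>
    rw [Finset.sum_insert ha, Finset.sum_insert ha]
    have h1 : 0 ≤ z a := hz a (Finset.mem_insert_self a s)
    have h2 : ∀ i ∈ s, 0 ≤ z i := fun i hi => hz i (Finset.mem_insert_of_mem hi)
    have h3 : 0 ≤ ∑ i ∈ s, z i := Finset.sum_nonneg h2
    have h4 := ih h2
    have h5 := neg_add_le h1 h3
    linarith

/-! ### The entropy functional -/

variable {X : Type*} [DecidableEq X]

lemma neg_avg_eq (p : ℝ) (T : Finset X) (ψ : Finset X → ℝ) (x : Finset X) :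
    negMulLog (avg p T ψ x) = avg p T (fun y => negMulLog (ψ y)) x + Ent p T ψ x := by
  unfold Ent negMulLog
  have : (fun y => -ψ y * log (ψ y)) = fun y => (-1) * (ψ y * log (ψ y)) := by
    funext y; ring
  rw [this, avg_smul]
  ring

lemma log_sum_two' {a b c d : ℝ} (ha : 0 ≤ a) (hb : 0 ≤ b) (hc : 0 < c) (hd : 0 < d) :
    (a + b) * log ((a + b) / (c + d)) ≤ a * log (a / c) + b * log (b / d) := by
  rcases ha.eq_or_lt with h | ha'
  · rw [← h]
    simp only [zero_add, zero_mul]
    rcases hb.eq_or_lt with h' | hb'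
    · rw [← h']; simp
    · apply mul_le_mul_of_nonneg_left _ hb
      apply Real.log_le_log (by positivity)
      apply div_le_div_of_nonneg_left hb hd (by linarith)
  rcases hb.eq_or_lt with h | hb'
  · rw [← h]
    simp only [add_zero, zero_mul]
    apply mul_le_mul_of_nonneg_left _ ha
    apply Real.log_le_log (by positivity)
    apply div_le_div_of_nonneg_left ha hc (by linarith)
  have hs : 0 < a + b := by linarith
  have hcd : 0 < c + d := by linarith
  have h1 := Real.log_le_sub_one_of_pos
    (show 0 < ((a + b) / (c + d)) / (a / c) by positivity)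
  have h2 := Real.log_le_sub_one_of_pos
    (show 0 < ((a + b) / (c + d)) / (b / d) by positivity)
  rw [Real.log_div (by positivity) (by positivity)] at h1 h2
  have h3 := mul_le_mul_of_nonneg_left h1 ha
  have h4 := mul_le_mul_of_nonneg_left h2 hb
  have e1 : a * ((a + b) / (c + d) / (a / c) - 1) = (a + b) * c / (c + d) - a := by
    field_simp
  have e2 : b * ((a + b) / (c + d) / (b / d) - 1) = (a + b) * d / (c + d) - b := by
    field_simp
  have e3 : (a + b) * c / (c + d) + (a + b) * d / (c + d) = a + b := by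
    field_simp
  rw [e1] at h3
  rw [e2] at h4
  nlinarith

/-- Subadditivity of the entropy functional. -/
lemma Ent_add_le {p : ℝ} (h0 : 0 < p) (h1 : p < 1) (T : Finset X) {φ ψ : Finset X → ℝ}
    (x : Finset X) (hφ : ∀ y, 0 ≤ φ y) (hψ : ∀ y, 0 ≤ ψ y) :
    Ent p T (fun y => φ y + ψ y) x ≤ Ent p T φ x + Ent p T ψ x := by
  have hφ0 : 0 ≤ avg p T φ x := avg_nonneg h0 h1 T x hφ
  have hψ0 : 0 ≤ avg p T ψ x := avg_nonneg h0 h1 T x hψ
  have hentz : ∀ {χ : Finset X → ℝ}, (∀ y, 0 ≤ χ y) → avg p T χ x = 0 → ∀ (ξ : Finset X → ℝ),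
      Ent p T (fun y => χ y + ξ y) x = Ent p T ξ x ∧ Ent p T χ x = 0 := by
    intro χ hχ hz ξ
    have hv : ∀ U ⊆ T, χ ((x \ T) ∪ U) = 0 := fun U hU => avg_eq_zero h0 h1 T x hχ hz U hU
    constructor
    · unfold Ent
      have h2 : avg p T (fun y => χ y + ξ y) x = avg p T ξ x := by
        rw [avg_add, hz, zero_add]
      rw [h2]
      congr 1
      apply avg_congr_pts
      intro U hU
      simp only [hv U hU, zero_add]
    · unfold Ent
      have h3 : avg p T (fun y => χ y * log (χ y)) x = avg p T (fun _ => (0 : ℝ)) x := by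
        apply avg_congr_pts
        intro U hU
        rw [hv U hU, zero_mul]
      rw [h3, avg_const, hz]
      simp
  rcases hφ0.eq_or_lt with hz | hφpos
  · obtain ⟨h2, h3⟩ := hentz hφ hz.symm ψ
    rw [h2, h3, zero_add]
  rcases hψ0.eq_or_lt with hz | hψpos
  · obtain ⟨h2, h3⟩ := hentz hψ hz.symm φ
    have : (fun y => φ y + ψ y) = fun y => ψ y + φ y := by funext y; ring
    rw [this, h2, h3, add_zero]
  set c := avg p T φ x with hc
  set d := avg p T ψ x with hd
  have hcd : 0 < c + d := by linarith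
  have hsum : avg p T (fun y => φ y + ψ y) x = c + d := avg_add p T φ ψ x
  have key : ∀ y, (φ y + ψ y) * log (φ y + ψ y)
      ≤ (φ y * log (φ y) + ψ y * log (ψ y)) + ((φ y + ψ y) * log (c + d) - φ y * log c - ψ y * log d) := by
    intro y
    have h2 := log_sum_two' (hφ y) (hψ y) hφpos hψpos
    rw [mul_log_div_eq (add_nonneg (hφ y) (hψ y)) hcd, mul_log_div_eq (hφ y) hφpos,
      mul_log_div_eq (hψ y) hψpos] at h2
    linarith
  have hmono := avg_mono h0 h1 T x key
  rw [avg_add, avg_add p T (fun y => φ y * log (φ y)) (fun y => ψ y * log (ψ y))] at hmono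
  have e : avg p T (fun y => (φ y + ψ y) * log (c + d) - φ y * log c - ψ y * log d) x
      = (c + d) * log (c + d) - c * log c - d * log d := by
    have : (fun y => (φ y + ψ y) * log (c + d) - φ y * log c - ψ y * log d)
        = fun y => log (c + d) * (φ y + ψ y) - log c * φ y - log d * ψ y := by
      funext y; ring
    rw [this, avg_sub, avg_sub, avg_smul, avg_smul, avg_smul, hsum]
    ring
  rw [e] at hmono
  unfold Ent
  rw [hsum]
  linarith

lemma Ent_zero (p : ℝ) (T : Finset X) (x : Finset X) : Ent p T (fun _ => 0) x = 0 := by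
  unfold Ent
  simp [avg_const]

/-- Subadditivity of the entropy functional over finite sums. -/
lemma Ent_sum_le {ι : Type*} {p : ℝ} (h0 : 0 < p) (h1 : p < 1) (T : Finset X) (s : Finset ι)
    (φ : ι → Finset X → ℝ) (x : Finset X) (hφ : ∀ i ∈ s, ∀ y, 0 ≤ φ i y) :
    Ent p T (fun y => ∑ i ∈ s, φ i y) x ≤ ∑ i ∈ s, Ent p T (φ i) x := by
  classical
  induction s using Finset.induction_on with
  | empty => simp [Ent_zero]
  | insert a s ha ih =>
    simp only [Finset.sum_insert ha]
    have h2 : ∀ i ∈ s, ∀ y, 0 ≤ φ i y := fun i hi => hφ i (Finset.mem_insert_of_mem hi)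
    have h3 : ∀ y, 0 ≤ ∑ i ∈ s, φ i y := fun y => Finset.sum_nonneg fun i hi => h2 i hi y
    have h4 := Ent_add_le h0 h1 T x (hφ a (Finset.mem_insert_self a s)) h3
    have h5 := ih h2
    linarith

/-- The entropy functional of a function with values in `[0,1]` is at most one. -/
lemma Ent_le_one {p : ℝ} (h0 : 0 < p) (h1 : p < 1) (T : Finset X) {ψ : Finset X → ℝ}
    (x : Finset X) (hψ : ∀ y, 0 ≤ ψ y) (hψ1 : ∀ y, ψ y ≤ 1) : Ent p T ψ x ≤ 1 := by
  have h2 := neg_avg_eq p T ψ x
  have h3 : 0 ≤ avg p T (fun y => negMulLog (ψ y)) x :=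
    avg_nonneg h0 h1 T x fun y => Real.negMulLog_nonneg (hψ y) (hψ1 y)
  have h4 := neg_le_one_sub (avg_nonneg h0 h1 T x hψ)
  have h5 : 0 ≤ avg p T ψ x := avg_nonneg h0 h1 T x hψ
  linarith

/-! ### Shannon entropy of push-forwards -/

section push

variable {Ω β α ι : Type*} [DecidableEq β] [Fintype β]

/-- The law of `τ` under the weights `Q` on `s`. -/
noncomputable def law (s : Finset Ω) (Q : Ω → ℝ) (τ : Ω → β) (b : β) : ℝ :=
  ∑ ω ∈ s with τ ω = b, Q ω

/-- Shannon entropy of the law of `τ`. -/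
noncomputable def Hlaw (s : Finset Ω) (Q : Ω → ℝ) (τ : Ω → β) : ℝ :=
  ∑ b, negMulLog (law s Q τ b)

lemma sum_law_mul (s : Finset Ω) (Q : Ω → ℝ) (τ : Ω → β) (h : β → ℝ) :
    ∑ b, law s Q τ b * h b = ∑ ω ∈ s, Q ω * h (τ ω) := by
  unfold law
  rw [← Finset.sum_fiberwise s τ]
  apply Finset.sum_congr rfl
  intro b _
  rw [Finset.sum_mul]
  apply Finset.sum_congr rfl
  intro ω hω
  rw [(Finset.mem_filter.mp hω).2]

lemma sum_law (s : Finset Ω) (Q : Ω → ℝ) (τ : Ω → β) :
    ∑ b, law s Q τ b = ∑ ω ∈ s, Q ω := by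
  have := sum_law_mul s Q τ (fun _ => 1)
  simpa using this

lemma law_nonneg (s : Finset Ω) {Q : Ω → ℝ} (hQ : ∀ ω ∈ s, 0 ≤ Q ω) (τ : Ω → β) (b : β) :
    0 ≤ law s Q τ b :=
  Finset.sum_nonneg fun ω hω => hQ ω (Finset.mem_filter.mp hω).1

/-- Entropy decreases under coarsening. -/
lemma Hlaw_comp_le {γ : Type*} [DecidableEq γ] [Fintype γ] (s : Finset Ω) {Q : Ω → ℝ}
    (hQ : ∀ ω ∈ s, 0 ≤ Q ω) (τ : Ω → β) (g : β → γ) :
    Hlaw s Q (fun ω => g (τ ω)) ≤ Hlaw s Q τ := by
  unfold Hlaw
  have e : ∀ c, law s Q (fun ω => g (τ ω)) c = ∑ b with g b = c, law s Q τ b := by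
    intro c
    unfold law
    rw [Finset.sum_comm' (t' := s.filter fun ω => g (τ ω) = c)
      (s' := fun ω => (Finset.univ.filter fun b => g b = c).filter fun b => τ ω = b)]
    · apply Finset.sum_congr rfl
      intro ω hω
      have : (Finset.univ.filter fun b => g b = c).filter (fun b => τ ω = b) = {τ ω} := by
        ext b
        simp only [Finset.mem_filter, Finset.mem_univ, true_and, Finset.mem_singleton]
        constructor
        · rintro ⟨_, h⟩; exact h.symm
        · rintro rfl; exact ⟨(Finset.mem_filter.mp hω).2, rfl⟩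
      rw [this, Finset.sum_singleton]
    · intro b ω
      simp only [Finset.mem_filter, Finset.mem_univ, true_and]
      constructor
      · rintro ⟨h1, h2, h3⟩
        subst h3
        exact ⟨⟨h1, rfl⟩, h2, h1⟩
      · rintro ⟨⟨h1, h2⟩, h3, _⟩
        exact ⟨h1, h3, h2⟩
  calc ∑ c, negMulLog (law s Q (fun ω => g (τ ω)) c)
      ≤ ∑ c, ∑ b with g b = c, negMulLog (law s Q τ b) := by
        apply Finset.sum_le_sum
        intro c _
        rw [e c]
        exact neg_sum_le _ _ fun b _ => law_nonneg s hQ τ b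
    _ = ∑ b, negMulLog (law s Q τ b) := Finset.sum_fiberwise _ _ _

/-- Subadditivity: the entropy of a tuple is at most the sum of the entropies of its entries. -/
lemma Hlaw_tuple_le [Fintype ι] [DecidableEq ι] [DecidableEq α] [Fintype α] (s : Finset Ω)
    {Q : Ω → ℝ} (hQ : ∀ ω ∈ s, 0 ≤ Q ω) (hQ1 : ∑ ω ∈ s, Q ω = 1) (T : ι → Ω → α) :
    Hlaw s Q (fun ω i => T i ω) ≤ ∑ i, Hlaw s Q (T i) := by
  classical
  set P : (ι → α) → ℝ := law s Q (fun ω i => T i ω) with hP
  set Pi : ι → α → ℝ := fun i => law s Q (T i) with hPi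
  have hP0 : ∀ t, 0 ≤ P t := fun t => law_nonneg s hQ _ t
  have hPi0 : ∀ i a, 0 ≤ Pi i a := fun i a => law_nonneg s hQ _ a
  have hle : ∀ t i, P t ≤ Pi i (t i) := by
    intro t i
    simp only [hP, hPi, law]
    apply Finset.sum_le_sum_of_subset_of_nonneg
    · intro ω hω
      simp only [Finset.mem_filter] at hω ⊢
      exact ⟨hω.1, by rw [← hω.2]⟩
    · intro ω hω _
      exact hQ ω (Finset.mem_filter.mp hω).1
  set G : (ι → α) → ℝ := fun t => ∏ i, Pi i (t i) with hG
  have hG1 : ∑ t, G t = 1 := by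
    have h1 : ∏ i : ι, ∑ a ∈ (Finset.univ : Finset α), Pi i a
        = ∑ t ∈ Fintype.piFinset (fun _ : ι => (Finset.univ : Finset α)), ∏ i, Pi i (t i) :=
      Finset.prod_univ_sum (fun _ : ι => (Finset.univ : Finset α)) Pi
    rw [Fintype.piFinset_univ] at h1
    simp only [hG]
    rw [← h1]
    apply Finset.prod_eq_one
    intro i _
    simp only [hPi]
    rw [sum_law, hQ1]
  have hP1 : ∑ t, P t = 1 := by
    simp only [hP]
    rw [sum_law, hQ1]
  have hterm : ∀ t, negMulLog (P t) ≤ G t - P t + P t * (∑ i, - log (Pi i (t i))) := by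
    intro t
    rcases (hP0 t).eq_or_lt with h | hpos
    · rw [← h]
      simp only [Real.negMulLog_zero, sub_zero, zero_mul, add_zero]
      exact Finset.prod_nonneg fun i _ => hPi0 i _
    · have hpos' : ∀ i, 0 < Pi i (t i) := fun i => lt_of_lt_of_le hpos (hle t i)
      have hGpos : 0 < G t := Finset.prod_pos fun i _ => hpos' i
      have := neg_le_linear hpos.le hGpos
      have e : log (1 / G t) = ∑ i, - log (Pi i (t i)) := by
        rw [one_div, Real.log_inv, Real.log_prod (fun i _ => (hpos' i).ne'), Finset.sum_neg_distrib]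
      rw [e] at this
      exact this
  have hsum : ∑ t, P t * (∑ i, - log (Pi i (t i))) = ∑ i, Hlaw s Q (T i) := by
    calc ∑ t, P t * (∑ i, - log (Pi i (t i)))
        = ∑ ω ∈ s, Q ω * (∑ i, - log (Pi i (T i ω))) :=
          sum_law_mul s Q (fun ω i => T i ω) (fun t => ∑ i, - log (Pi i (t i)))
      _ = ∑ i, ∑ ω ∈ s, Q ω * (- log (Pi i (T i ω))) := by
          simp_rw [Finset.mul_sum]
          rw [Finset.sum_comm]
      _ = ∑ i, Hlaw s Q (T i) := by
          apply Finset.sum_congr rfl
          intro i _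
          have := sum_law_mul s Q (T i) (fun a => - log (Pi i a))
          rw [← this]
          unfold Hlaw
          apply Finset.sum_congr rfl
          intro a _
          simp only [hPi, negMulLog]
          ring
  calc Hlaw s Q (fun ω i => T i ω) = ∑ t, negMulLog (P t) := rfl
    _ ≤ ∑ t, (G t - P t + P t * (∑ i, - log (Pi i (t i)))) := Finset.sum_le_sum fun t _ => hterm t
    _ = ∑ i, Hlaw s Q (T i) := by
      rw [Finset.sum_add_distrib, Finset.sum_sub_distrib, hG1, hP1, hsum]
      ring

end push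

/-! ### Mixtures: the entropy of a mixture of deterministic images -/

section mix

variable {C Sp β : Type*} [DecidableEq β] [Fintype β]

/-- Entropy of the average law is at most the average entropy plus the average entropy of the
randomness given the input. -/
theorem H_mix_le (Cs : Finset C) (Ss : Finset Sp) {ρc : C → ℝ} {w : Sp → ℝ}
    (hrc : ∀ c ∈ Cs, 0 < ρc c) (hw : ∀ S ∈ Ss, 0 ≤ w S)
    (R : C → Sp → β) :
    Hlaw (Cs ×ˢ Ss) (fun a => ρc a.1 * w a.2) (fun a => R a.1 a.2)
      ≤ ∑ c ∈ Cs, ρc c * Hlaw Ss w (R c) + ∑ S ∈ Ss, w S * Hlaw Cs ρc (fun c => R c S) := by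
  classical
  -- laws
  set Pc : C → β → ℝ := fun c r => law Ss w (R c) r with hPc
  set qS : Sp → β → ℝ := fun S r => law Cs ρc (fun c => R c S) r with hqS
  set P : β → ℝ := fun r => law (Cs ×ˢ Ss) (fun a => ρc a.1 * w a.2) (fun a => R a.1 a.2) r with hP
  have hrc0 : ∀ c ∈ Cs, 0 ≤ ρc c := fun c hc => (hrc c hc).le
  have hPc0 : ∀ c r, 0 ≤ Pc c r := fun c r => law_nonneg Ss hw _ r
  have hqS0 : ∀ S r, 0 ≤ qS S r := fun S r => law_nonneg Cs hrc0 _ r
  -- the two expressions of the mixture
  have hP1 : ∀ r, P r = ∑ c ∈ Cs, ρc c * Pc c r := by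
    intro r
    simp only [hP, hPc, law]
    rw [Finset.sum_filter, Finset.sum_product]
    apply Finset.sum_congr rfl
    intro c _
    rw [Finset.sum_filter, Finset.mul_sum]
    apply Finset.sum_congr rfl
    intro S _
    by_cases h : R c S = r <;> simp [h]
  have hP2 : ∀ r, P r = ∑ S ∈ Ss, w S * qS S r := by
    intro r
    simp only [hP, hqS, law]
    rw [Finset.sum_filter, Finset.sum_product_right]
    apply Finset.sum_congr rfl
    intro S _
    rw [Finset.sum_filter, Finset.mul_sum]
    apply Finset.sum_congr rfl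
    intro c _
    by_cases h : R c S = r <;> simp [h, mul_comm]
  -- the log-sum inequality for fixed `c` and `r`
  have hkey : ∀ c ∈ Cs, ∀ r, Pc c r * log (Pc c r) - Pc c r * log (P r)
      ≤ ∑ S ∈ Ss with R c S = r, w S * (- log (qS S r)) := by
    intro c hc r
    rcases (hPc0 c r).eq_or_lt with h | hpos
    · rw [← h]
      simp only [zero_mul, sub_zero]
      have hzero : ∀ S ∈ Ss.filter (fun S => R c S = r), w S = 0 := by
        have h' : ∑ S ∈ Ss with R c S = r, w S = 0 := h.symm
        exact (Finset.sum_eq_zero_iff_of_nonneg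
          (fun S hS => hw S (Finset.mem_filter.mp hS).1)).mp h'
      rw [Finset.sum_eq_zero]
      intro S hS
      rw [hzero S hS, zero_mul]
    · have hPpos : 0 < P r := by
        rw [hP1 r]
        exact lt_of_lt_of_le (mul_pos (hrc c hc) hpos)
          (Finset.single_le_sum (f := fun c => ρc c * Pc c r)
            (fun c hc => mul_nonneg (hrc0 c hc) (hPc0 c r)) hc)
      set A := Pc c r with hA
      set B := P r with hB
      have hAeq : A = ∑ S ∈ Ss with R c S = r, w S := rfl
      have hterm : ∀ S ∈ Ss.filter (fun S => R c S = r),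
          w S * (log (qS S r) + log (A / B)) ≤ w S * (qS S r * (A / B) - 1) := by
        intro S hS
        have hSm := Finset.mem_filter.mp hS
        have hqpos : 0 < qS S r := by
          simp only [hqS, law]
          refine lt_of_lt_of_le (hrc c hc) ?_
          exact Finset.single_le_sum (f := ρc) (s := Cs.filter fun c' => R c' S = r)
            (fun c' hc' => hrc0 c' (Finset.mem_filter.mp hc').1)
            (Finset.mem_filter.mpr ⟨hc, hSm.2⟩)
        apply mul_le_mul_of_nonneg_left _ (hw S hSm.1)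
        rw [← Real.log_mul hqpos.ne' (div_pos hpos hPpos).ne']
        exact Real.log_le_sub_one_of_pos (mul_pos hqpos (div_pos hpos hPpos))
      have hsum1 := Finset.sum_le_sum hterm
      have hsum2 : ∑ S ∈ Ss with R c S = r, w S * (qS S r * (A / B) - 1)
          ≤ 0 := by
        have h3 : ∑ S ∈ Ss with R c S = r, w S * qS S r ≤ B := by
          rw [hB, hP2 r]
          apply Finset.sum_le_sum_of_subset_of_nonneg (Finset.filter_subset _ _)
          intro S hS _
          exact mul_nonneg (hw S hS) (hqS0 S r)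
        have h4 : ∑ S ∈ Ss with R c S = r, w S * (qS S r * (A / B) - 1)
            = (∑ S ∈ Ss with R c S = r, w S * qS S r) * (A / B) - A := by
          rw [hAeq, Finset.sum_mul, ← Finset.sum_sub_distrib]
          apply Finset.sum_congr rfl
          intros
          ring
        rw [h4]
        have h5 : (∑ S ∈ Ss with R c S = r, w S * qS S r) * (A / B) ≤ B * (A / B) :=
          mul_le_mul_of_nonneg_right h3 (div_pos hpos hPpos).le
        have h6 : B * (A / B) = A := by field_simp
        linarith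
      have hsum3 : ∑ S ∈ Ss with R c S = r, w S * (log (qS S r) + log (A / B))
          = (∑ S ∈ Ss with R c S = r, w S * log (qS S r)) + A * log (A / B) := by
        rw [hAeq, Finset.sum_mul, ← Finset.sum_add_distrib]
        apply Finset.sum_congr rfl
        intros
        ring
      have hsum4 : ∑ S ∈ Ss with R c S = r, w S * (- log (qS S r))
          = - ∑ S ∈ Ss with R c S = r, w S * log (qS S r) := by
        rw [← Finset.sum_neg_distrib]
        apply Finset.sum_congr rfl
        intros
        ring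
      rw [hsum4]
      rw [hsum3, Real.log_div hpos.ne' hPpos.ne'] at hsum1
      have hsum5 := hsum1.trans hsum2
      linarith
  -- summation
  have hL : Hlaw (Cs ×ˢ Ss) (fun a => ρc a.1 * w a.2) (fun a => R a.1 a.2)
      = ∑ r, ∑ c ∈ Cs, ρc c * (- Pc c r * log (P r)) := by
    unfold Hlaw
    apply Finset.sum_congr rfl
    intro r _
    show negMulLog (P r) = _
    unfold negMulLog
    have : ∑ c ∈ Cs, ρc c * (-Pc c r * log (P r)) = - (∑ c ∈ Cs, ρc c * Pc c r) * log (P r) := by
      rw [neg_mul, Finset.sum_mul, ← Finset.sum_neg_distrib]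
      apply Finset.sum_congr rfl
      intros
      ring
    rw [this, ← hP1 r]
  have hR1 : ∑ c ∈ Cs, ρc c * Hlaw Ss w (R c)
      = ∑ r, ∑ c ∈ Cs, ρc c * (- Pc c r * log (Pc c r)) := by
    unfold Hlaw negMulLog
    simp_rw [Finset.mul_sum]
    rw [Finset.sum_comm]
  have hR2 : ∑ c ∈ Cs, ∑ r, ρc c * (∑ S ∈ Ss with R c S = r, w S * (- log (qS S r)))
      = ∑ S ∈ Ss, w S * Hlaw Cs ρc (fun c => R c S) := by
    have e1 : ∀ c, ∑ r, (∑ S ∈ Ss with R c S = r, w S * (- log (qS S r)))
        = ∑ S ∈ Ss, w S * (- log (qS S (R c S))) := by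
      intro c
      rw [← Finset.sum_fiberwise Ss (R c)]
      apply Finset.sum_congr rfl
      intro r _
      apply Finset.sum_congr rfl
      intro S hS
      rw [(Finset.mem_filter.mp hS).2]
    calc ∑ c ∈ Cs, ∑ r, ρc c * (∑ S ∈ Ss with R c S = r, w S * (- log (qS S r)))
        = ∑ c ∈ Cs, ρc c * ∑ S ∈ Ss, w S * (- log (qS S (R c S))) := by
          apply Finset.sum_congr rfl
          intro c _
          rw [← Finset.mul_sum, e1]
      _ = ∑ S ∈ Ss, w S * ∑ c ∈ Cs, ρc c * (- log (qS S (R c S))) := by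
          simp_rw [Finset.mul_sum]
          rw [Finset.sum_comm]
          apply Finset.sum_congr rfl
          intro S _
          apply Finset.sum_congr rfl
          intros
          ring
      _ = ∑ S ∈ Ss, w S * Hlaw Cs ρc (fun c => R c S) := by
          apply Finset.sum_congr rfl
          intro S _
          congr 1
          unfold Hlaw
          have := sum_law_mul Cs ρc (fun c => R c S) (fun r => - log (qS S r))
          rw [← this]
          apply Finset.sum_congr rfl
          intro r _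
          simp only [hqS, negMulLog]
          ring
  have hfinal : ∀ r, ∑ c ∈ Cs, ρc c * (- Pc c r * log (P r))
      ≤ ∑ c ∈ Cs, ρc c * (- Pc c r * log (Pc c r))
        + ∑ c ∈ Cs, ρc c * (∑ S ∈ Ss with R c S = r, w S * (- log (qS S r))) := by
    intro r
    rw [← Finset.sum_add_distrib]
    apply Finset.sum_le_sum
    intro c hc
    have h1 := mul_le_mul_of_nonneg_left (hkey c hc r) (hrc0 c hc)
    calc ρc c * (- Pc c r * log (P r))
        = ρc c * (- Pc c r * log (Pc c r))
          + ρc c * (Pc c r * log (Pc c r) - Pc c r * log (P r)) := by ring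
      _ ≤ _ := by linarith
  rw [hL, hR1, ← hR2, Finset.sum_comm (s := Cs), ← Finset.sum_add_distrib]
  exact Finset.sum_le_sum fun r _ => hfinal r

end mix

end Vale.Agent.Lib.P063
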