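import Vale.Agent.Lib.P063.Cube

/-!
The log-Sobolev inequality on the biased cube, with constant of order `log (1/p)`.
-/

namespace Vale.Agent.Lib.P063

open Finset Real

variable {X : Type*} [DecidableEq X]

/-- The constant in the log-Sobolev inequality. -/
noncomputable def CLS (p : ℝ) : ℝ := 9 + 4 * log (1 / p) / (1 - p) + 4 * log (1 / (1 - p)) / p

lemma mul_log_div_eq {a c : ℝ} (ha : 0 ≤ a) (hc : 0 < c) :
    a * log (a / c) = a * log a - a * log c := by
  rcases ha.eq_or_lt with h | h
  · rw [← h]; simp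
  · rw [Real.log_div h.ne' hc.ne']; ring

lemma mul_log_le_of_nonneg {a c : ℝ} (ha : 0 ≤ a) (hc : 0 < c) :
    a * log (a / c) ≤ a * (a / c - 1) := by
  rcases ha.eq_or_lt with h | h
  · rw [← h]; simp
  · exact mul_le_mul_of_nonneg_left (Real.log_le_sub_one_of_pos (div_pos h hc)) ha

/-- Two-point inequality when the larger value carries weight `P`. -/
lemma two_point_aux {P Q a b : ℝ} (hP : 0 < P) (hQ : 0 < Q) (hPQ : P + Q = 1) (hb : 0 ≤ b)
    (hab : b ≤ a) :
    P * (a ^ 2 * log (a ^ 2)) + Q * (b ^ 2 * log (b ^ 2))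
        - (P * a ^ 2 + Q * b ^ 2) * log (P * a ^ 2 + Q * b ^ 2)
      ≤ (9 + 4 * log (1 / P) / Q) * (P * Q * (a - b) ^ 2) := by
  have hP1 : P < 1 := by linarith
  have hlogP : 0 ≤ log (1 / P) := Real.log_nonneg (by rw [le_div_iff₀ hP]; linarith)
  have ha : 0 ≤ a := hb.trans hab
  rcases ha.eq_or_lt with h0 | hapos
  · have hb0 : b = 0 := le_antisymm (by linarith) hb
    rw [← h0, hb0]
    simp
  set A := a ^ 2 with hA
  set B := b ^ 2 with hB
  have hApos : 0 < A := by positivity
  have hB0 : 0 ≤ B := by positivity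
  have hBA : B ≤ A := by rw [hA, hB]; nlinarith
  set m := P * A + Q * B with hm
  have hmpos : 0 < m := by positivity
  have hmB : B ≤ m := by rw [hm]; nlinarith
  have hmA : P * A ≤ m := by rw [hm]; nlinarith [mul_nonneg hQ.le hB0]
  have hexp : P * (A * log A) + Q * (B * log B) - m * log m
      = P * (A * log (A / m)) + Q * (B * log (B / m)) := by
    rw [mul_log_div_eq hApos.le hmpos, mul_log_div_eq hB0 hmpos, hm]
    ring
  rw [hexp]
  have hE : 0 ≤ P * Q * (a - b) ^ 2 := by positivity
  by_cases hcase : a < 2 * b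
  · have hbpos : 0 < b := by linarith
    have h1 := mul_log_le_of_nonneg hApos.le hmpos
    have h2 := mul_log_le_of_nonneg hB0 hmpos
    have hbound : P * (A * (A / m - 1)) + Q * (B * (B / m - 1)) = P * Q * (A - B) ^ 2 / m := by
      have hQ' : Q = 1 - P := by linarith
      rw [eq_div_iff hmpos.ne']
      have e1 : (A / m - 1) * m = A - m := by field_simp
      have e2 : (B / m - 1) * m = B - m := by field_simp
      calc (P * (A * (A / m - 1)) + Q * (B * (B / m - 1))) * m
          = P * A * ((A / m - 1) * m) + Q * B * ((B / m - 1) * m) := by ring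
        _ = P * A * (A - m) + Q * B * (B - m) := by rw [e1, e2]
        _ = P * Q * (A - B) ^ 2 := by rw [hm, hQ']; ring
    have hAB : (A - B) ^ 2 = (a - b) ^ 2 * (a + b) ^ 2 := by rw [hA, hB]; ring
    have hab9 : (a + b) ^ 2 ≤ 9 * m := by
      have : (a + b) ^ 2 ≤ 9 * B := by rw [hB]; nlinarith
      linarith
    have hfin : P * Q * (A - B) ^ 2 / m ≤ 9 * (P * Q * (a - b) ^ 2) := by
      rw [div_le_iff₀ hmpos, hAB]
      have := mul_le_mul_of_nonneg_left hab9 hE
      nlinarith
    have hterm : 0 ≤ 4 * log (1 / P) / Q * (P * Q * (a - b) ^ 2) := by positivity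
    have h3 : P * (A * log (A / m)) ≤ P * (A * (A / m - 1)) :=
      mul_le_mul_of_nonneg_left h1 hP.le
    have h4 : Q * (B * log (B / m)) ≤ Q * (B * (B / m - 1)) :=
      mul_le_mul_of_nonneg_left h2 hQ.le
    nlinarith
  · have hab2 : 2 * b ≤ a := not_lt.mp hcase
    have hsecond : Q * (B * log (B / m)) ≤ 0 := by
      rcases hB0.eq_or_lt with hB00 | hBpos
      · rw [← hB00]; simp
      · have : log (B / m) ≤ 0 := by
          apply Real.log_nonpos (by positivity)
          rw [div_le_one hmpos]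
          exact hmB
        exact mul_nonpos_of_nonneg_of_nonpos hQ.le (mul_nonpos_of_nonneg_of_nonpos hB0 this)
    have hfirst : log (A / m) ≤ log (1 / P) := by
      apply Real.log_le_log (by positivity)
      rw [div_le_div_iff₀ hmpos hP]
      nlinarith
    have hsq : A ≤ 4 * (a - b) ^ 2 := by rw [hA]; nlinarith
    have hmain : P * (A * log (A / m)) ≤ 4 * log (1 / P) / Q * (P * Q * (a - b) ^ 2) := by
      have e : 4 * log (1 / P) / Q * (P * Q * (a - b) ^ 2)
          = P * (4 * (a - b) ^ 2 * log (1 / P)) := by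
        field_simp
      rw [e]
      apply mul_le_mul_of_nonneg_left _ hP.le
      calc A * log (A / m) ≤ A * log (1 / P) := mul_le_mul_of_nonneg_left hfirst hApos.le
        _ ≤ 4 * (a - b) ^ 2 * log (1 / P) := mul_le_mul_of_nonneg_right hsq hlogP
    have : 0 ≤ 9 * (P * Q * (a - b) ^ 2) := by positivity
    nlinarith

/-- The two-point log-Sobolev inequality. -/
lemma two_point {p a b : ℝ} (h0 : 0 < p) (h1 : p < 1) (ha : 0 ≤ a) (hb : 0 ≤ b) :
    p * (a ^ 2 * log (a ^ 2)) + (1 - p) * (b ^ 2 * log (b ^ 2))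
        - (p * a ^ 2 + (1 - p) * b ^ 2) * log (p * a ^ 2 + (1 - p) * b ^ 2)
      ≤ CLS p * (p * (1 - p) * (a - b) ^ 2) := by
  have hq : 0 < 1 - p := by linarith
  have hl1 : 0 ≤ 4 * log (1 / p) / (1 - p) := by
    have : 0 ≤ log (1 / p) := Real.log_nonneg (by rw [le_div_iff₀ h0]; linarith)
    positivity
  have hl2 : 0 ≤ 4 * log (1 / (1 - p)) / p := by
    have : 0 ≤ log (1 / (1 - p)) := Real.log_nonneg (by rw [le_div_iff₀ hq]; linarith)
    positivity
  have hE : 0 ≤ p * (1 - p) * (a - b) ^ 2 := by positivity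
  rcases le_total b a with hab | hab
  · have := two_point_aux h0 hq (by ring) hb hab
    refine this.trans (mul_le_mul_of_nonneg_right ?_ hE)
    unfold CLS
    linarith
  · have := two_point_aux hq h0 (by ring) ha hab
    have e1 : (1 - p) * (b ^ 2 * log (b ^ 2)) + p * (a ^ 2 * log (a ^ 2))
        - ((1 - p) * b ^ 2 + p * a ^ 2) * log ((1 - p) * b ^ 2 + p * a ^ 2)
        = p * (a ^ 2 * log (a ^ 2)) + (1 - p) * (b ^ 2 * log (b ^ 2))
        - (p * a ^ 2 + (1 - p) * b ^ 2) * log (p * a ^ 2 + (1 - p) * b ^ 2) := by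
      rw [add_comm ((1 - p) * b ^ 2)]
      ring
    rw [e1] at this
    have e2 : (1 - p) * p * (b - a) ^ 2 = p * (1 - p) * (a - b) ^ 2 := by ring
    rw [e2] at this
    refine this.trans (mul_le_mul_of_nonneg_right ?_ hE)
    unfold CLS
    linarith

/-- The entropy functional of a partial average. -/
noncomputable def Ent (p : ℝ) (T : Finset X) (ψ : Finset X → ℝ) (x : Finset X) : ℝ :=
  avg p T (fun y => ψ y * log (ψ y)) x - avg p T ψ x * log (avg p T ψ x)

lemma avg_insert_eq {p : ℝ} {T : Finset X} {e : X} (he : e ∉ T) (ψ : Finset X → ℝ) (x : Finset X) :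
    avg p (insert e T) ψ x = p * avg p T ψ (insert e x) + (1 - p) * avg p T ψ (x.erase e) := by
  rw [avg_insert he]
  have := Eop_coef (p := p) he ∅ ψ x
  unfold avg
  rw [← this]
  rfl

lemma avg_shift_insert {p : ℝ} {T : Finset X} {e : X} (he : e ∉ T) (ψ : Finset X → ℝ)
    (x : Finset X) :
    avg p T (fun y => ψ (insert e y)) x = avg p T ψ (insert e x) := by
  rw [avg_eq_sum, avg_eq_sum]
  apply Finset.sum_congr rfl
  intro U _
  rw [pt_insert_sdiff he]

lemma avg_shift_erase {p : ℝ} {T : Finset X} {e : X} (he : e ∉ T) (ψ : Finset X → ℝ)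
    (x : Finset X) :
    avg p T (fun y => ψ (y.erase e)) x = avg p T ψ (x.erase e) := by
  rw [avg_eq_sum, avg_eq_sum]
  apply Finset.sum_congr rfl
  intro U hU
  rw [pt_erase_sdiff he (Finset.mem_powerset.mp hU)]

/-- The gradient term: Minkowski inequality for the `L²` norm over the other coordinates. -/
lemma sqrt_gap_le {p : ℝ} (h0 : 0 < p) (h1 : p < 1) {T : Finset X} {e : X} (he : e ∉ T)
    (φ : Finset X → ℝ) (x : Finset X) :
    p * (1 - p) * (sqrt (avg p T (fun y => φ y ^ 2) (insert e x))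
        - sqrt (avg p T (fun y => φ y ^ 2) (x.erase e))) ^ 2
      ≤ ∑ B ∈ T.powerset, coef p T B (Dop p e φ) x ^ 2 := by
  rw [← parseval_sq h0 h1]
  set u := avg p T (fun y => φ y ^ 2) (insert e x) with hu
  set v := avg p T (fun y => φ y ^ 2) (x.erase e) with hv
  have hu0 : 0 ≤ u := avg_nonneg h0 h1 _ _ (fun y => sq_nonneg _)
  have hv0 : 0 ≤ v := avg_nonneg h0 h1 _ _ (fun y => sq_nonneg _)
  set c := avg p T (fun y => φ (insert e y) * φ (y.erase e)) x with hc
  have hs2 := sig_sq h0 h1
  have e1 : avg p T (fun y => Dop p e φ y ^ 2) x = p * (1 - p) * (u + v - 2 * c) := by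
    have : (fun y => Dop p e φ y ^ 2) = fun y =>
        p * (1 - p) * ((φ (insert e y)) ^ 2 + (φ (y.erase e)) ^ 2
          - 2 * (φ (insert e y) * φ (y.erase e))) := by
      funext y
      unfold Dop
      rw [mul_pow, hs2]
      ring
    rw [this, avg_smul]
    congr 1
    rw [avg_sub, avg_add, avg_smul, avg_shift_insert he (fun y => φ y ^ 2),
      avg_shift_erase he (fun y => φ y ^ 2)]
  rw [e1]
  have hcs : c ^ 2 ≤ u * v := by
    have := avg_mul_sq_le h0 h1 T (fun y => φ (insert e y)) (fun y => φ (y.erase e)) x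
    rw [avg_shift_insert he (fun y => φ y ^ 2), avg_shift_erase he (fun y => φ y ^ 2)] at this
    exact this
  have hc_le : c ≤ sqrt u * sqrt v := by
    rw [← Real.sqrt_mul hu0]
    exact Real.le_sqrt_of_sq_le hcs
  apply mul_le_mul_of_nonneg_left _ (mul_pos h0 (by linarith)).le
  have := Real.sq_sqrt hu0
  have := Real.sq_sqrt hv0
  nlinarith

/-- The log-Sobolev inequality on the biased cube. -/
theorem lsi {p : ℝ} (h0 : 0 < p) (h1 : p < 1) (T : Finset X) (φ : Finset X → ℝ) (x : Finset X) :
    Ent p T (fun y => φ y ^ 2) x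
      ≤ CLS p * ∑ B ∈ T.powerset, (B.card : ℝ) * coef p T B φ x ^ 2 := by
  classical
  induction T using Finset.induction_on generalizing x with
  | empty => simp [Ent, avg_empty]
  | insert e T he ih =>
    have hq : 0 < 1 - p := by linarith
    set ψ : Finset X → ℝ := fun y => φ y ^ 2 with hψ
    set u := avg p T ψ (insert e x) with hu
    set v := avg p T ψ (x.erase e) with hv
    have hu0 : 0 ≤ u := avg_nonneg h0 h1 _ _ (fun y => sq_nonneg _)
    have hv0 : 0 ≤ v := avg_nonneg h0 h1 _ _ (fun y => sq_nonneg _)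
    have hsplit : Ent p (insert e T) ψ x
        = p * Ent p T ψ (insert e x) + (1 - p) * Ent p T ψ (x.erase e)
          + (p * (u * log u) + (1 - p) * (v * log v)
            - (p * u + (1 - p) * v) * log (p * u + (1 - p) * v)) := by
      unfold Ent
      rw [avg_insert_eq he, avg_insert_eq he]
      ring
    have htwo := two_point (a := sqrt u) (b := sqrt v) h0 h1 (Real.sqrt_nonneg u)
      (Real.sqrt_nonneg v)
    rw [Real.sq_sqrt hu0, Real.sq_sqrt hv0] at htwo
    have hgap := sqrt_gap_le h0 h1 he φ x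
    have hCLS : 0 ≤ CLS p := by
      unfold CLS
      have h1' : 0 ≤ log (1 / p) := Real.log_nonneg (by rw [le_div_iff₀ h0]; linarith)
      have h2' : 0 ≤ log (1 / (1 - p)) := Real.log_nonneg (by rw [le_div_iff₀ hq]; linarith)
      positivity
    have ih1 := ih (insert e x)
    have ih2 := ih (x.erase e)
    have hEop : p * ∑ B ∈ T.powerset, (B.card : ℝ) * coef p T B φ (insert e x) ^ 2
        + (1 - p) * ∑ B ∈ T.powerset, (B.card : ℝ) * coef p T B φ (x.erase e) ^ 2
        = ∑ B ∈ T.powerset, (B.card : ℝ) *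
            (coef p (insert e T) B φ x ^ 2 + coef p (insert e T) (insert e B) φ x ^ 2) := by
      rw [Finset.mul_sum, Finset.mul_sum, ← Finset.sum_add_distrib]
      apply Finset.sum_congr rfl
      intro B hB
      have heB : e ∉ B := fun h => he (Finset.mem_powerset.mp hB h)
      rw [coef_insert he heB, coef_insert_mem h0 h1 he heB]
      have hE := Eop_mul h0 h1 e (coef p T B φ) (coef p T B φ) x
      rw [Eop_coef he, Dop_coef he] at hE
      simp only [← pow_two] at hE
      rw [← hE]
      unfold Eop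
      ring
    have hfinal : ∑ B ∈ (insert e T).powerset, (B.card : ℝ) * coef p (insert e T) B φ x ^ 2
        = ∑ B ∈ T.powerset, (B.card : ℝ) *
            (coef p (insert e T) B φ x ^ 2 + coef p (insert e T) (insert e B) φ x ^ 2)
          + ∑ B ∈ T.powerset, coef p T B (Dop p e φ) x ^ 2 := by
      rw [Finset.sum_powerset_insert he, ← Finset.sum_add_distrib, ← Finset.sum_add_distrib]
      apply Finset.sum_congr rfl
      intro B hB
      have heB : e ∉ B := fun h => he (Finset.mem_powerset.mp hB h)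
      rw [Finset.card_insert_of_notMem heB, coef_insert_mem h0 h1 he heB]
      push_cast
      ring
    rw [hsplit, hfinal, mul_add, ← hEop]
    have h5 : p * Ent p T ψ (insert e x)
        ≤ p * (CLS p * ∑ B ∈ T.powerset, (B.card : ℝ) * coef p T B φ (insert e x) ^ 2) :=
      mul_le_mul_of_nonneg_left ih1 h0.le
    have h6 : (1 - p) * Ent p T ψ (x.erase e)
        ≤ (1 - p) * (CLS p * ∑ B ∈ T.powerset, (B.card : ℝ) * coef p T B φ (x.erase e) ^ 2) :=
      mul_le_mul_of_nonneg_left ih2 hq.le
    have h7 : CLS p * (p * (1 - p) * (sqrt u - sqrt v) ^ 2)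
        ≤ CLS p * ∑ B ∈ T.powerset, coef p T B (Dop p e φ) x ^ 2 :=
      mul_le_mul_of_nonneg_left hgap hCLS
    nlinarith

end Vale.Agent.Lib.P063
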