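import Vale.Agent.Lib.P063.Vertex

/-!
The main inequality: comparing the upper and lower bounds for the entropy of the sketch.
-/

namespace Vale.Agent.Lib.P063

open Finset Real

section quantities

variable {X : Type*} [DecidableEq X] [Fintype X]

/-- The total influence in spectral form. -/
noncomputable def Iinf (p : ℝ) (f : Finset X → ℝ) : ℝ := ∑ S, (S.card : ℝ) * wgt p f S

/-- The truncated influence. -/
noncomputable def Kinf (p : ℝ) (f : Finset X → ℝ) (M : ℕ) : ℝ := ∑ S, umin M S * wgt p f S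

/-- The influence of the low levels. -/
noncomputable def Alow (p : ℝ) (f : Finset X → ℝ) (M : ℕ) : ℝ :=
  ∑ S, (if 32 * S.card ≤ M then (S.card : ℝ) else 0) * wgt p f S

/-- The weight of the high levels. -/
noncomputable def Ttail (p : ℝ) (f : Finset X → ℝ) (M : ℕ) : ℝ :=
  ∑ S, (if 32 * S.card ≤ M then 0 else 1) * wgt p f S

/-- The variance in spectral form. -/
noncomputable def Vnon (p : ℝ) (f : Finset X → ℝ) : ℝ :=
  ∑ S, (if S = ∅ then 0 else 1) * wgt p f S

lemma Alow_nonneg (p : ℝ) (f : Finset X → ℝ) (M : ℕ) : 0 ≤ Alow p f M :=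
  Finset.sum_nonneg fun S _ => mul_nonneg (by split_ifs <;> positivity) (wgt_nonneg p f S)

lemma Ttail_nonneg (p : ℝ) (f : Finset X → ℝ) (M : ℕ) : 0 ≤ Ttail p f M :=
  Finset.sum_nonneg fun S _ => mul_nonneg (by split_ifs <;> norm_num) (wgt_nonneg p f S)

lemma Kinf_le (p : ℝ) (f : Finset X → ℝ) (M : ℕ) :
    Kinf p f M ≤ Alow p f M + M * Ttail p f M := by
  unfold Kinf Alow Ttail
  rw [Finset.mul_sum, ← Finset.sum_add_distrib]
  apply Finset.sum_le_sum
  intro S _
  have hw := wgt_nonneg p f S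
  by_cases h : 32 * S.card ≤ M
  · simp only [h, if_true, mul_zero, zero_mul, add_zero]
    exact mul_le_mul_of_nonneg_right (umin_le_card M S) hw
  · simp only [h, if_false, zero_mul, zero_add, one_mul]
    exact mul_le_mul_of_nonneg_right (umin_le_M M S) hw

lemma Vnon_le_Kinf (p : ℝ) (f : Finset X → ℝ) {M : ℕ} (hM : 1 ≤ M) :
    Vnon p f ≤ Kinf p f M := by
  unfold Vnon Kinf
  apply Finset.sum_le_sum
  intro S _
  apply mul_le_mul_of_nonneg_right _ (wgt_nonneg p f S)
  split_ifs with h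
  · exact umin_nonneg M S
  · unfold umin
    apply le_min
    · have : 0 < S.card := Finset.card_pos.mpr (Finset.nonempty_iff_ne_empty.mpr h)
      exact_mod_cast this
    · exact_mod_cast hM

lemma Kinf_le_Iinf (p : ℝ) (f : Finset X → ℝ) (M : ℕ) : Kinf p f M ≤ Iinf p f := by
  unfold Kinf Iinf
  apply Finset.sum_le_sum
  intro S _
  exact mul_le_mul_of_nonneg_right (umin_le_card M S) (wgt_nonneg p f S)

lemma Kinf_le_M {p : ℝ} (h0 : 0 < p) (h1 : p < 1) {f : Finset X → ℝ} (hf : ∀ x, f x ^ 2 = 1)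
    (M : ℕ) : Kinf p f M ≤ M := by
  unfold Kinf
  calc ∑ S, umin M S * wgt p f S ≤ ∑ S, (M : ℝ) * wgt p f S :=
        Finset.sum_le_sum fun S _ => mul_le_mul_of_nonneg_right (umin_le_M M S) (wgt_nonneg p f S)
    _ = M := by rw [← Finset.mul_sum, sum_wgt h0 h1 hf, mul_one]

lemma Vnon_le_Iinf (p : ℝ) (f : Finset X → ℝ) : Vnon p f ≤ Iinf p f :=
  (Vnon_le_Kinf p f (le_refl 1)).trans (Kinf_le_Iinf p f 1)

lemma Vnon_le_one {p : ℝ} (h0 : 0 < p) (h1 : p < 1) {f : Finset X → ℝ} (hf : ∀ x, f x ^ 2 = 1) :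
    Vnon p f ≤ 1 := by
  refine (Finset.sum_le_sum (fun S _ => mul_le_of_le_one_left (wgt_nonneg p f S)
    (by split_ifs <;> norm_num))).trans (le_of_eq (sum_wgt h0 h1 hf))

lemma Alow_ge_tail (p : ℝ) (f : Finset X → ℝ) {M' M : ℕ} (hM : M' ≤ M) :
    ((M' : ℝ) / 32) * (Ttail p f M' - Ttail p f M) ≤ Alow p f M := by
  unfold Alow Ttail
  rw [← Finset.sum_sub_distrib, Finset.mul_sum]
  apply Finset.sum_le_sum
  intro S _
  have hw := wgt_nonneg p f S
  by_cases h : 32 * S.card ≤ M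
  · by_cases h' : 32 * S.card ≤ M'
    · simp [h, h']
      positivity
    · simp only [h, h', if_true, if_false, one_mul, zero_mul, sub_zero]
      apply mul_le_mul_of_nonneg_right _ hw
      have : ((M' : ℝ)) ≤ 32 * S.card := by exact_mod_cast (not_le.mp h').le
      linarith
  · have h' : ¬ 32 * S.card ≤ M' := by omega
    simp [h, h']

lemma Alow_ge_base (p : ℝ) (f : Finset X → ℝ) (M : ℕ) :
    Vnon p f - Ttail p f M ≤ Alow p f M := by
  unfold Alow Ttail Vnon
  rw [← Finset.sum_sub_distrib]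
  apply Finset.sum_le_sum
  intro S _
  have hw := wgt_nonneg p f S
  by_cases h : 32 * S.card ≤ M
  · simp only [h, if_true]
    by_cases hS : S = ∅
    · simp [hS]
    · simp only [hS, if_false, one_mul, zero_mul, sub_zero]
      have : 0 < S.card := Finset.card_pos.mpr (Finset.nonempty_iff_ne_empty.mpr hS)
      have h1 : (1 : ℝ) ≤ S.card := by exact_mod_cast this
      nlinarith
  · have hS : S ≠ ∅ := by
      rintro rfl
      simp at h
    simp [h, hS]

lemma Iinf_ge_tail (p : ℝ) (f : Finset X → ℝ) (M : ℕ) :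
    ((M : ℝ) / 32) * Ttail p f M ≤ Iinf p f := by
  unfold Iinf Ttail
  rw [Finset.mul_sum]
  apply Finset.sum_le_sum
  intro S _
  have hw := wgt_nonneg p f S
  by_cases h : 32 * S.card ≤ M
  · simp only [h, if_true, zero_mul, mul_zero]
    positivity
  · simp only [h, if_false, one_mul]
    apply mul_le_mul_of_nonneg_right _ hw
    have : ((M : ℝ)) ≤ 32 * S.card := by exact_mod_cast (not_le.mp h).le
    linarith

lemma sig_le_one {p : ℝ} (h0 : 0 < p) (h1 : p < 1) : sig p ≤ 1 := by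
  have h2 := sig_sq h0 h1
  have h3 := sig_pos h0 h1
  nlinarith [sq_nonneg (p - 1 / 2)]

end quantities

variable {n r : ℕ}

lemma sum_combo {X : Type*} [DecidableEq X] [Fintype X] (p : ℝ) (f : Finset X → ℝ) (M : ℕ)
    (c₁ ρ L c₃ : ℝ) :
    ∑ S, (c₁ * umin M S + (ρ * umin M S) * L + c₃ * (ρ * S.card)) * wgt p f S
      = c₁ * Kinf p f M + ρ * Kinf p f M * L + ρ * (c₃ * Iinf p f) := by
  unfold Kinf Iinf
  rw [Finset.mul_sum, Finset.mul_sum, Finset.mul_sum, Finset.sum_mul, Finset.mul_sum,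
    ← Finset.sum_add_distrib, ← Finset.sum_add_distrib]
  apply Finset.sum_congr rfl
  intro S _
  ring

/-- Comparison of the upper and lower bounds, for arbitrary auxiliary parameters. -/
theorem main_ineq {m M : ℕ} (hr : 2 ≤ r) (hm : 4 ≤ m) (hMdef : M = (r * m) ^ r)
    (hn : 4 * (r * m) ^ 2 ≤ n) {p : ℝ} (h0 : 0 < p) (h1 : p < 1)
    {f : Finset (Edge n r) → ℝ} (hf2 : ∀ x, f x ^ 2 = 1)
    (hf : ∀ (g : Equiv.Perm (Fin n)) (x : Finset (Edge n r)),
      f (x.map (edgePerm g).toEmbedding) = f x)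
    {t y₀ : ℝ} (ht : 0 < t) (ht1 : t ≤ 1) (hy₀ : 0 < y₀) (hy₁ : y₀ ≤ 1) :
    (1 / 10) * ((m : ℝ) / M) * log n * Alow p f M
      ≤ 1 + m * y₀ + ∑ S, (8 * CLS p * umin M S
          + (((m : ℝ) / M) * umin M S) * (10 + log (1 / y₀) + 2 * log (1 / t) + log ((M : ℝ) / m))
          + (t / sig p) * (((m : ℝ) / M) * S.card)) * wgt p f S := by
  classical
  have hm0 : 0 < m := by omega
  have hrm : 8 ≤ r * m := by nlinarith
  have hM : 0 < M := by rw [hMdef]; positivity
  have hmM : m ≤ M := by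
    rw [hMdef]
    calc m ≤ r * m := Nat.le_mul_of_pos_left m (by omega)
      _ ≤ (r * m) ^ r := Nat.le_self_pow (by omega) _
  have hmM2 : m ^ 2 ≤ M := by
    rw [hMdef]
    calc m ^ 2 ≤ (r * m) ^ 2 := Nat.pow_le_pow_left (Nat.le_mul_of_pos_left m (by omega)) 2
      _ ≤ (r * m) ^ r := Nat.pow_le_pow_right (by omega) hr
  have hM2 : 2 ≤ M := by
    have : 4 ≤ M := hm.trans hmM
    omega
  have hup := entropy_upper (X := Edge n r) hm0 hmM hmM2 hM2 h0 h1 hf2 ht ht1 hy₀ hy₁
  have hlow := entropy_lower hM hn h0 h1 hf2 hf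
  refine le_trans ?_ (hlow.trans hup)
  rw [sum_lawR_mul]
  have hnpos : (1 : ℝ) ≤ n := by
    have : 1 ≤ n := by nlinarith
    exact_mod_cast this
  have hlog : 0 ≤ log n := Real.log_nonneg hnpos
  have hsum : (1 / 5) * ((m : ℝ) / M) * Alow p f M
      ≤ ∑ S, wgt p f S * Ec M (fun c : Edge n r → Fin M => ((Vt (Rc m c S)).card : ℝ)) := by
    unfold Alow
    rw [Finset.mul_sum]
    apply Finset.sum_le_sum
    intro S _
    have hw := wgt_nonneg p f S
    by_cases h : 32 * S.card ≤ M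
    · simp only [h, if_true]
      have := vertex_lower hr hm hMdef S h
      calc (1 / 5) * ((m : ℝ) / M) * ((S.card : ℝ) * wgt p f S)
          = ((1 / 5) * ((m : ℝ) / M) * S.card) * wgt p f S := by ring
        _ ≤ Ec M (fun c : Edge n r → Fin M => ((Vt (Rc m c S)).card : ℝ)) * wgt p f S :=
            mul_le_mul_of_nonneg_right this hw
        _ = _ := by ring
    · simp only [h, if_false, zero_mul, mul_zero]
      exact mul_nonneg hw (Ec_nonneg hM fun c => by positivity)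
  calc (1 / 10) * ((m : ℝ) / M) * log n * Alow p f M
      = (1 / 2) * log n * ((1 / 5) * ((m : ℝ) / M) * Alow p f M) := by ring
    _ ≤ _ := mul_le_mul_of_nonneg_left hsum (by positivity)

/-- The main inequality in terms of the truncated influence. -/
theorem main_K {m M : ℕ} (hr : 2 ≤ r) (hm : 4 ≤ m) (hMdef : M = (r * m) ^ r)
    (hn : 4 * (r * m) ^ 2 ≤ n) {p : ℝ} (h0 : 0 < p) (h1 : p < 1)
    {f : Finset (Edge n r) → ℝ} (hf2 : ∀ x, f x ^ 2 = 1)
    (hf : ∀ (g : Equiv.Perm (Fin n)) (x : Finset (Edge n r)),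
      f (x.map (edgePerm g).toEmbedding) = f x)
    (hK : 0 < Kinf p f M) :
    (1 / 10) * ((m : ℝ) / M) * log n * Alow p f M
      ≤ 1 + Kinf p f M * (8 * CLS p + ((m : ℝ) / M) * (12 + log ((M : ℝ) / Kinf p f M)
          + 2 * log (Iinf p f / (sig p * Kinf p f M)) + log ((M : ℝ) / m))) := by
  have hm0 : 0 < m := by omega
  have hm' : (0 : ℝ) < m := by exact_mod_cast hm0
  have hM : 0 < M := by rw [hMdef]; positivity
  have hM' : (0 : ℝ) < M := by exact_mod_cast hM
  set K := Kinf p f M with hKdef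
  set I₀ := Iinf p f with hI₀
  have hs := sig_pos h0 h1
  have hs1 := sig_le_one h0 h1
  have hKI : K ≤ I₀ := Kinf_le_Iinf p f M
  have hI₀pos : 0 < I₀ := lt_of_lt_of_le hK hKI
  have hKM : K ≤ M := Kinf_le_M h0 h1 hf2 M
  set t := sig p * K / I₀ with ht
  set y₀ := K / M with hy₀
  have ht0 : 0 < t := by positivity
  have ht1 : t ≤ 1 := by
    rw [ht, div_le_one hI₀pos]
    nlinarith
  have hy0 : 0 < y₀ := by positivity
  have hy1 : y₀ ≤ 1 := by rw [hy₀, div_le_one hM']; exact hKM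
  have hmain := main_ineq hr hm hMdef hn h0 h1 hf2 hf ht0 ht1 hy0 hy1
  refine hmain.trans (le_of_eq ?_)
  have e1 : (m : ℝ) * y₀ = ((m : ℝ) / M) * K := by rw [hy₀]; ring
  have e2 : log (1 / y₀) = log ((M : ℝ) / K) := by rw [hy₀, one_div, inv_div]
  have e3 : log (1 / t) = log (I₀ / (sig p * K)) := by rw [ht, one_div, inv_div]
  have e4 : t / sig p * I₀ = K := by
    rw [ht]
    field_simp
  rw [e1, e2, e3]
  rw [sum_combo, e4]
  ring

end Vale.Agent.Lib.P063
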