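import Vale.Agent.Lib.P063.Main1

/-!
The dyadic pigeonhole over the scales: the spectral weight cannot stay on low levels.
-/

namespace Vale.Agent.Lib.P063

open Finset Real

variable {n r : ℕ}

/-- The arithmetic behind the normalisation of the main inequality. -/
lemma main_Q_aux {ℓ A T K v I₀ s C M m Q : ℝ} (hm' : 0 < m) (hM' : 0 < M) (hmM' : m ≤ M)
    (hM1 : 1 ≤ M) (hv : 0 < v) (hvK : v ≤ K) (hs : 0 < s) (hs1 : s ≤ 1) (hvI : v ≤ I₀) (hv1 : v ≤ 1)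
    (hCLS : 0 ≤ C) (hKle : K ≤ A + M * T)
    (hmain : (1 / 10) * (m / M) * ℓ * A
      ≤ 1 + K * (8 * C + (m / M) * (12 + log (M / K) + 2 * log (I₀ / (s * K)) + log (M / m))))
    (hQ : (M / m) * (1 / v + 8 * C) + (12 + log (M / v) + 2 * log (I₀ / (s * v)) + log (M / m)) ≤ Q) :
    (1 / 10) * ℓ * A ≤ (A + M * T) * Q := by
  have hKpos : 0 < K := lt_of_lt_of_le hv hvK
  have hI₀pos : 0 < I₀ := lt_of_lt_of_le hv hvI
  have hlog1 : log (M / K) ≤ log (M / v) :=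
    Real.log_le_log (by positivity) (div_le_div_of_nonneg_left hM'.le hv hvK)
  have hlog2 : log (I₀ / (s * K)) ≤ log (I₀ / (s * v)) := by
    apply Real.log_le_log (by positivity)
    apply div_le_div_of_nonneg_left hI₀pos.le (by positivity)
    exact mul_le_mul_of_nonneg_left hvK hs.le
  have hlog3 : 0 ≤ log (M / v) :=
    Real.log_nonneg (by rw [le_div_iff₀ hv]; nlinarith)
  have hlog4 : 0 ≤ log (I₀ / (s * v)) := by
    apply Real.log_nonneg
    rw [le_div_iff₀ (by positivity)]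
    nlinarith
  have hlog5 : 0 ≤ log (M / m) :=
    Real.log_nonneg (by rw [le_div_iff₀ hm']; linarith)
  set Λ := 12 + log (M / v) + 2 * log (I₀ / (s * v)) + log (M / m) with hΛ
  have hΛ0 : 0 ≤ Λ := by rw [hΛ]; positivity
  set ρ := m / M with hρ
  have hρ0 : 0 < ρ := by positivity
  have hmain2 : (1 / 10) * ρ * ℓ * A ≤ K * (1 / v + 8 * C + ρ * Λ) := by
    refine hmain.trans ?_
    have h3 : (1 : ℝ) ≤ K * (1 / v) := by
      rw [mul_one_div, le_div_iff₀ hv]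
      linarith
    have h4 : 8 * C + ρ * (12 + log (M / K) + 2 * log (I₀ / (s * K)) + log (M / m))
        ≤ 8 * C + ρ * Λ := by
      apply add_le_add_right
      apply mul_le_mul_of_nonneg_left _ hρ0.le
      rw [hΛ]
      linarith
    have h5 := mul_le_mul_of_nonneg_left h4 hKpos.le
    have e : K * (1 / v + 8 * C + ρ * Λ) = K * (1 / v) + K * (8 * C + ρ * Λ) := by ring
    rw [e]
    linarith
  have hinv : (M / m) * ρ = 1 := by
    rw [hρ]; field_simp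
  have hMm : 0 ≤ M / m := by positivity
  have hmain3 : (1 / 10) * ℓ * A ≤ K * ((M / m) * (1 / v + 8 * C) + Λ) := by
    have h6 := mul_le_mul_of_nonneg_left hmain2 hMm
    calc (1 / 10) * ℓ * A
        = (M / m * ρ) * ((1 / 10) * ℓ * A) := by rw [hinv, one_mul]
      _ = M / m * ((1 / 10) * ρ * ℓ * A) := by ring
      _ ≤ M / m * (K * (1 / v + 8 * C + ρ * Λ)) := h6
      _ = K * ((M / m) * (1 / v + 8 * C) + (M / m * ρ) * Λ) := by ring
      _ = _ := by rw [hinv, one_mul]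
  have hQ0 : 0 ≤ (M / m) * (1 / v + 8 * C) + Λ := by positivity
  have hQpos : 0 ≤ Q := hQ0.trans hQ
  refine hmain3.trans ?_
  calc K * ((M / m) * (1 / v + 8 * C) + Λ) ≤ K * Q := mul_le_mul_of_nonneg_left hQ hKpos.le
    _ ≤ _ := mul_le_mul_of_nonneg_right hKle hQpos

/-- The main inequality, normalised. -/
theorem main_Q {m M : ℕ} (hr : 2 ≤ r) (hm : 4 ≤ m) (hMdef : M = (r * m) ^ r)
    (hn : 4 * (r * m) ^ 2 ≤ n) {p : ℝ} (h0 : 0 < p) (h1 : p < 1)
    {f : Finset (Edge n r) → ℝ} (hf2 : ∀ x, f x ^ 2 = 1)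
    (hf : ∀ (g : Equiv.Perm (Fin n)) (x : Finset (Edge n r)),
      f (x.map (edgePerm g).toEmbedding) = f x)
    (hv : 0 < Vnon p f) {Q : ℝ}
    (hQ : ((M : ℝ) / m) * (1 / Vnon p f + 8 * CLS p)
        + (12 + log ((M : ℝ) / Vnon p f) + 2 * log (Iinf p f / (sig p * Vnon p f))
          + log ((M : ℝ) / m)) ≤ Q) :
    (1 / 10) * log n * Alow p f M ≤ (Alow p f M + M * Ttail p f M) * Q := by
  have hm0 : 0 < m := by omega
  have hm' : (0 : ℝ) < m := by exact_mod_cast hm0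
  have hM : 0 < M := by rw [hMdef]; positivity
  have hM' : (0 : ℝ) < M := by exact_mod_cast hM
  have hmM : m ≤ M := by
    rw [hMdef]
    calc m ≤ r * m := Nat.le_mul_of_pos_left m (by omega)
      _ ≤ (r * m) ^ r := Nat.le_self_pow (by omega) _
  have hmM' : (m : ℝ) ≤ M := by exact_mod_cast hmM
  have hM1 : (1 : ℝ) ≤ M := by exact_mod_cast hM
  have hvK : Vnon p f ≤ Kinf p f M := Vnon_le_Kinf p f hM
  have hKpos : 0 < Kinf p f M := lt_of_lt_of_le hv hvK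
  exact main_Q_aux hm' hM' hmM' hM1 hv hvK (sig_pos h0 h1) (sig_le_one h0 h1) (Vnon_le_Iinf p f)
    (Vnon_le_one h0 h1 hf2) (CLS_nonneg h0 h1) (Kinf_le p f M)
    (main_K hr hm hMdef hn h0 h1 hf2 hf hKpos) hQ

/-- The iterated tail inequality. -/
lemma tail_chain (T d : ℕ → ℝ) (hT : ∀ j, 0 ≤ T j) (J : ℕ)
    (h : ∀ j, 3 ≤ j → j ≤ J → T (j - 1) ≤ T j * (1 + d j)) :
    ∀ k, 2 ≤ k → k ≤ J → T 2 ≤ T k * exp (∑ j ∈ Finset.Icc 3 k, d j) := by
  intro k hk
  induction k, hk using Nat.le_induction with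
  | base =>
    intro _
    simp
  | succ k hk ih =>
    intro hkJ
    have h1 := ih (by omega)
    have h2 := h (k + 1) (by omega) hkJ
    simp only [Nat.add_sub_cancel] at h2
    have hsum : ∑ j ∈ Finset.Icc 3 (k + 1), d j = ∑ j ∈ Finset.Icc 3 k, d j + d (k + 1) := by
      rw [Finset.sum_Icc_succ_top (by omega)]
    rw [hsum, Real.exp_add]
    have h3 : T k * exp (∑ j ∈ Finset.Icc 3 k, d j)
        ≤ T (k + 1) * (1 + d (k + 1)) * exp (∑ j ∈ Finset.Icc 3 k, d j) :=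
      mul_le_mul_of_nonneg_right h2 (Real.exp_pos _).le
    have h4 : 1 + d (k + 1) ≤ exp (d (k + 1)) := by
      have := Real.add_one_le_exp (d (k + 1))
      linarith
    have h5 : T (k + 1) * (1 + d (k + 1)) * exp (∑ j ∈ Finset.Icc 3 k, d j)
        ≤ T (k + 1) * (exp (∑ j ∈ Finset.Icc 3 k, d j) * exp (d (k + 1))) := by
      have h6 : T (k + 1) * (1 + d (k + 1)) ≤ T (k + 1) * exp (d (k + 1)) :=
        mul_le_mul_of_nonneg_left h4 (hT _)
      calc T (k + 1) * (1 + d (k + 1)) * exp (∑ j ∈ Finset.Icc 3 k, d j)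
          ≤ T (k + 1) * exp (d (k + 1)) * exp (∑ j ∈ Finset.Icc 3 k, d j) :=
            mul_le_mul_of_nonneg_right h6 (Real.exp_pos _).le
        _ = _ := by ring
    linarith

/-- The scale `M` attached to `m = 2 ^ j`. -/
def Mj (r j : ℕ) : ℕ := (r * 2 ^ j) ^ r

lemma Mj_pos (hr : 2 ≤ r) (j : ℕ) : 0 < Mj r j := by
  unfold Mj
  have : 0 < r * 2 ^ j := by positivity
  positivity

lemma Mj_succ (r j : ℕ) : Mj r (j + 1) = 2 ^ r * Mj r j := by
  unfold Mj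
  rw [pow_succ, ← mul_assoc, mul_comm (r * 2 ^ j) 2, mul_pow]

/-- The dyadic pigeonhole, abstractly. -/
lemma pigeon_abstract {A T Ms q : ℕ → ℝ} {ℓ v Iz R₂ : ℝ} {J : ℕ} (hJ : 2 ≤ J) (hl : 0 < ℓ)
    (hv : 0 < v) (hR : 1 ≤ R₂) (hT : ∀ j, 0 ≤ T j) (hA0 : ∀ j, 0 ≤ A j)
    (hAs : ∀ j, 2 ≤ j → j ≤ J → (1 / 10) * ℓ * A j ≤ (A j + Ms j * T j) * q j)
    (hq0 : ∀ j, 2 ≤ j → j ≤ J → 0 ≤ q j)
    (hsum : ∑ j ∈ Finset.Icc 2 J, q j ≤ ℓ / (640 * R₂))
    (hbase : 20 * q 2 * Ms 2 ≤ ℓ)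
    (hMs : ∀ i, Ms (i + 1) = R₂ * Ms i) (hMspos : ∀ i, 0 < Ms i)
    (htail : ∀ i, (Ms i / 32) * (T i - T (i + 1)) ≤ A (i + 1))
    (hbase2 : v - T 2 ≤ A 2)
    (hI : (Ms J / 32) * T J ≤ Iz) :
    v * Ms J / 200 ≤ Iz := by
  have hqle : ∀ j, 2 ≤ j → j ≤ J → q j ≤ ℓ / (640 * R₂) := by
    intro j hj hjJ
    refine le_trans ?_ hsum
    exact Finset.single_le_sum (f := q) (fun i hi => hq0 i (Finset.mem_Icc.mp hi).1
      (Finset.mem_Icc.mp hi).2) (Finset.mem_Icc.mpr ⟨hj, hjJ⟩)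
  have hq20 : ∀ j, 2 ≤ j → j ≤ J → q j ≤ ℓ / 20 := by
    intro j hj hjJ
    refine (hqle j hj hjJ).trans ?_
    apply div_le_div_of_nonneg_left hl.le (by norm_num)
    nlinarith
  have hA : ∀ j, 2 ≤ j → j ≤ J → A j ≤ (20 * q j / ℓ) * Ms j * T j := by
    intro j hj hjJ
    have hmainQ := hAs j hj hjJ
    have h3 := hq20 j hj hjJ
    have hA0' := hA0 j
    have hT0 := hT j
    have hM0 := (hMspos j).le
    have h4 : A j * q j ≤ A j * (ℓ / 20) := mul_le_mul_of_nonneg_left h3 hA0'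
    have h5 : (1 / 20) * ℓ * A j ≤ Ms j * T j * q j := by nlinarith
    have e : (20 * q j / ℓ) * Ms j * T j = 20 * (Ms j * T j * q j) / ℓ := by ring
    rw [e, le_div_iff₀ hl]
    nlinarith
  set d : ℕ → ℝ := fun j => 640 * R₂ * q j / ℓ with hd
  have hstep : ∀ j, 3 ≤ j → j ≤ J → T (j - 1) ≤ T j * (1 + d j) := by
    intro j hj hjJ
    obtain ⟨i, rfl⟩ : ∃ i, j = i + 1 := ⟨j - 1, by omega⟩
    simp only [Nat.add_sub_cancel]
    have h3 := hA (i + 1) (by omega) hjJ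
    have h4 := htail i
    have hMi := hMspos i
    rw [hMs i] at h3
    have h6 := h4.trans h3
    have e : (20 * q (i + 1) / ℓ) * (R₂ * Ms i) * T (i + 1)
        = (Ms i / 32) * ((640 * R₂ * q (i + 1) / ℓ) * T (i + 1)) := by
      field_simp
      ring
    rw [e] at h6
    have h7 := le_of_mul_le_mul_left h6 (by positivity)
    simp only [hd]
    nlinarith
  have hchain := tail_chain T d hT J hstep J hJ le_rfl
  have hRpos : 0 < R₂ := by linarith
  have hdsum : ∑ j ∈ Finset.Icc 3 J, d j ≤ 1 := by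
    have h3 : ∑ j ∈ Finset.Icc 3 J, d j ≤ ∑ j ∈ Finset.Icc 2 J, d j := by
      apply Finset.sum_le_sum_of_subset_of_nonneg
      · intro j hj
        rw [Finset.mem_Icc] at hj ⊢
        omega
      · intro j hj _
        simp only [hd]
        have := hq0 j (Finset.mem_Icc.mp hj).1 (Finset.mem_Icc.mp hj).2
        positivity
    refine h3.trans ?_
    have e : ∑ j ∈ Finset.Icc 2 J, d j = (640 * R₂ / ℓ) * ∑ j ∈ Finset.Icc 2 J, q j := by
      rw [Finset.mul_sum]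
      apply Finset.sum_congr rfl
      intro j _
      simp only [hd]
      ring
    rw [e]
    have h4 := mul_le_mul_of_nonneg_left hsum (by positivity : 0 ≤ 640 * R₂ / ℓ)
    refine h4.trans (le_of_eq ?_)
    field_simp
  have hbaseT : v / 2 ≤ T 2 := by
    have h4 := hA 2 le_rfl hJ
    have hT0 := hT 2
    have h5 : (20 * q 2 / ℓ) * Ms 2 ≤ 1 := by
      have e : (20 * q 2 / ℓ) * Ms 2 = 20 * q 2 * Ms 2 / ℓ := by ring
      rw [e, div_le_one hl]
      exact hbase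
    have h6 : (20 * q 2 / ℓ) * Ms 2 * T 2 ≤ 1 * T 2 := mul_le_mul_of_nonneg_right h5 hT0
    linarith
  have hexp : exp (∑ j ∈ Finset.Icc 3 J, d j) ≤ exp 1 := Real.exp_le_exp.mpr hdsum
  have hTJ0 := hT J
  have h3 : v / 2 ≤ T J * exp 1 := by
    calc v / 2 ≤ T 2 := hbaseT
      _ ≤ T J * exp (∑ j ∈ Finset.Icc 3 J, d j) := hchain
      _ ≤ _ := mul_le_mul_of_nonneg_left hexp hTJ0
  have he := Real.exp_one_lt_d9
  have h4 : v / 2 ≤ T J * 2.7182818286 := by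
    refine h3.trans ?_
    exact mul_le_mul_of_nonneg_left he.le hTJ0
  have hMpos := hMspos J
  have h6 : v / 6 ≤ T J := by nlinarith
  have h7 : (Ms J / 32) * (v / 6) ≤ Iz :=
    le_trans (mul_le_mul_of_nonneg_left h6 (by positivity)) hI
  nlinarith [mul_pos hv hMpos]

/-- The spectral theorem in its explicit form. -/
theorem spectral_main (hr : 2 ≤ r) {p : ℝ} (h0 : 0 < p) (h1 : p < 1)
    {f : Finset (Edge n r) → ℝ} (hf2 : ∀ x, f x ^ 2 = 1)
    (hf : ∀ (g : Equiv.Perm (Fin n)) (x : Finset (Edge n r)),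
      f (x.map (edgePerm g).toEmbedding) = f x)
    (hv : 0 < Vnon p f) {J : ℕ} (hJ : 2 ≤ J) (hn : 4 * (r * 2 ^ J) ^ 2 ≤ n) {Lbar : ℝ}
    (hΛ : ∀ j, 2 ≤ j → j ≤ J → 12 + log ((Mj r j : ℝ) / Vnon p f)
      + 2 * log (Iinf p f / (sig p * Vnon p f)) + log ((Mj r j : ℝ) / ((2 ^ j : ℕ) : ℝ)) ≤ Lbar)
    (q : ℕ → ℝ)
    (hq : ∀ j, q j = ((Mj r j : ℝ) / ((2 ^ j : ℕ) : ℝ)) * (1 / Vnon p f + 8 * CLS p) + Lbar)
    (hsum : ∑ j ∈ Finset.Icc 2 J, q j ≤ log n / (640 * 2 ^ r))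
    (hbase : 20 * q 2 * (Mj r 2 : ℝ) ≤ log n) :
    Vnon p f * (Mj r J : ℝ) / 200 ≤ Iinf p f := by
  have hCLS := CLS_nonneg h0 h1
  have hnJ : ∀ j, j ≤ J → 4 * (r * 2 ^ j) ^ 2 ≤ n := by
    intro j hj
    refine le_trans ?_ hn
    apply Nat.mul_le_mul_left
    apply Nat.pow_le_pow_left
    apply Nat.mul_le_mul_left
    exact Nat.pow_le_pow_right (by norm_num) hj
  have hnbig : 4 ≤ n := by
    have := hnJ 0 (by omega)
    have h2 : 1 ≤ (r * 2 ^ 0) ^ 2 := by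
      have : 1 ≤ r * 2 ^ 0 := by simp; omega
      exact Nat.one_le_pow _ _ (by omega)
    omega
  have hlpos : 0 < log (n : ℝ) := Real.log_pos (by exact_mod_cast (by omega : 1 < n))
  -- nonnegativity of `q`
  have hq0 : ∀ j, 2 ≤ j → j ≤ J → 0 ≤ q j := by
    intro j hj hjJ
    rw [hq j]
    have hM := Mj_pos hr j
    have hM1 : (1 : ℝ) ≤ Mj r j := by exact_mod_cast hM
    have hv1 : Vnon p f ≤ 1 := Vnon_le_one h0 h1 hf2
    have h2 := hΛ j hj hjJ
    have hlog3 : 0 ≤ log ((Mj r j : ℝ) / Vnon p f) :=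
      Real.log_nonneg (by rw [le_div_iff₀ hv]; nlinarith)
    have hvI : Vnon p f ≤ Iinf p f := Vnon_le_Iinf p f
    have hs := sig_pos h0 h1
    have hs1 := sig_le_one h0 h1
    have hlog4 : 0 ≤ log (Iinf p f / (sig p * Vnon p f)) := by
      apply Real.log_nonneg
      rw [le_div_iff₀ (by positivity)]
      nlinarith
    have hmle : ((2 ^ j : ℕ) : ℝ) ≤ Mj r j := by
      have : 2 ^ j ≤ Mj r j := by
        unfold Mj
        calc 2 ^ j ≤ r * 2 ^ j := Nat.le_mul_of_pos_left _ (by omega)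
          _ ≤ (r * 2 ^ j) ^ r := Nat.le_self_pow (by omega) _
      exact_mod_cast this
    have hmpos : (0 : ℝ) < ((2 ^ j : ℕ) : ℝ) := by positivity
    have hlog5 : 0 ≤ log ((Mj r j : ℝ) / ((2 ^ j : ℕ) : ℝ)) :=
      Real.log_nonneg (by rw [le_div_iff₀ hmpos]; linarith)
    have hLbar : 0 ≤ Lbar := by linarith
    positivity
  have hAs : ∀ j, 2 ≤ j → j ≤ J → (1 / 10) * log (n : ℝ) * Alow p f (Mj r j)
      ≤ (Alow p f (Mj r j) + (Mj r j : ℝ) * Ttail p f (Mj r j)) * q j := by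
    intro j hj hjJ
    have hm : 4 ≤ 2 ^ j := by
      calc 4 = 2 ^ 2 := by norm_num
        _ ≤ 2 ^ j := Nat.pow_le_pow_right (by norm_num) hj
    exact main_Q (m := 2 ^ j) (M := Mj r j) hr hm rfl (hnJ j hjJ) h0 h1 hf2 hf hv
      (Q := q j) (by
        rw [hq j]
        have := hΛ j hj hjJ
        linarith)
  have hcast : ∀ i, ((Mj r (i + 1) : ℕ) : ℝ) = 2 ^ r * (Mj r i : ℝ) := by
    intro i
    rw [Mj_succ]; push_cast; ring
  exact pigeon_abstract (A := fun j => Alow p f (Mj r j)) (T := fun j => Ttail p f (Mj r j))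
    (Ms := fun j => (Mj r j : ℝ)) (q := q) (R₂ := 2 ^ r) hJ hlpos hv (one_le_pow₀ (by norm_num))
    (fun j => Ttail_nonneg p f _) (fun j => Alow_nonneg p f _) hAs hq0 hsum hbase hcast
    (fun i => by exact_mod_cast Mj_pos hr i)
    (fun i => Alow_ge_tail p f (by rw [Mj_succ]; exact Nat.le_mul_of_pos_left _ (by positivity)))
    (Alow_ge_base p f _) (Iinf_ge_tail p f _)

end Vale.Agent.Lib.P063
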