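import Vale.Agent.Lib.P063.Main2

/-!
The final estimates: the lower bound for the derivative of `μ_p`, in the spectral form.
-/

namespace Vale.Agent.Lib.P063

open Finset Real

variable {n r : ℕ}

lemma log_aux {a b : ℝ} (ha : 0 < a) (hb : 0 < b) (hab : a ^ 2 + b ^ 2 = 1) :
    a * b * log (1 / a ^ 2) / b ^ 2 ≤ 2 := by
  have ha1 : a ≤ 1 := by nlinarith
  have hb1 : b ≤ 1 := by nlinarith
  have h1 : log (1 / a ^ 2) = 2 * log (1 / a) := by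
    rw [one_div, one_div, Real.log_inv, Real.log_inv, Real.log_pow]
    norm_num
  have h2 : log (1 / a) ≤ 1 / a - 1 := Real.log_le_sub_one_of_pos (by positivity)
  have h3 : 1 - a ≤ b ^ 2 := by nlinarith
  rw [h1, div_le_iff₀ (by positivity)]
  have h4 : a * b * (2 * log (1 / a)) ≤ a * b * (2 * (1 / a - 1)) :=
    mul_le_mul_of_nonneg_left (by linarith) (by positivity)
  have h5 : a * b * (2 * (1 / a - 1)) = 2 * b * (1 - a) := by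
    field_simp
  rw [h5] at h4
  nlinarith

/-- The constant in the log-Sobolev inequality, compared with the standard deviation. -/
lemma sig_mul_CLS_le {p : ℝ} (h0 : 0 < p) (h1 : p < 1) : sig p * CLS p ≤ 25 := by
  have hq : 0 < 1 - p := by linarith
  set a := Real.sqrt p with ha
  set b := Real.sqrt (1 - p) with hb
  have ha0 : 0 < a := Real.sqrt_pos.mpr h0
  have hb0 : 0 < b := Real.sqrt_pos.mpr hq
  have ha2 : a ^ 2 = p := Real.sq_sqrt h0.le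
  have hb2 : b ^ 2 = 1 - p := Real.sq_sqrt hq.le
  have hs : sig p = a * b := by
    unfold sig
    rw [Real.sqrt_mul h0.le]
  have hab : a ^ 2 + b ^ 2 = 1 := by rw [ha2, hb2]; ring
  have h2 := log_aux ha0 hb0 hab
  have h3 := log_aux hb0 ha0 (by rw [add_comm]; exact hab)
  rw [ha2, hb2] at h2 h3
  have hs1 := sig_le_one h0 h1
  have e : sig p * CLS p = 9 * sig p + 4 * (a * b * log (1 / p) / (1 - p))
      + 4 * (b * a * log (1 / (1 - p)) / p) := by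
    unfold CLS
    rw [hs]
    ring
  rw [e]
  linarith

lemma log_div_le_aux {p ℓ : ℝ} (h0 : 0 < p) (h1 : p < 1) (hℓ : 1 ≤ ℓ) (hp : 1 ≤ ℓ ^ 2 * p) :
    log (1 / p) / (1 - p) ≤ 2 + 4 * log ℓ := by
  have hq : 0 < 1 - p := by linarith
  have hlogℓ : 0 ≤ log ℓ := Real.log_nonneg hℓ
  rw [div_le_iff₀ hq]
  by_cases h : p ≤ 1 / 2
  · have h2 : log (1 / p) ≤ log (ℓ ^ 2) := by
      apply Real.log_le_log (by positivity)
      rw [div_le_iff₀ h0]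
      exact hp
    rw [Real.log_pow] at h2
    push_cast at h2
    have h3 : 0 ≤ log (1 / p) := Real.log_nonneg (by rw [le_div_iff₀ h0]; linarith)
    nlinarith
  · push Not at h
    have h2 : log (1 / p) ≤ 1 / p - 1 := Real.log_le_sub_one_of_pos (by positivity)
    have h3 : 1 / p - 1 = (1 - p) * (1 / p) := by field_simp
    have h4 : 1 / p ≤ 2 := by rw [div_le_iff₀ h0]; linarith
    rw [h3] at h2
    nlinarith

lemma CLS_le_log {p ℓ : ℝ} (h0 : 0 < p) (h1 : p < 1) (hℓ : 1 ≤ ℓ) (hp : 1 ≤ ℓ ^ 2 * p)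
    (hq : 1 ≤ ℓ ^ 2 * (1 - p)) : CLS p ≤ 25 + 32 * log ℓ := by
  have h2 := log_div_le_aux h0 h1 hℓ hp
  have h3 := log_div_le_aux (p := 1 - p) (by linarith) (by linarith) hℓ hq
  have e : (1 : ℝ) - (1 - p) = p := by ring
  rw [e] at h3
  unfold CLS
  have e1 : 4 * log (1 / p) / (1 - p) = 4 * (log (1 / p) / (1 - p)) := by ring
  have e2 : 4 * log (1 / (1 - p)) / p = 4 * (log (1 / (1 - p)) / p) := by ring
  rw [e1, e2]
  linarith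

lemma sum_geom_le {y : ℝ} (hy : 2 ≤ y) (J : ℕ) :
    ∑ j ∈ Finset.Icc 2 J, y ^ j ≤ 2 * y ^ J := by
  have hy0 : 0 ≤ y := by linarith
  induction J with
  | zero => simp
  | succ J ih =>
    by_cases h : 2 ≤ J + 1
    · rw [Finset.sum_Icc_succ_top h, pow_succ]
      have h2 : 0 ≤ y ^ J := pow_nonneg hy0 J
      nlinarith
    · have : Finset.Icc 2 (J + 1) = ∅ := by
        apply Finset.Icc_eq_empty
        omega
      rw [this]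
      simp only [Finset.sum_empty]
      positivity

lemma Mj_eq {r : ℕ} (hr : 1 ≤ r) (j : ℕ) :
    ((Mj r j : ℕ) : ℝ) = (r : ℝ) ^ r * (((2 : ℝ) ^ (r - 1)) ^ j * 2 ^ j) := by
  unfold Mj
  push_cast
  rw [mul_pow]
  congr 1
  obtain ⟨k, rfl⟩ : ∃ k, r = k + 1 := ⟨r - 1, by omega⟩
  simp only [Nat.add_sub_cancel]
  rw [pow_succ ((2 : ℝ) ^ j) k, ← pow_mul, ← pow_mul, mul_comm j k]

/-- The constants of the final estimate. -/
noncomputable def C5 (r : ℕ) : ℝ := 2 * (r : ℝ) ^ r * 1280 * 2 ^ r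

/-- The constants of the final estimate. -/
noncomputable def C8 (r : ℕ) (v₀ : ℝ) : ℝ := 14 + log ((r : ℝ) ^ r / v₀) + log ((r : ℝ) ^ r)


/-- The ratio of consecutive scales. -/
noncomputable def yy (r : ℕ) : ℝ := (2 : ℝ) ^ (r - 1)

lemma yy_ge_two {r : ℕ} (hr : 2 ≤ r) : 2 ≤ yy r := by
  unfold yy
  calc (2 : ℝ) = 2 ^ 1 := by norm_num
    _ ≤ 2 ^ (r - 1) := pow_le_pow_right₀ (by norm_num) (by omega)

lemma yy_pos {r : ℕ} (hr : 2 ≤ r) : 0 < yy r := by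
  have := yy_ge_two hr
  linarith

lemma rpow_r_pos {r : ℕ} (hr : 2 ≤ r) : (1 : ℝ) ≤ (r : ℝ) ^ r := by
  apply one_le_pow₀
  have : (2 : ℝ) ≤ r := by exact_mod_cast hr
  linarith

lemma C5_pos {r : ℕ} (hr : 2 ≤ r) : 1 ≤ C5 r := by
  unfold C5
  have h1 := rpow_r_pos hr
  have h2 : (1 : ℝ) ≤ 2 ^ r := one_le_pow₀ (by norm_num)
  nlinarith

lemma Mj_div {r : ℕ} (hr : 2 ≤ r) (j : ℕ) :
    ((Mj r j : ℕ) : ℝ) / ((2 ^ j : ℕ) : ℝ) = (r : ℝ) ^ r * yy r ^ j := by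
  rw [Mj_eq (by omega)]
  unfold yy
  push_cast
  field_simp

lemma Mj_le_of {r j J : ℕ} (hr : 2 ≤ r) (hj : j ≤ J) {ℓ : ℝ} (h1 : yy r ^ J ≤ ℓ)
    (h2 : (2 : ℝ) ^ J ≤ ℓ) : ((Mj r j : ℕ) : ℝ) ≤ (r : ℝ) ^ r * ℓ ^ 2 := by
  rw [Mj_eq (by omega)]
  have hy := yy_ge_two hr
  have hy1 : (1 : ℝ) ≤ yy r := by linarith
  have a1 : yy r ^ j ≤ ℓ := (pow_le_pow_right₀ hy1 hj).trans h1
  have a2 : (2 : ℝ) ^ j ≤ ℓ := (pow_le_pow_right₀ (by norm_num) hj).trans h2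
  have a3 : (0 : ℝ) ≤ yy r ^ j := by positivity
  have a4 : (0 : ℝ) ≤ 2 ^ j := by positivity
  have hC := rpow_r_pos hr
  have : ((2 : ℝ) ^ (r - 1)) ^ j = yy r ^ j := rfl
  rw [this]
  apply mul_le_mul_of_nonneg_left _ (by linarith)
  nlinarith

lemma Lambda_num {r j J : ℕ} (hr : 2 ≤ r) {v v₀ I₀ σ ℓ : ℝ} (hv₀ : 0 < v₀) (hv : v₀ ≤ v)
    (hI0 : 0 < I₀) (hI : I₀ ≤ v * ℓ ^ 2) (hσ0 : 0 < σ) (hσ : 1 / (2 * ℓ) ≤ σ) (hℓ : 1 ≤ ℓ)
    (h1 : yy r ^ J ≤ ℓ) (h2 : (2 : ℝ) ^ J ≤ ℓ) (hj : j ≤ J) :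
    12 + log ((Mj r j : ℝ) / v) + 2 * log (I₀ / (σ * v))
      + log ((Mj r j : ℝ) / ((2 ^ j : ℕ) : ℝ)) ≤ C8 r v₀ + 10 * log ℓ := by
  have hv0 : 0 < v := by linarith
  have hℓ0 : 0 < ℓ := by linarith
  have hlog : 0 ≤ log ℓ := Real.log_nonneg hℓ
  have hC := rpow_r_pos hr
  have hC0 : (0 : ℝ) < (r : ℝ) ^ r := by linarith
  have hM0 : (0 : ℝ) < (Mj r j : ℝ) := by exact_mod_cast Mj_pos hr j
  have hM := Mj_le_of hr hj h1 h2
  have a1 : log ((Mj r j : ℝ) / v) ≤ log ((r : ℝ) ^ r / v₀) + 2 * log ℓ := by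
    have : ((Mj r j : ℝ) / v) ≤ (r : ℝ) ^ r / v₀ * ℓ ^ 2 := by
      rw [div_le_iff₀ hv0]
      have : (r : ℝ) ^ r / v₀ * ℓ ^ 2 * v = (r : ℝ) ^ r * ℓ ^ 2 * (v / v₀) := by
        field_simp
      rw [this]
      have h3 : 1 ≤ v / v₀ := by rwa [le_div_iff₀ hv₀, one_mul]
      have h4 : 0 ≤ (r : ℝ) ^ r * ℓ ^ 2 := by positivity
      nlinarith
    calc log ((Mj r j : ℝ) / v) ≤ log ((r : ℝ) ^ r / v₀ * ℓ ^ 2) :=
          Real.log_le_log (by positivity) this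
      _ = log ((r : ℝ) ^ r / v₀) + 2 * log ℓ := by
          rw [Real.log_mul (by positivity) (by positivity), Real.log_pow]
          norm_num
  have a2 : log (I₀ / (σ * v)) ≤ 1 + 3 * log ℓ := by
    have : I₀ / (σ * v) ≤ 2 * ℓ ^ 3 := by
      rw [div_le_iff₀ (by positivity)]
      have h3 : 1 ≤ 2 * ℓ * σ := by
        rw [div_le_iff₀ (by positivity)] at hσ
        linarith
      have h5 : 0 ≤ v * ℓ ^ 2 := by positivity
      calc I₀ ≤ v * ℓ ^ 2 := hI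
        _ ≤ v * ℓ ^ 2 * (2 * ℓ * σ) := le_mul_of_one_le_right h5 h3
        _ = 2 * ℓ ^ 3 * (σ * v) := by ring
    calc log (I₀ / (σ * v)) ≤ log (2 * ℓ ^ 3) := Real.log_le_log (by positivity) this
      _ = log 2 + 3 * log ℓ := by
          rw [Real.log_mul (by norm_num) (by positivity), Real.log_pow]
          norm_num
      _ ≤ 1 + 3 * log ℓ := by
          have := Real.log_two_lt_d9
          linarith
  have a3 : log ((Mj r j : ℝ) / ((2 ^ j : ℕ) : ℝ)) ≤ log ((r : ℝ) ^ r) + log ℓ := by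
    rw [Mj_div hr]
    have hy1 : (1 : ℝ) ≤ yy r := by have := yy_ge_two hr; linarith
    have a1 : yy r ^ j ≤ ℓ := (pow_le_pow_right₀ hy1 hj).trans h1
    have a0 : 0 < yy r ^ j := by positivity
    rw [Real.log_mul hC0.ne' a0.ne']
    have := Real.log_le_log a0 a1
    linarith
  unfold C8
  linarith

lemma sum_num {r J : ℕ} (hr : 2 ≤ r) {D Lbar ℓ : ℝ} (hD : 0 < D) (hL : 0 ≤ Lbar)
    (hJ : (J : ℝ) ≤ 2 * log ℓ) (hy : yy r ^ J ≤ ℓ / (C5 r * D))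
    (c2 : 2 * log ℓ * Lbar * 1280 * 2 ^ r ≤ ℓ) (q : ℕ → ℝ)
    (hq : ∀ j, q j = ((Mj r j : ℝ) / ((2 ^ j : ℕ) : ℝ)) * D + Lbar) :
    ∑ j ∈ Finset.Icc 2 J, q j ≤ ℓ / (640 * 2 ^ r) := by
  have hC := rpow_r_pos hr
  have hC5 := C5_pos hr
  have hq' : ∀ j, q j = ((r : ℝ) ^ r * D) * yy r ^ j + Lbar := by
    intro j
    rw [hq, Mj_div hr]
    ring
  simp_rw [hq']
  rw [Finset.sum_add_distrib, ← Finset.mul_sum, Finset.sum_const, nsmul_eq_mul]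
  have h1 := sum_geom_le (yy_ge_two hr) J
  have h2 : ((Finset.Icc 2 J).card : ℝ) ≤ J := by
    rw [Nat.card_Icc]
    have : J + 1 - 2 ≤ J := by omega
    exact_mod_cast this
  have h3 : ((r : ℝ) ^ r * D) * ∑ j ∈ Finset.Icc 2 J, yy r ^ j ≤ ℓ / (1280 * 2 ^ r) := by
    have hCD : 0 ≤ (r : ℝ) ^ r * D := by positivity
    calc ((r : ℝ) ^ r * D) * ∑ j ∈ Finset.Icc 2 J, yy r ^ j
        ≤ ((r : ℝ) ^ r * D) * (2 * (ℓ / (C5 r * D))) :=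
          mul_le_mul_of_nonneg_left (h1.trans (by linarith)) hCD
      _ = ℓ / (1280 * 2 ^ r) := by
          unfold C5
          field_simp
  have h4 : ((Finset.Icc 2 J).card : ℝ) * Lbar ≤ ℓ / (1280 * 2 ^ r) := by
    rw [le_div_iff₀ (by positivity)]
    have h5 : ((Finset.Icc 2 J).card : ℝ) * Lbar ≤ 2 * log ℓ * Lbar :=
      mul_le_mul_of_nonneg_right (h2.trans hJ) hL
    have h6 : (0 : ℝ) < 1280 * 2 ^ r := by positivity
    calc ((Finset.Icc 2 J).card : ℝ) * Lbar * (1280 * 2 ^ r)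
        ≤ 2 * log ℓ * Lbar * (1280 * 2 ^ r) := mul_le_mul_of_nonneg_right h5 h6.le
      _ ≤ ℓ := by linarith
  have e : ℓ / (640 * 2 ^ r) = ℓ / (1280 * 2 ^ r) + ℓ / (1280 * 2 ^ r) := by
    field_simp
    ring
  rw [e]
  linarith

lemma n_large {r J n : ℕ} {ℓ : ℝ} (hn : 0 < n) (hℓ : ℓ = log n) (hℓ1 : 1 ≤ ℓ)
    (c4 : 24 * (r : ℝ) ^ 2 ≤ ℓ) (h2 : (2 : ℝ) ^ J ≤ ℓ) :
    4 * (r * 2 ^ J) ^ 2 ≤ n := by
  have hn0 : (0 : ℝ) < n := by exact_mod_cast hn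
  have h1 : (n : ℝ) = Real.exp ℓ := by rw [hℓ, Real.exp_log hn0]
  have h3 : ℓ ^ 3 / 6 ≤ Real.exp ℓ := by
    have := Real.pow_div_factorial_le_exp ℓ (by linarith) 3
    simpa [Nat.factorial] using this
  have h4 : (4 * ((r : ℝ) * 2 ^ J) ^ 2) ≤ n := by
    rw [h1]
    refine le_trans ?_ h3
    have a1 : ((r : ℝ) * 2 ^ J) ^ 2 ≤ (r : ℝ) ^ 2 * ℓ ^ 2 := by
      rw [mul_pow]
      apply mul_le_mul_of_nonneg_left _ (by positivity)
      exact pow_le_pow_left₀ (by positivity) h2 2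
    have a2 : 24 * (r : ℝ) ^ 2 * ℓ ^ 2 ≤ ℓ * ℓ ^ 2 :=
      mul_le_mul_of_nonneg_right c4 (by positivity)
    nlinarith
  exact_mod_cast h4

lemma sig_ge_of {p ℓ : ℝ} (h0 : 0 < p) (h1 : p < 1) (hℓ : 1 ≤ ℓ) (hp : 1 ≤ ℓ ^ 2 * p)
    (hq : 1 ≤ ℓ ^ 2 * (1 - p)) : 1 / (2 * ℓ) ≤ sig p := by
  have hℓ0 : 0 < ℓ := by linarith
  unfold sig
  apply Real.le_sqrt_of_sq_le
  rw [div_pow, div_le_iff₀ (by positivity)]
  have hq0 : 0 < 1 - p := by linarith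
  have key : 1 / 2 ≤ ℓ ^ 2 * (p * (1 - p)) := by
    by_cases h : p ≤ 1 / 2
    · have : ℓ ^ 2 * (p * (1 - p)) = (ℓ ^ 2 * p) * (1 - p) := by ring
      rw [this]
      have h3 : 1 / 2 ≤ 1 - p := by linarith
      nlinarith
    · push Not at h
      have : ℓ ^ 2 * (p * (1 - p)) = (ℓ ^ 2 * (1 - p)) * p := by ring
      rw [this]
      nlinarith
  nlinarith

/-- The exponent of the conjecture. -/
noncomputable def theta (r : ℕ) : ℝ := (r : ℝ) / ((r : ℝ) - 1)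

lemma Mj_ge_rpow {r J : ℕ} (hr : 2 ≤ r) :
    (yy r ^ J) ^ theta r ≤ ((Mj r J : ℕ) : ℝ) := by
  have hr1 : (1 : ℝ) < r := by
    have : (2 : ℝ) ≤ r := by exact_mod_cast hr
    linarith
  have hr0 : (r : ℝ) - 1 ≠ 0 := by linarith
  have e : (yy r ^ J) ^ theta r = (2 : ℝ) ^ (r * J) := by
    unfold yy theta
    rw [← pow_mul, ← Real.rpow_natCast 2 ((r - 1) * J), ← Real.rpow_mul (by norm_num),
      ← Real.rpow_natCast 2 (r * J)]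
    congr 1
    have : ((r - 1 : ℕ) : ℝ) = (r : ℝ) - 1 := by
      rw [Nat.cast_sub (by omega)]
      simp
    push_cast
    rw [this]
    field_simp
  rw [e]
  rw [Mj_eq (by omega)]
  have hC := rpow_r_pos hr
  have e2 : (2 : ℝ) ^ (r * J) = ((2 : ℝ) ^ (r - 1)) ^ J * 2 ^ J := by
    rw [← pow_mul, ← pow_add]
    congr 1
    obtain ⟨k, rfl⟩ : ∃ k, r = k + 1 := ⟨r - 1, by omega⟩
    simp only [Nat.add_sub_cancel]
    ring
  rw [e2]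
  have h0 : (0 : ℝ) ≤ ((2 : ℝ) ^ (r - 1)) ^ J * 2 ^ J := by positivity
  nlinarith


lemma exists_J {r : ℕ} (hr : 2 ≤ r) {ℓ D D₀ : ℝ} (hD : 1 ≤ D) (hDD : D ≤ D₀)
    (c1 : C5 r * yy r ^ 2 * D₀ ≤ ℓ) :
    ∃ J : ℕ, 2 ≤ J ∧ yy r ^ J ≤ ℓ / (C5 r * D) ∧ ℓ / (C5 r * D) < yy r ^ (J + 1)
      ∧ (2 : ℝ) ^ J ≤ ℓ ∧ yy r ^ J ≤ ℓ ∧ (J : ℝ) ≤ 2 * log ℓ := by
  have hy := yy_ge_two hr
  have hy1 : (1 : ℝ) < yy r := by linarith
  have hC5 := C5_pos hr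
  have hC50 : 0 < C5 r := by linarith
  have hD0 : 0 < D := by linarith
  have hy2 : yy r ^ 2 ≤ ℓ / (C5 r * D) := by
    rw [le_div_iff₀ (by positivity)]
    have h1 : 0 ≤ C5 r * yy r ^ 2 := by positivity
    calc yy r ^ 2 * (C5 r * D) = C5 r * yy r ^ 2 * D := by ring
      _ ≤ C5 r * yy r ^ 2 * D₀ := mul_le_mul_of_nonneg_left hDD h1
      _ ≤ ℓ := c1
  have hβ1 : 1 ≤ ℓ / (C5 r * D) := le_trans (one_le_pow₀ hy1.le) hy2
  obtain ⟨J, hJ1, hJ2⟩ := exists_nat_pow_near hβ1 hy1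
  have hJ : 2 ≤ J := by
    by_contra hcon
    have : J + 1 ≤ 2 := by omega
    have h3 : yy r ^ (J + 1) ≤ yy r ^ 2 := pow_le_pow_right₀ hy1.le this
    linarith
  have hℓ0 : 0 < ℓ := by
    have : 0 < ℓ / (C5 r * D) := by linarith
    by_contra hcon
    push Not at hcon
    have h4 : ℓ / (C5 r * D) ≤ 0 := div_nonpos_of_nonpos_of_nonneg hcon (by positivity)
    linarith
  have hβ : ℓ / (C5 r * D) ≤ ℓ := by
    apply div_le_self hℓ0.le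
    nlinarith
  have h2y : (2 : ℝ) ^ J ≤ yy r ^ J := pow_le_pow_left₀ (by norm_num) hy J
  have h5 : (2 : ℝ) ^ J ≤ ℓ := h2y.trans (hJ1.trans hβ)
  refine ⟨J, hJ, hJ1, hJ2, h5, hJ1.trans hβ, ?_⟩
  have h6 := Real.log_le_log (by positivity) h5
  rw [Real.log_pow] at h6
  have h7 := Real.log_two_gt_d9
  have h8 : (0 : ℝ) ≤ J := by positivity
  nlinarith

lemma C8_nonneg {r : ℕ} (hr : 2 ≤ r) {v₀ : ℝ} (h0 : 0 < v₀) (h1 : v₀ ≤ 1) : 0 ≤ C8 r v₀ := by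
  have hC := rpow_r_pos hr
  have h2 : 0 ≤ log ((r : ℝ) ^ r) := Real.log_nonneg hC
  have h3 : 0 ≤ log ((r : ℝ) ^ r / v₀) := by
    apply Real.log_nonneg
    rw [le_div_iff₀ h0]
    linarith
  unfold C8
  linarith

lemma conclusion_num {r J : ℕ} (hr : 2 ≤ r) {ℓ D v v₀ I₀ : ℝ} (hℓ : 0 < ℓ) (hD : 0 < D)
    (hv₀ : 0 < v₀) (hv : v₀ ≤ v)
    (hJ2 : ℓ / (C5 r * D) < yy r ^ (J + 1)) (hm : v * (Mj r J : ℝ) / 200 ≤ I₀) :
    v₀ * (ℓ / (C5 r * yy r * D)) ^ theta r / 200 ≤ I₀ := by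
  have hy := yy_pos hr
  have hC5 := C5_pos hr
  have hC50 : 0 < C5 r := by linarith
  have hr1 : (1 : ℝ) < r := by
    have : (2 : ℝ) ≤ r := by exact_mod_cast hr
    linarith
  have hθ : 0 ≤ theta r := by
    unfold theta
    apply div_nonneg <;> linarith
  have e : ℓ / (C5 r * yy r * D) < yy r ^ J := by
    rw [div_lt_iff₀ (by positivity)]
    rw [div_lt_iff₀ (by positivity), pow_succ] at hJ2
    calc ℓ < yy r ^ J * yy r * (C5 r * D) := hJ2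
      _ = yy r ^ J * (C5 r * yy r * D) := by ring
  have h1 : (ℓ / (C5 r * yy r * D)) ^ theta r ≤ (yy r ^ J) ^ theta r :=
    Real.rpow_le_rpow (by positivity) e.le hθ
  have h2 := Mj_ge_rpow (J := J) hr
  have h3 : (0 : ℝ) ≤ (ℓ / (C5 r * yy r * D)) ^ theta r := by positivity
  have h4 : (Mj r J : ℝ) ≥ 0 := by positivity
  have h5 : v₀ * (ℓ / (C5 r * yy r * D)) ^ theta r ≤ v * (Mj r J : ℝ) := by
    apply mul_le_mul hv (h1.trans h2) h3 (by linarith)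
  linarith

theorem caseB (hr : 2 ≤ r) {p : ℝ} (h0 : 0 < p) (h1 : p < 1)
    {f : Finset (Edge n r) → ℝ} (hf2 : ∀ x, f x ^ 2 = 1)
    (hf : ∀ (g : Equiv.Perm (Fin n)) (x : Finset (Edge n r)),
      f (x.map (edgePerm g).toEmbedding) = f x)
    {v₀ ℓ : ℝ} (hv₀ : 0 < v₀) (hv : v₀ ≤ Vnon p f) (hℓ : ℓ = log n) (hn0 : 0 < n)
    (hℓ3 : 3 ≤ ℓ) (hI : Iinf p f ≤ Vnon p f * ℓ ^ 2)
    (hp : 1 ≤ ℓ ^ 2 * p) (hq : 1 ≤ ℓ ^ 2 * (1 - p))
    (c1 : C5 r * yy r ^ 2 * (1 / v₀ + 200 + 256 * log ℓ) ≤ ℓ)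
    (c2 : 2 * log ℓ * (C8 r v₀ + 10 * log ℓ) * 1280 * 2 ^ r ≤ ℓ)
    (c3 : 20 * (((Mj r 2 : ℝ) / 4) * (1 / v₀ + 200 + 256 * log ℓ) + (C8 r v₀ + 10 * log ℓ))
      * (Mj r 2 : ℝ) ≤ ℓ)
    (c4 : 24 * (r : ℝ) ^ 2 ≤ ℓ) :
    v₀ * (ℓ / (C5 r * yy r * (1 / Vnon p f + 8 * CLS p))) ^ theta r / 200 ≤ Iinf p f := by
  have hv1 : Vnon p f ≤ 1 := Vnon_le_one h0 h1 hf2
  have hv0 : 0 < Vnon p f := by linarith
  have hvI : Vnon p f ≤ Iinf p f := Vnon_le_Iinf p f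
  have hℓ1 : 1 ≤ ℓ := by linarith
  have hlog : 0 ≤ log ℓ := Real.log_nonneg hℓ1
  have hCLS := CLS_nonneg h0 h1
  have hCLS2 := CLS_le_log h0 h1 hℓ1 hp hq
  obtain ⟨D, hDdef⟩ : ∃ D, D = 1 / Vnon p f + 8 * CLS p := ⟨_, rfl⟩
  rw [← hDdef]
  have hD1 : 1 ≤ D := by
    rw [hDdef]
    have : 1 ≤ 1 / Vnon p f := by
      rw [le_div_iff₀ hv0]
      linarith
    linarith
  have hDD : D ≤ 1 / v₀ + 200 + 256 * log ℓ := by
    rw [hDdef]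
    have : 1 / Vnon p f ≤ 1 / v₀ := one_div_le_one_div_of_le hv₀ hv
    linarith
  obtain ⟨J, hJ, hJ1, hJ2, h2J, hyJ, hJlog⟩ := exists_J hr hD1 hDD c1
  have hL : 0 ≤ C8 r v₀ + 10 * log ℓ := by
    have := C8_nonneg hr hv₀ (hv.trans hv1)
    linarith
  have hsig := sig_ge_of h0 h1 hℓ1 hp hq
  have hM2 : (0 : ℝ) ≤ (Mj r 2 : ℝ) := by positivity
  have key : Vnon p f * (Mj r J : ℝ) / 200 ≤ Iinf p f := by
    refine spectral_main hr h0 h1 hf2 hf hv0 hJ (n_large hn0 hℓ hℓ1 c4 h2J)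
      (Lbar := C8 r v₀ + 10 * log ℓ)
      (fun j _ hj2 => Lambda_num hr hv₀ hv (by linarith) hI (sig_pos h0 h1) hsig hℓ1 hyJ h2J hj2)
      (fun j => ((Mj r j : ℝ) / ((2 ^ j : ℕ) : ℝ)) * (1 / Vnon p f + 8 * CLS p)
        + (C8 r v₀ + 10 * log ℓ)) (fun j => rfl) ?_ ?_
    · rw [← hℓ, ← hDdef]
      exact sum_num hr (by linarith) hL hJlog hJ1 c2 _ (fun j => rfl)
    · rw [← hℓ, ← hDdef]
      refine le_trans ?_ c3
      apply mul_le_mul_of_nonneg_right _ hM2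
      apply mul_le_mul_of_nonneg_left _ (by norm_num)
      apply add_le_add_left
      push_cast
      apply mul_le_mul_of_nonneg_left hDD (by positivity)
  exact conclusion_num hr (by linarith) (by linarith) hv₀ hv hJ2 key


lemma eventually_le_id (a₀ a₁ a₂ : ℝ) :
    ∀ᶠ ℓ in Filter.atTop, a₀ + a₁ * log ℓ + a₂ * (log ℓ) ^ 2 ≤ ℓ := by
  have h1 : (fun x : ℝ => log x) =o[Filter.atTop] (id : ℝ → ℝ) := Real.isLittleO_log_id_atTop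
  have h2 : (fun x : ℝ => log x ^ 2) =o[Filter.atTop] (id : ℝ → ℝ) :=
    Real.isLittleO_pow_log_id_atTop
  have h0 : (fun _ : ℝ => a₀) =o[Filter.atTop] (id : ℝ → ℝ) :=
    Asymptotics.isLittleO_const_id_atTop a₀
  have h := (h0.add (h1.const_mul_left a₁)).add (h2.const_mul_left a₂)
  have h3 := h.def (c := 1) (by norm_num)
  filter_upwards [h3, Filter.eventually_ge_atTop (0 : ℝ)] with ℓ h4 h5
  simp only [id, Real.norm_eq_abs, one_mul, abs_of_nonneg h5] at h4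
  exact (le_abs_self _).trans h4

lemma theta_ge_one {r : ℕ} (hr : 2 ≤ r) : 1 ≤ theta r := by
  have hr1 : (2 : ℝ) ≤ r := by exact_mod_cast hr
  unfold theta
  rw [le_div_iff₀ (by linarith)]
  linarith

lemma theta_le_two {r : ℕ} (hr : 2 ≤ r) : theta r ≤ 2 := by
  have hr1 : (2 : ℝ) ≤ r := by exact_mod_cast hr
  unfold theta
  rw [div_le_iff₀ (by linarith)]
  linarith

lemma rpow_theta_le_sq {r : ℕ} (hr : 2 ≤ r) {x : ℝ} (hx : 1 ≤ x) : x ^ theta r ≤ x ^ 2 := by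
  calc x ^ theta r ≤ x ^ (2 : ℝ) := Real.rpow_le_rpow_of_exponent_le hx (theta_le_two hr)
    _ = x ^ 2 := by rw [Real.rpow_two]

lemma final_num {r : ℕ} (hr : 2 ≤ r) {K D σ pq C9 ℓ v₀ A : ℝ} (hK : 1 ≤ K) (hD : 1 ≤ D)
    (hσ : 0 < σ) (hpq : σ ^ 2 = pq) (hσD : σ * D ≤ C9) (hℓ : 0 < ℓ) (hv₀ : 0 < v₀)
    (hA : v₀ * (ℓ / (K * D)) ^ theta r / 200 ≤ A) :
    (v₀ / 800 / (K ^ 2 * C9 ^ 2)) * ℓ ^ theta r ≤ A / (4 * pq) := by
  have hK0 : 0 < K := by linarith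
  have hD0 : 0 < D := by linarith
  have hC9 : 0 < C9 := lt_of_lt_of_le (by positivity) hσD
  have hpq0 : 0 < pq := by rw [← hpq]; positivity
  have e1 : (ℓ / (K * D)) ^ theta r = ℓ ^ theta r / (K * D) ^ theta r :=
    Real.div_rpow hℓ.le (by positivity) _
  have h1 : (K * D) ^ theta r ≤ (K * D) ^ 2 := rpow_theta_le_sq hr (by nlinarith)
  have h2 : 0 < (K * D) ^ theta r := by positivity
  have h3 : 0 < ℓ ^ theta r := by positivity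
  have h4 : ℓ ^ theta r / (K * D) ^ 2 ≤ (ℓ / (K * D)) ^ theta r := by
    rw [e1]
    exact div_le_div_of_nonneg_left h3.le h2 h1
  have h5 : v₀ * (ℓ ^ theta r / (K * D) ^ 2) / 200 ≤ A := by
    refine le_trans ?_ hA
    have := mul_le_mul_of_nonneg_left h4 hv₀.le
    linarith
  rw [le_div_iff₀ (by positivity)]
  have h6 : pq * D ^ 2 ≤ C9 ^ 2 := by
    rw [← hpq]
    have : σ ^ 2 * D ^ 2 = (σ * D) ^ 2 := by ring
    rw [this]
    exact pow_le_pow_left₀ (by positivity) hσD 2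
  have h7 : (v₀ / 800 / (K ^ 2 * C9 ^ 2)) * ℓ ^ theta r * (4 * pq)
      = v₀ * ℓ ^ theta r / 200 * (pq / (K ^ 2 * C9 ^ 2)) := by
    field_simp
    ring
  have h8 : pq / (K ^ 2 * C9 ^ 2) ≤ 1 / (K ^ 2 * D ^ 2) := by
    rw [div_le_div_iff₀ (by positivity) (by positivity)]
    have : 0 ≤ K ^ 2 := by positivity
    nlinarith
  have h9 : 0 ≤ v₀ * ℓ ^ theta r / 200 := by positivity
  calc (v₀ / 800 / (K ^ 2 * C9 ^ 2)) * ℓ ^ theta r * (4 * pq)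
      = v₀ * ℓ ^ theta r / 200 * (pq / (K ^ 2 * C9 ^ 2)) := h7
    _ ≤ v₀ * ℓ ^ theta r / 200 * (1 / (K ^ 2 * D ^ 2)) := mul_le_mul_of_nonneg_left h8 h9
    _ = v₀ * (ℓ ^ theta r / (K * D) ^ 2) / 200 := by
        field_simp
    _ ≤ A := h5

lemma caseA1_num {r : ℕ} (hr : 2 ≤ r) {ℓ pq A v₀ : ℝ} (hℓ : 1 ≤ ℓ) (hpq0 : 0 < pq)
    (hpq : pq * ℓ ^ 2 ≤ 1) (hv₀ : 0 < v₀) (hA : v₀ ≤ A) :
    v₀ / 4 * ℓ ^ theta r ≤ A / (4 * pq) := by
  rw [le_div_iff₀ (by positivity)]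
  have h1 := rpow_theta_le_sq hr hℓ
  have h2 : 0 < ℓ ^ theta r := by positivity
  have h3 : ℓ ^ theta r * pq ≤ 1 := by
    calc ℓ ^ theta r * pq ≤ ℓ ^ 2 * pq := mul_le_mul_of_nonneg_right h1 hpq0.le
      _ ≤ 1 := by linarith
  calc v₀ / 4 * ℓ ^ theta r * (4 * pq) = v₀ * (ℓ ^ theta r * pq) := by ring
    _ ≤ v₀ * 1 := mul_le_mul_of_nonneg_left h3 hv₀.le
    _ ≤ A := by linarith

lemma caseA2_num {r : ℕ} (hr : 2 ≤ r) {ℓ pq A v₀ : ℝ} (hℓ : 1 ≤ ℓ) (hpq0 : 0 < pq)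
    (hpq : pq ≤ 1 / 4) (hv₀ : 0 < v₀) (hA : v₀ * ℓ ^ 2 ≤ A) :
    v₀ / 4 * ℓ ^ theta r ≤ A / (4 * pq) := by
  rw [le_div_iff₀ (by positivity)]
  have h1 := rpow_theta_le_sq hr hℓ
  have h2 : 0 < ℓ ^ theta r := by positivity
  have h3 : v₀ * ℓ ^ theta r ≤ A := le_trans (mul_le_mul_of_nonneg_left h1 hv₀.le) hA
  have h4 : 0 ≤ v₀ * ℓ ^ theta r := by positivity
  calc v₀ / 4 * ℓ ^ theta r * (4 * pq) = v₀ * ℓ ^ theta r * pq := by ring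
    _ ≤ v₀ * ℓ ^ theta r * (1 / 4) := mul_le_mul_of_nonneg_left hpq h4
    _ ≤ A := by linarith

lemma sigD_num {σ w v₀ C : ℝ} (hσ : 0 < σ) (hσ1 : σ ≤ 1) (hv₀ : 0 < v₀) (hv : v₀ ≤ w)
    (hC : σ * C ≤ 25) : σ * (1 / w + 8 * C) ≤ 1 / v₀ + 200 := by
  have h3 : σ * (1 / w) ≤ 1 / v₀ := by
    have h4 : 1 / w ≤ 1 / v₀ := one_div_le_one_div_of_le hv₀ hv
    have h5 : 0 ≤ 1 / w := one_div_nonneg.mpr (by linarith)
    nlinarith
  have e : σ * (1 / w + 8 * C) = σ * (1 / w) + 8 * (σ * C) := by ring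
  rw [e]
  linarith

lemma pq_small_left {p ℓ : ℝ} (h0 : 0 < p) (h1 : p < 1) (h : ℓ ^ 2 * p < 1) :
    p * (1 - p) * ℓ ^ 2 ≤ 1 := by
  have : 0 ≤ ℓ ^ 2 * p := by positivity
  nlinarith

lemma pq_small_right {p ℓ : ℝ} (h0 : 0 < p) (h1 : p < 1) (h : ℓ ^ 2 * (1 - p) < 1) :
    p * (1 - p) * ℓ ^ 2 ≤ 1 := by
  have : 0 ≤ ℓ ^ 2 * (1 - p) := mul_nonneg (by positivity) (by linarith)
  nlinarith

/-- The lower bound for the derivative of `μ_p` in the spectral form. -/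
theorem deriv_lower (r : ℕ) (hr : 2 ≤ r) {v₀ : ℝ} (hv₀ : 0 < v₀) :
    ∃ c : ℝ, 0 < c ∧ ∃ L₀ : ℝ, ∀ n : ℕ, 0 < n → L₀ ≤ log n → ∀ p : ℝ, 0 < p → p < 1 →
      ∀ f : Finset (Edge n r) → ℝ, (∀ x, f x ^ 2 = 1) →
      (∀ (g : Equiv.Perm (Fin n)) (x : Finset (Edge n r)),
        f (x.map (edgePerm g).toEmbedding) = f x) →
      v₀ ≤ Vnon p f → c * (log n) ^ theta r ≤ Iinf p f / (4 * (p * (1 - p))) := by
  obtain ⟨K, hKdef⟩ : ∃ K, K = C5 r * yy r := ⟨_, rfl⟩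
  have hK : 1 ≤ K := by
    rw [hKdef]
    have h1 := C5_pos hr
    have h2 := yy_ge_two hr
    nlinarith
  obtain ⟨C9, hC9def⟩ : ∃ C9, C9 = 1 / v₀ + 200 := ⟨_, rfl⟩
  have hC9 : 0 < C9 := by rw [hC9def]; positivity
  refine ⟨min (v₀ / 4) (v₀ / 800 / (K ^ 2 * C9 ^ 2)), lt_min (by positivity) (by positivity), ?_⟩
  have e1 := eventually_le_id (C5 r * yy r ^ 2 * (1 / v₀ + 200)) (C5 r * yy r ^ 2 * 256) 0
  have e2 := eventually_le_id 0 (2 * C8 r v₀ * 1280 * 2 ^ r) (20 * 1280 * 2 ^ r)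
  have e3 := eventually_le_id (20 * (((Mj r 2 : ℝ) / 4) * (1 / v₀ + 200) + C8 r v₀) * (Mj r 2 : ℝ))
    (20 * (((Mj r 2 : ℝ) / 4) * 256 + 10) * (Mj r 2 : ℝ)) 0
  have e4 := Filter.eventually_ge_atTop (24 * (r : ℝ) ^ 2)
  have e5 := Filter.eventually_ge_atTop (3 : ℝ)
  obtain ⟨L₀, hL₀⟩ := Filter.eventually_atTop.mp (e1.and (e2.and (e3.and (e4.and e5))))
  refine ⟨L₀, ?_⟩
  intro n hn hℓ p h0 h1 f hf2 hf hv
  obtain ⟨ℓ, hℓdef⟩ : ∃ ℓ, ℓ = log (n : ℝ) := ⟨_, rfl⟩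
  rw [← hℓdef] at hℓ ⊢
  obtain ⟨c1, c2, c3, c4, hℓ3⟩ := hL₀ ℓ hℓ
  have hℓ1 : 1 ≤ ℓ := by linarith
  have hq0 : 0 < 1 - p := by linarith
  have hpq0 : 0 < p * (1 - p) := mul_pos h0 hq0
  have hpq4 : p * (1 - p) ≤ 1 / 4 := by nlinarith [sq_nonneg (p - 1 / 2)]
  have hv1 : Vnon p f ≤ 1 := Vnon_le_one h0 h1 hf2
  have hv0 : 0 < Vnon p f := by linarith
  have hvI : Vnon p f ≤ Iinf p f := Vnon_le_Iinf p f
  have hℓ0 : 0 < ℓ := by linarith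
  have hrp : 0 < ℓ ^ theta r := by positivity
  have low1 : v₀ / 4 * ℓ ^ theta r ≤ Iinf p f / (4 * (p * (1 - p))) →
      min (v₀ / 4) (v₀ / 800 / (K ^ 2 * C9 ^ 2)) * ℓ ^ theta r
        ≤ Iinf p f / (4 * (p * (1 - p))) := fun h =>
    le_trans (mul_le_mul_of_nonneg_right (min_le_left _ _) hrp.le) h
  have low2 : v₀ / 800 / (K ^ 2 * C9 ^ 2) * ℓ ^ theta r ≤ Iinf p f / (4 * (p * (1 - p))) →
      min (v₀ / 4) (v₀ / 800 / (K ^ 2 * C9 ^ 2)) * ℓ ^ theta r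
        ≤ Iinf p f / (4 * (p * (1 - p))) := fun h =>
    le_trans (mul_le_mul_of_nonneg_right (min_le_right _ _) hrp.le) h
  by_cases hA1 : 1 ≤ ℓ ^ 2 * p
  · by_cases hA2 : 1 ≤ ℓ ^ 2 * (1 - p)
    · by_cases hA3 : Iinf p f ≤ Vnon p f * ℓ ^ 2
      · apply low2
        have hlog : 0 ≤ log ℓ := Real.log_nonneg hℓ1
        have c1' : C5 r * yy r ^ 2 * (1 / v₀ + 200 + 256 * log ℓ) ≤ ℓ := by
          refine le_trans (le_of_eq ?_) c1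
          ring
        have c2' : 2 * log ℓ * (C8 r v₀ + 10 * log ℓ) * 1280 * 2 ^ r ≤ ℓ := by
          refine le_trans (le_of_eq ?_) c2
          ring
        have c3' : 20 * (((Mj r 2 : ℝ) / 4) * (1 / v₀ + 200 + 256 * log ℓ)
            + (C8 r v₀ + 10 * log ℓ)) * (Mj r 2 : ℝ) ≤ ℓ := by
          refine le_trans (le_of_eq ?_) c3
          ring
        have key := caseB hr h0 h1 hf2 hf hv₀ hv hℓdef hn hℓ3 hA3 hA1 hA2 c1' c2' c3' c4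
        rw [← hKdef] at key
        have hCLS := CLS_nonneg h0 h1
        have hD1 : 1 ≤ 1 / Vnon p f + 8 * CLS p := by
          have : 1 ≤ 1 / Vnon p f := by
            rw [le_div_iff₀ hv0]
            linarith
          linarith
        have hσ := sig_pos h0 h1
        have hpqσ : sig p ^ 2 = p * (1 - p) := by
          unfold sig
          exact Real.sq_sqrt hpq0.le
        have hσD : sig p * (1 / Vnon p f + 8 * CLS p) ≤ C9 := by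
          rw [hC9def]
          exact sigD_num hσ (sig_le_one h0 h1) hv₀ hv (sig_mul_CLS_le h0 h1)
        exact final_num hr hK hD1 hσ hpqσ hσD hℓ0 hv₀ key
      · apply low1
        push Not at hA3
        apply caseA2_num hr hℓ1 hpq0 hpq4 hv₀
        exact (mul_le_mul_of_nonneg_right hv (by positivity)).trans hA3.le
    · apply low1
      push Not at hA2
      exact caseA1_num hr hℓ1 hpq0 (pq_small_right h0 h1 hA2) hv₀ (hv.trans hvI)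
  · apply low1
    push Not at hA1
    exact caseA1_num hr hℓ1 hpq0 (pq_small_left h0 h1 hA1) hv₀ (hv.trans hvI)

end Vale.Agent.Lib.P063
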