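import Vale.Agent.Lib.P063.Coloring

/-!
The sketch `Rc` of a spectral set, and the expected costs in the entropy bound.
-/

namespace Vale.Agent.Lib.P063

open Finset Real

variable {X : Type*} [DecidableEq X] [Fintype X]

/-- At most three quarters of the leaves are nonempty. -/
def goodT {m : ℕ} (t : Fin m → Option (Option X)) : Prop :=
  4 * (Finset.univ.filter fun i => t i ≠ some none).card ≤ 3 * m

instance {m : ℕ} : DecidablePred (goodT (X := X) (m := m)) := fun _ => Nat.decLe _ _

/-- Retained elements of a classified output. -/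
def Rout {m : ℕ} : Option (Fin m → Option (Option X)) → Finset X
  | none => ∅
  | some t => Finset.univ.filter fun e => ∃ i, t i = some (some e)

/-- The classified output for a coloring. -/
noncomputable def outT (m : ℕ) {M : ℕ} (c : X → Fin M) (S : Finset X) :
    Option (Fin m → Option (Option X)) :=
  outC (JC (m := m) c) goodT S

/-- The sketch of the spectral set `S` for the coloring `c`. -/
noncomputable def Rc (m : ℕ) {M : ℕ} (c : X → Fin M) (S : Finset X) : Finset X :=
  Rout (outT m c S)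

/-- At most three quarters of the leaves meet `S`. -/
def goodC (m : ℕ) {M : ℕ} (c : X → Fin M) (S : Finset X) : Prop :=
  4 * (Finset.univ.filter fun i : Fin m => S ∩ JC c i ≠ ∅).card ≤ 3 * m

instance (m : ℕ) {M : ℕ} (c : X → Fin M) (S : Finset X) : Decidable (goodC m c S) :=
  Nat.decLe _ _

lemma goodT_tup {m M : ℕ} (c : X → Fin M) (S : Finset X) :
    goodT (tup (JC (m := m) c) S) ↔ goodC m c S := by
  unfold goodT goodC tup
  simp only [ne_eq, leaf_eq_some_none]

lemma mem_Rc {m M : ℕ} {c : X → Fin M} {S : Finset X} {e : X} :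
    e ∈ Rc m c S ↔ goodC m c S ∧ ∃ i : Fin m, S ∩ JC c i = {e} := by
  unfold Rc outT outC
  by_cases h : goodT (tup (JC (m := m) c) S)
  · rw [if_pos h]
    simp only [Rout, Finset.mem_filter, Finset.mem_univ, true_and, tup, leaf_eq_some_some]
    constructor
    · intro h2
      exact ⟨(goodT_tup c S).mp h, h2⟩
    · intro h2
      exact h2.2
  · rw [if_neg h]
    simp only [Rout, Finset.notMem_empty, false_iff, not_and]
    intro h2
    exact absurd ((goodT_tup c S).mpr h2) h

lemma Rc_subset {m M : ℕ} (c : X → Fin M) (S : Finset X) : Rc m c S ⊆ S := by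
  intro e he
  obtain ⟨_, i, hi⟩ := mem_Rc.mp he
  have : e ∈ S ∩ JC c i := by rw [hi]; simp
  exact (Finset.mem_inter.mp this).1

lemma Rc_card_le {m M : ℕ} (c : X → Fin M) (S : Finset X) : (Rc m c S).card ≤ m := by
  have hinj : Set.InjOn (fun e => (c e).val) (Rc m c S : Set X) := by
    intro e he e' he' h
    obtain ⟨_, i, hi⟩ := mem_Rc.mp he
    obtain ⟨_, i', hi'⟩ := mem_Rc.mp he'
    have h1 : e ∈ S ∩ JC c i := by rw [hi]; simp
    have h2 : e' ∈ S ∩ JC c i' := by rw [hi']; simp
    have h3 := mem_JC.mp (Finset.mem_inter.mp h1).2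
    have h4 := mem_JC.mp (Finset.mem_inter.mp h2).2
    have h5 : i = i' := by
      apply Fin.ext
      rw [← h3, ← h4]
      exact h
    subst h5
    rw [hi] at hi'
    exact Finset.singleton_inj.mp hi'
  have hmaps : Set.MapsTo (fun e => (c e).val) (Rc m c S : Set X) (Finset.range m : Set ℕ) := by
    intro e he
    obtain ⟨_, i, hi⟩ := mem_Rc.mp he
    have h1 : e ∈ S ∩ JC c i := by rw [hi]; simp
    have h3 := mem_JC.mp (Finset.mem_inter.mp h1).2
    simp only [Finset.coe_range, Set.mem_Iio]
    rw [h3]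
    exact i.isLt
  have := Finset.card_le_card_of_injOn _ hmaps hinj
  simpa using this

/-- The truncated size of a spectral set. -/
noncomputable def umin (M : ℕ) (S : Finset X) : ℝ := min (S.card : ℝ) M

lemma umin_nonneg (M : ℕ) (S : Finset X) : 0 ≤ umin M S := by
  unfold umin
  positivity

lemma umin_le_card (M : ℕ) (S : Finset X) : umin M S ≤ S.card := min_le_left _ _

lemma umin_le_M (M : ℕ) (S : Finset X) : umin M S ≤ M := min_le_right _ _

lemma Ec_congr {M : ℕ} {g h : (X → Fin M) → ℝ} (hgh : ∀ c, g c = h c) : Ec M g = Ec M h := by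
  unfold Ec
  apply Finset.sum_congr rfl
  intro c _
  rw [hgh c]

lemma stat3 {m M : ℕ} (hmM : m ≤ M) (hM : 0 < M) (S : Finset X) :
    Ec M (fun c : X → Fin M => ∑ i : Fin m, if S ∩ JC c i = ∅ then (0 : ℝ) else 1)
      ≤ ((m : ℝ) / M) * umin M S := by
  have hM' : (0 : ℝ) < M := by exact_mod_cast hM
  rw [Ec_sum]
  have h1 : ∀ i : Fin m, Ec M (fun c : X → Fin M => if S ∩ JC c i = ∅ then (0 : ℝ) else 1)
      = 1 - tauM M ^ S.card := by
    intro i
    have e : (fun c : X → Fin M => if S ∩ JC c i = ∅ then (0 : ℝ) else 1)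
        = fun c => (1 : ℝ) - (if S ∩ JC c i = ∅ then 1 else 0) := by
      funext c
      split_ifs <;> simp
    rw [e, Ec_sub M (fun _ => (1 : ℝ)), Ec_const hM, evEmpty hmM hM S i]
  simp only [h1, Finset.sum_const, Finset.card_univ, Fintype.card_fin, nsmul_eq_mul]
  have h2 : 1 - tauM M ^ S.card ≤ umin M S / M := by
    unfold umin
    rw [le_div_iff₀ hM']
    apply le_min
    · have := one_sub_tau_pow_le (show 1 ≤ M from hM) S.card
      rw [le_div_iff₀ hM'] at this
      exact this
    · have h3 : 0 ≤ tauM M ^ S.card := pow_nonneg (tauM_nonneg hM) _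
      nlinarith
  calc (m : ℝ) * (1 - tauM M ^ S.card) ≤ m * (umin M S / M) :=
        mul_le_mul_of_nonneg_left h2 (by positivity)
    _ = _ := by ring

lemma stat4 {m M : ℕ} (hM : 0 < M) (S : Finset X) :
    Ec M (fun c : X → Fin M => ∑ i : Fin m, if 2 ≤ (S ∩ JC c i).card then (1 : ℝ) else 0)
      ≤ Ec M (fun c : X → Fin M => ∑ i : Fin m, if S ∩ JC c i = ∅ then (0 : ℝ) else 1) := by
  apply Ec_mono hM
  intro c
  apply Finset.sum_le_sum
  intro i _
  by_cases h : S ∩ JC c i = ∅
  · rw [if_pos h, h]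
    simp
  · rw [if_neg h]
    split_ifs <;> norm_num

/-- Counting the singleton leaves by their element. -/
lemma ite_card_one_eq (S B : Finset X) (hB : B ⊆ S) (a : ℝ) :
    (if B.card = 1 then a else 0) = ∑ e ∈ S, if B = {e} then a else 0 := by
  split_ifs with h
  · obtain ⟨b, hb⟩ := Finset.card_eq_one.mp h
    have hbS : b ∈ S := hB (by rw [hb]; simp)
    rw [Finset.sum_eq_single b]
    · rw [if_pos hb]
    · intro e _ he
      rw [if_neg]
      rw [hb]
      intro h2
      exact he (Finset.singleton_inj.mp h2).symm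
    · intro h2
      exact absurd hbS h2
  · symm
    apply Finset.sum_eq_zero
    intro e _
    rw [if_neg]
    intro h2
    apply h
    rw [h2]
    simp

lemma stat5 {m M : ℕ} (hmM : m ≤ M) (hM : 0 < M) (S : Finset X) :
    Ec M (fun c : X → Fin M => ∑ i : Fin m, if (S ∩ JC c i).card = 1 then (1 : ℝ) else 0)
      ≤ ((m : ℝ) / M) * umin M S := by
  have hM' : (0 : ℝ) < M := by exact_mod_cast hM
  have h1 : ∀ i : Fin m, Ec M (fun c : X → Fin M => if (S ∩ JC c i).card = 1 then (1 : ℝ) else 0)
      = (S.card : ℝ) * ((1 / (M : ℝ)) * tauM M ^ (S.card - 1)) := by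
    intro i
    have h2 : (fun c : X → Fin M => if (S ∩ JC c i).card = 1 then (1 : ℝ) else 0)
        = fun c => ∑ e ∈ S, if S ∩ JC c i = {e} then (1 : ℝ) else 0 := by
      funext c
      exact ite_card_one_eq S _ Finset.inter_subset_left 1
    rw [h2, Ec_sum, Finset.sum_congr rfl (fun e he => evOne hmM hM he i), Finset.sum_const,
      nsmul_eq_mul]
  rw [Ec_sum]
  simp only [h1, Finset.sum_const, Finset.card_univ, Fintype.card_fin, nsmul_eq_mul]
  have h3 : (S.card : ℝ) * tauM M ^ (S.card - 1) ≤ umin M S := by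
    unfold umin
    rcases Nat.eq_zero_or_pos S.card with h | h
    · rw [h]; simp
    · obtain ⟨k, hk⟩ : ∃ k, S.card = k + 1 := ⟨S.card - 1, by omega⟩
      rw [hk]
      have := succ_tau_le_min (show 1 ≤ M from hM) k
      simpa using this
  calc (m : ℝ) * ((S.card : ℝ) * ((1 / (M : ℝ)) * tauM M ^ (S.card - 1)))
      = ((m : ℝ) / M) * ((S.card : ℝ) * tauM M ^ (S.card - 1)) := by ring
    _ ≤ _ := mul_le_mul_of_nonneg_left h3 (by positivity)

/-- Counting the retained candidates. -/
lemma sum_card_inter_JC {m M : ℕ} (c : X → Fin M) (S : Finset X) :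
    ∑ i : Fin m, ((S ∩ JC c i).card : ℝ) = ∑ e ∈ S, if (c e).val < m then (1 : ℝ) else 0 := by
  have h1 : ∀ i : Fin m, ((S ∩ JC c i).card : ℝ) = ∑ e ∈ S, if (c e).val = i.val then (1 : ℝ) else 0 := by
    intro i
    rw [Finset.sum_boole]
    congr 2
    ext e
    simp [mem_JC]
  simp only [h1]
  rw [Finset.sum_comm]
  apply Finset.sum_congr rfl
  intro e _
  by_cases h : (c e).val < m
  · rw [if_pos h, Finset.sum_eq_single (⟨(c e).val, h⟩ : Fin m)]
    · simp
    · intro i _ hi
      rw [if_neg]
      intro h2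
      apply hi
      apply Fin.ext
      exact h2.symm
    · intro h2
      exact absurd (Finset.mem_univ _) h2
  · rw [if_neg h]
    apply Finset.sum_eq_zero
    intro i _
    rw [if_neg]
    intro h2
    apply h
    rw [h2]
    exact i.isLt

lemma stat6 {m M : ℕ} (hmM : m ≤ M) (hM : 0 < M) (S : Finset X) :
    Ec M (fun c : X → Fin M => ∑ i : Fin m, ((S ∩ JC c i).card : ℝ))
      = ((m : ℝ) / M) * S.card := by
  rw [Ec_congr (fun c => sum_card_inter_JC c S), Ec_sum,
    Finset.sum_congr rfl (fun e _ => evLt hmM hM e), Finset.sum_const, nsmul_eq_mul]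
  ring

/-- A good set leaves at least a quarter of the leaves empty. -/
lemma good_le_empty {m M : ℕ} (hm : 0 < m) (c : X → Fin M) (S : Finset X) :
    (if goodC m c S then (1 : ℝ) else 0)
      ≤ (4 / (m : ℝ)) * ∑ i : Fin m, if S ∩ JC c i = ∅ then (1 : ℝ) else 0 := by
  have hm' : (0 : ℝ) < m := by exact_mod_cast hm
  split_ifs with h
  · unfold goodC at h
    have h1 : (Finset.univ.filter fun i : Fin m => S ∩ JC c i ≠ ∅).card
        + (Finset.univ.filter fun i : Fin m => S ∩ JC c i = ∅).card = m := by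
      have := Finset.card_filter_add_card_filter_not (s := (Finset.univ : Finset (Fin m)))
        (fun i : Fin m => S ∩ JC c i ≠ ∅)
      simp only [ne_eq, not_not, Finset.card_univ, Fintype.card_fin] at this
      simpa using this
    rw [Finset.sum_boole]
    have h2 : m ≤ 4 * (Finset.univ.filter fun i : Fin m => S ∩ JC c i = ∅).card := by omega
    have h3 : (m : ℝ) ≤ 4 * ((Finset.univ.filter fun i : Fin m => S ∩ JC c i = ∅).card : ℝ) := by
      exact_mod_cast h2
    rw [div_mul_eq_mul_div, le_div_iff₀ hm']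
    linarith
  · apply mul_nonneg (by positivity)
    exact Finset.sum_nonneg fun i _ => by split_ifs <;> norm_num

lemma stat_good {m M : ℕ} (hmM : m ≤ M) (hm : 0 < m) (S : Finset X) :
    Ec M (fun c : X → Fin M => if goodC m c S then (1 : ℝ) else 0) ≤ 4 * tauM M ^ S.card := by
  have hM : 0 < M := lt_of_lt_of_le hm hmM
  have hm' : (0 : ℝ) < m := by exact_mod_cast hm
  refine (Ec_mono hM (fun c => good_le_empty hm c S)).trans (le_of_eq ?_)
  rw [Ec_smul, Ec_sum, Finset.sum_congr rfl (fun i _ => evEmpty hmM hM S i)]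
  simp only [Finset.sum_const, Finset.card_univ, Fintype.card_fin, nsmul_eq_mul]
  field_simp

lemma stat1 {m M : ℕ} (hmM : m ≤ M) (hm : 0 < m) (S : Finset X) :
    Ec M (fun c : X → Fin M => if goodC m c S then (((S \ JJC m c).card : ℕ) : ℝ) else 0)
      ≤ 4 * umin M S := by
  have hM : 0 < M := lt_of_lt_of_le hm hmM
  have hM' : (0 : ℝ) < M := by exact_mod_cast hM
  have hpt : ∀ c : X → Fin M, (if goodC m c S then (((S \ JJC m c).card : ℕ) : ℝ) else 0)
      ≤ (S.card : ℝ) * (if goodC m c S then (1 : ℝ) else 0) := by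
    intro c
    split_ifs
    · rw [mul_one]
      exact_mod_cast Finset.card_le_card Finset.sdiff_subset
    · simp
  refine (Ec_mono hM hpt).trans ?_
  rw [Ec_smul]
  have h1 := stat_good (X := X) hmM hm S
  have h0 : Ec M (fun c : X → Fin M => if goodC m c S then (1 : ℝ) else 0) ≤ 1 := by
    have h9 := Ec_mono hM (g := fun c : X → Fin M => if goodC m c S then (1 : ℝ) else 0)
      (h := fun _ => (1 : ℝ)) (fun c => by split_ifs <;> norm_num)
    rwa [Ec_const hM] at h9
  have h2 : 0 ≤ (S.card : ℝ) := by positivity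
  unfold umin
  by_cases hs : (S.card : ℝ) ≤ M
  · rw [min_eq_left hs]
    nlinarith
  · push Not at hs
    rw [min_eq_right hs.le]
    have h3 : (S.card : ℝ) * tauM M ^ S.card ≤ M := by
      rcases Nat.eq_zero_or_pos S.card with h | h
      · rw [h]; simp
      · obtain ⟨k, hk⟩ : ∃ k, S.card = k + 1 := ⟨S.card - 1, by omega⟩
        rw [hk]
        have h4 := succ_mul_tau_pow_le (show 1 ≤ M from hM) k
        have h5 : tauM M ^ (k + 1) ≤ tauM M ^ k :=
          pow_le_pow_of_le_one (tauM_nonneg hM) (tauM_le_one M) (Nat.le_succ k)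
        push_cast
        have : ((k : ℝ) + 1) * tauM M ^ (k + 1) ≤ ((k : ℝ) + 1) * tauM M ^ k :=
          mul_le_mul_of_nonneg_left h5 (by positivity)
        linarith
    nlinarith

/-- The energy between the leaves, pointwise. -/
lemma star_pointwise {m M : ℕ} (c : X → Fin M) (S : Finset X) (i : Fin m) :
    (if (S ∩ JC c i).card = 1 then (((S ∩ JJC m c) \ JC c i).card : ℝ) else 0)
      = ∑ e ∈ S, ∑ e' ∈ S.erase e,
          if S ∩ JC c i = {e} ∧ (c e').val < m then (1 : ℝ) else 0 := by
  split_ifs with h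
  · obtain ⟨a, ha⟩ := Finset.card_eq_one.mp h
    have haS : a ∈ S := by
      have : a ∈ S ∩ JC c i := by rw [ha]; simp
      exact (Finset.mem_inter.mp this).1
    rw [Finset.sum_eq_single a]
    · have h2 : ∀ e' ∈ S.erase a, (if S ∩ JC c i = {a} ∧ (c e').val < m then (1 : ℝ) else 0)
          = if (c e').val < m then 1 else 0 := by
        intro e' _
        simp [ha]
      rw [Finset.sum_congr rfl h2, Finset.sum_boole]
      congr 2
      ext x
      simp only [Finset.mem_sdiff, Finset.mem_inter, mem_JJC, mem_JC, Finset.mem_filter,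
        Finset.mem_erase]
      constructor
      · rintro ⟨⟨hx, h3⟩, h4⟩
        refine ⟨⟨?_, hx⟩, h3⟩
        rintro rfl
        have : x ∈ S ∩ JC c i := by rw [ha]; simp
        exact h4 (mem_JC.mp (Finset.mem_inter.mp this).2)
      · rintro ⟨⟨h3, hx⟩, h4⟩
        refine ⟨⟨hx, h4⟩, ?_⟩
        intro h5
        have : x ∈ S ∩ JC c i := Finset.mem_inter.mpr ⟨hx, mem_JC.mpr h5⟩
        rw [ha, Finset.mem_singleton] at this
        exact h3 this
    · intro e _ he
      apply Finset.sum_eq_zero
      intro e' _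
      rw [if_neg]
      rintro ⟨h2, _⟩
      rw [ha] at h2
      exact he (Finset.singleton_inj.mp h2).symm
    · intro h2
      exact absurd haS h2
  · symm
    apply Finset.sum_eq_zero
    intro e _
    apply Finset.sum_eq_zero
    intro e' _
    rw [if_neg]
    rintro ⟨h2, _⟩
    apply h
    rw [h2]
    simp

lemma stat2 {m M : ℕ} (hmM : m ≤ M) (hM : 0 < M) (S : Finset X) :
    Ec M (fun c : X → Fin M => ∑ i : Fin m,
        if (S ∩ JC c i).card = 1 then (((S ∩ JJC m c) \ JC c i).card : ℝ) else 0)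
      ≤ 4 * ((m : ℝ) ^ 2 / M) * umin M S := by
  have hM' : (0 : ℝ) < M := by exact_mod_cast hM
  rw [Ec_sum]
  have h1 : ∀ i : Fin m, Ec M (fun c : X → Fin M =>
        if (S ∩ JC c i).card = 1 then (((S ∩ JJC m c) \ JC c i).card : ℝ) else 0)
      ≤ (S.card : ℝ) * (((S.card - 1 : ℕ) : ℝ)
          * ((1 / (M : ℝ)) * ((m : ℝ) / M) * tauM M ^ (S.card - 2))) := by
    intro i
    rw [Ec_congr (fun c => star_pointwise c S i), Ec_sum]
    have h2 : ∀ e ∈ S, Ec M (fun c : X → Fin M => ∑ e' ∈ S.erase e,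
          if S ∩ JC c i = {e} ∧ (c e').val < m then (1 : ℝ) else 0)
        ≤ ((S.card - 1 : ℕ) : ℝ) * ((1 / (M : ℝ)) * ((m : ℝ) / M) * tauM M ^ (S.card - 2)) := by
      intro e he
      rw [Ec_sum]
      refine (Finset.sum_le_sum (fun e' he' => evTwo hmM hM he (Finset.mem_of_mem_erase he')
        (Finset.ne_of_mem_erase he') i)).trans (le_of_eq ?_)
      rw [Finset.sum_const, nsmul_eq_mul, Finset.card_erase_of_mem he]
    refine (Finset.sum_le_sum h2).trans (le_of_eq ?_)
    rw [Finset.sum_const, nsmul_eq_mul]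
  refine (Finset.sum_le_sum fun i _ => h1 i).trans ?_
  simp only [Finset.sum_const, Finset.card_univ, Fintype.card_fin, nsmul_eq_mul]
  -- the analytic estimate
  have h3 : (S.card : ℝ) * (((S.card - 1 : ℕ) : ℝ) * tauM M ^ (S.card - 2)) ≤ 4 * M * umin M S := by
    have hu := umin_nonneg M S
    rcases Nat.lt_or_ge S.card 2 with hs | hs
    · have : ((S.card - 1 : ℕ) : ℝ) = 0 := by
        have : S.card - 1 = 0 := by omega
        exact_mod_cast this
      rw [this]
      simp only [zero_mul, mul_zero]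
      positivity
    · obtain ⟨k, hk⟩ : ∃ k, S.card = k + 2 := ⟨S.card - 2, by omega⟩
      rw [hk]
      have e1 : k + 2 - 1 = k + 1 := by omega
      have e2 : k + 2 - 2 = k := by omega
      rw [e1, e2]
      push_cast
      unfold umin
      rw [hk]
      by_cases hc : (((k + 2 : ℕ) : ℝ)) ≤ M
      · rw [min_eq_left hc]
        have h4 := succ_mul_tau_pow_le (show 1 ≤ M from hM) k
        have : ((k : ℝ) + 2) * (((k : ℝ) + 1) * tauM M ^ k) ≤ ((k : ℝ) + 2) * M :=
          mul_le_mul_of_nonneg_left h4 (by positivity)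
        push_cast
        nlinarith
      · push Not at hc
        rw [min_eq_right hc.le]
        have h4 := succ_succ_mul_tau_pow_le (show 1 ≤ M from hM) k
        nlinarith
  calc (m : ℝ) * ((S.card : ℝ) * (((S.card - 1 : ℕ) : ℝ)
          * ((1 / (M : ℝ)) * ((m : ℝ) / M) * tauM M ^ (S.card - 2))))
      = ((m : ℝ) ^ 2 / (M : ℝ) ^ 2)
          * ((S.card : ℝ) * (((S.card - 1 : ℕ) : ℝ) * tauM M ^ (S.card - 2))) := by
        field_simp
    _ ≤ ((m : ℝ) ^ 2 / (M : ℝ) ^ 2) * (4 * M * umin M S) :=
        mul_le_mul_of_nonneg_left h3 (by positivity)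
    _ = _ := by
        field_simp

end Vale.Agent.Lib.P063
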