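import Vale.Agent.Lib.P063.Sketch

/-!
Retention probabilities of the sketch, the entropy of the sketch given the spectral set, and the
entropy bound averaged over the colorings.
-/

namespace Vale.Agent.Lib.P063

open Finset Real

variable {X : Type*} [DecidableEq X] [Fintype X]

lemma ret_upper {m M : ℕ} (hmM : m ≤ M) (hM : 0 < M) {S : Finset X} {e : X} (he : e ∈ S) :
    Ec M (fun c : X → Fin M => if e ∈ Rc m c S then (1 : ℝ) else 0)
      ≤ ((m : ℝ) / M) * tauM M ^ (S.card - 1) := by
  have hM' : (0 : ℝ) < M := by exact_mod_cast hM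
  have hpt : ∀ c : X → Fin M, (if e ∈ Rc m c S then (1 : ℝ) else 0)
      ≤ ∑ i : Fin m, if S ∩ JC c i = {e} then (1 : ℝ) else 0 := by
    intro c
    split_ifs with h
    · obtain ⟨_, i, hi⟩ := mem_Rc.mp h
      have h1 : (if S ∩ JC c i = {e} then (1 : ℝ) else 0) = 1 := if_pos hi
      have h2 := Finset.single_le_sum
        (f := fun i : Fin m => if S ∩ JC c i = {e} then (1 : ℝ) else 0)
        (fun i _ => by split_ifs <;> norm_num) (Finset.mem_univ i)
      simp only [h1] at h2
      exact h2
    · exact Finset.sum_nonneg fun i _ => by split_ifs <;> norm_num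
  refine (Ec_mono hM hpt).trans (le_of_eq ?_)
  rw [Ec_sum, Finset.sum_congr rfl (fun i _ => evOne hmM hM he i)]
  simp only [Finset.sum_const, Finset.card_univ, Fintype.card_fin, nsmul_eq_mul]
  ring

lemma pair_upper {m M : ℕ} (hmM : m ≤ M) (hM : 0 < M) {S : Finset X} {e e' : X} (hne : e ≠ e') :
    Ec M (fun c : X → Fin M => if e ∈ Rc m c S ∧ e' ∈ Rc m c S then (1 : ℝ) else 0)
      ≤ ((m : ℝ) / M) ^ 2 := by
  rw [← evLt2 hmM hM hne]
  apply Ec_mono hM
  intro c
  have hlt : ∀ x, x ∈ Rc m c S → (c x).val < m := by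
    intro x hx
    obtain ⟨_, i, hi⟩ := mem_Rc.mp hx
    have h1 : x ∈ S ∩ JC c i := by rw [hi]; simp
    rw [mem_JC.mp (Finset.mem_inter.mp h1).2]
    exact i.isLt
  split_ifs with h h2 h2
  · exact le_rfl
  · exact absurd ⟨hlt e h.1, hlt e' h.2⟩ h2
  · norm_num
  · exact le_rfl

/-- Lower bound for the retention of an element. -/
lemma ret_lower {m M : ℕ} (hmM : m ≤ M) (hm : 4 ≤ m) {S : Finset X} {e : X} (he : e ∈ S)
    (hs : 32 * S.card ≤ M) :
    (9 / 10) * ((m : ℝ) / M)
      ≤ Ec M (fun c : X → Fin M => if e ∈ Rc m c S then (1 : ℝ) else 0) := by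
  have hM : 0 < M := by omega
  have hM' : (0 : ℝ) < M := by exact_mod_cast hM
  have hm' : (4 : ℝ) ≤ m := by exact_mod_cast hm
  have hm0 : (0 : ℝ) < m := by linarith
  have hpt : ∀ c : X → Fin M,
      (if (c e).val < m then (1 : ℝ) else 0)
        - ∑ e' ∈ S.erase e, (if (c e).val < m ∧ c e' = c e then (1 : ℝ) else 0)
        - (2 / (m : ℝ)) * ∑ e' ∈ S.erase e, (if (c e).val < m ∧ (c e').val < m then (1 : ℝ) else 0)
      ≤ if e ∈ Rc m c S then (1 : ℝ) else 0 := by
    intro c
    set a := ∑ e' ∈ S.erase e, (if (c e).val < m ∧ (c e').val < m then (1 : ℝ) else 0) with ha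
    set b := ∑ e' ∈ S.erase e, (if (c e).val < m ∧ c e' = c e then (1 : ℝ) else 0) with hb
    have ha0 : 0 ≤ a := Finset.sum_nonneg fun _ _ => by split_ifs <;> norm_num
    have hb0 : 0 ≤ b := Finset.sum_nonneg fun _ _ => by split_ifs <;> norm_num
    have h2a : 0 ≤ (2 / (m : ℝ)) * a := by positivity
    by_cases hc : (c e).val < m
    · rw [if_pos hc]
      by_cases hcoll : ∃ e' ∈ S.erase e, c e' = c e
      · obtain ⟨e', he', hce⟩ := hcoll
        have hb1 : 1 ≤ b := by
          have h1 : (if (c e).val < m ∧ c e' = c e then (1 : ℝ) else 0) = 1 := if_pos ⟨hc, hce⟩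
          have h2 := Finset.single_le_sum
            (f := fun e' => if (c e).val < m ∧ c e' = c e then (1 : ℝ) else 0)
            (fun _ _ => by split_ifs <;> norm_num) he'
          simp only [h1] at h2
          exact h2
        have : (0 : ℝ) ≤ if e ∈ Rc m c S then (1 : ℝ) else 0 := by split_ifs <;> norm_num
        linarith
      · push Not at hcoll
        by_cases hg : goodC m c S
        · have hmem : e ∈ Rc m c S := by
            rw [mem_Rc]
            refine ⟨hg, ⟨(c e).val, hc⟩, ?_⟩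
            ext x
            simp only [Finset.mem_inter, mem_JC, Finset.mem_singleton]
            constructor
            · rintro ⟨hx, h2⟩
              by_contra hxe
              exact hcoll x (Finset.mem_erase.mpr ⟨hxe, hx⟩) (Fin.ext h2)
            · rintro rfl
              exact ⟨he, rfl⟩
          rw [if_pos hmem]
          linarith
        · have h1 : ((Finset.univ.filter fun i : Fin m => S ∩ JC c i ≠ ∅).card : ℝ)
              ≤ ∑ i : Fin m, ((S ∩ JC c i).card : ℝ) := by
            rw [Finset.card_filter]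
            push_cast
            apply Finset.sum_le_sum
            intro i _
            by_cases h2 : S ∩ JC c i = ∅
            · simp [h2]
            · rw [if_pos h2]
              have : 0 < (S ∩ JC c i).card := Finset.card_pos.mpr (Finset.nonempty_iff_ne_empty.mpr h2)
              exact_mod_cast this
          rw [sum_card_inter_JC, ← Finset.add_sum_erase S _ he, if_pos hc] at h1
          have h2 : ∑ x ∈ S.erase e, (if (c x).val < m then (1 : ℝ) else 0) = a := by
            rw [ha]
            apply Finset.sum_congr rfl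
            intro x _
            simp [hc]
          rw [h2] at h1
          have h3 : (3 : ℝ) * m < 4 * ((Finset.univ.filter fun i : Fin m => S ∩ JC c i ≠ ∅).card : ℝ) := by
            have h9 : ¬ 4 * (Finset.univ.filter fun i : Fin m => S ∩ JC c i ≠ ∅).card ≤ 3 * m := hg
            have h10 := not_le.mp h9
            exact_mod_cast h10
          have h4 : (m : ℝ) / 2 ≤ a := by linarith
          have h5 : 1 ≤ (2 / (m : ℝ)) * a := by
            rw [div_mul_eq_mul_div, le_div_iff₀ hm0]
            linarith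
          have : (0 : ℝ) ≤ if e ∈ Rc m c S then (1 : ℝ) else 0 := by split_ifs <;> norm_num
          linarith
    · rw [if_neg hc]
      have h1 : a = 0 := by
        apply Finset.sum_eq_zero
        intro x _
        simp [hc]
      have h2 : b = 0 := by
        apply Finset.sum_eq_zero
        intro x _
        simp [hc]
      rw [h1, h2]
      have : (0 : ℝ) ≤ if e ∈ Rc m c S then (1 : ℝ) else 0 := by split_ifs <;> norm_num
      simpa using this
  refine le_trans ?_ (Ec_mono hM hpt)
  rw [Ec_sub M (fun c : X → Fin M => (if (c e).val < m then (1 : ℝ) else 0)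
        - ∑ e' ∈ S.erase e, (if (c e).val < m ∧ c e' = c e then (1 : ℝ) else 0)),
    Ec_sub M (fun c : X → Fin M => (if (c e).val < m then (1 : ℝ) else 0)), evLt hmM hM e, Ec_smul,
    Ec_sum, Ec_sum]
  have hcoll : ∀ e' ∈ S.erase e, Ec M (fun c : X → Fin M =>
      if (c e).val < m ∧ c e' = c e then (1 : ℝ) else 0) = ((m : ℝ) / M) * (1 / M) :=
    fun e' he' => evColl hmM hM (Finset.ne_of_mem_erase he').symm
  have hlt2 : ∀ e' ∈ S.erase e, Ec M (fun c : X → Fin M =>
      if (c e).val < m ∧ (c e').val < m then (1 : ℝ) else 0) = ((m : ℝ) / M) ^ 2 :=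
    fun e' he' => evLt2 hmM hM (Finset.ne_of_mem_erase he').symm
  rw [Finset.sum_congr rfl hcoll, Finset.sum_congr rfl hlt2, Finset.sum_const, Finset.sum_const,
    nsmul_eq_mul, nsmul_eq_mul]
  have hcard : ((S.erase e).card : ℝ) ≤ S.card := by
    exact_mod_cast Finset.card_le_card (Finset.erase_subset e S)
  have hsM : (S.card : ℝ) / M ≤ 1 / 32 := by
    rw [div_le_div_iff₀ hM' (by norm_num)]
    have : ((32 * S.card : ℕ) : ℝ) ≤ M := by exact_mod_cast hs
    push_cast at this
    linarith
  set r := (m : ℝ) / M with hr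
  have hr0 : 0 ≤ r := by positivity
  have hrel : (2 / (m : ℝ)) * (((S.erase e).card : ℝ) * r ^ 2) ≤ r * (2 * ((S.card : ℝ) / M)) := by
    have : (2 / (m : ℝ)) * r = 2 / M := by
      rw [hr]
      field_simp
    calc (2 / (m : ℝ)) * (((S.erase e).card : ℝ) * r ^ 2)
        = ((2 / (m : ℝ)) * r) * (((S.erase e).card : ℝ) * r) := by ring
      _ = (2 / (M : ℝ)) * (((S.erase e).card : ℝ) * r) := by rw [this]
      _ ≤ (2 / (M : ℝ)) * ((S.card : ℝ) * r) :=
          mul_le_mul_of_nonneg_left (mul_le_mul_of_nonneg_right hcard hr0) (by positivity)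
      _ = _ := by field_simp
  have hrel2 : ((S.erase e).card : ℝ) * (r * (1 / M)) ≤ r * ((S.card : ℝ) / M) := by
    calc ((S.erase e).card : ℝ) * (r * (1 / M)) ≤ (S.card : ℝ) * (r * (1 / M)) :=
          mul_le_mul_of_nonneg_right hcard (by positivity)
      _ = _ := by field_simp
  have hfin : r * (3 * ((S.card : ℝ) / M)) ≤ r * (3 / 32) :=
    mul_le_mul_of_nonneg_left (by linarith) hr0
  nlinarith

/-- The entropy of the sketch given the spectral set. -/
theorem Hq_bound {m M : ℕ} (hm : 0 < m) (hmM : m ≤ M) (hM2 : 2 ≤ M) (S : Finset X) :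
    Hlaw Finset.univ (fun _ : X → Fin M => pc X M) (fun c => Rc m c S)
      ≤ ((m : ℝ) / M) * umin M S * (9 + log ((M : ℝ) / m)) := by
  classical
  have hM : 0 < M := by omega
  have hM' : (0 : ℝ) < M := by exact_mod_cast hM
  have hm' : (0 : ℝ) < m := by exact_mod_cast hm
  have hmM' : (m : ℝ) ≤ M := by exact_mod_cast hmM
  have hτ := tauM_pos hM2
  set ρ := (m : ℝ) / M with hρ
  have hρ0 : 0 < ρ := by positivity
  have hρ1 : ρ ≤ 1 := by rw [hρ, div_le_one hM']; exact hmM'
  have hsum1 : ∑ c : X → Fin M, pc X M = 1 := by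
    have := Ec_const (X := X) hM 1
    unfold Ec at this
    simpa using this
  set T : X → (X → Fin M) → Bool := fun e c => decide (e ∈ Rc m c S) with hT
  have hcomp : Hlaw Finset.univ (fun _ : X → Fin M => pc X M) (fun c => Rc m c S)
      ≤ Hlaw Finset.univ (fun _ : X → Fin M => pc X M) (fun c e => T e c) := by
    have hfun : (fun c : X → Fin M => Rc m c S)
        = fun c => (fun t : X → Bool => Finset.univ.filter fun e => t e = true) (fun e => T e c) := by
      funext c
      ext e
      simp [hT]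
    rw [hfun]
    exact Hlaw_comp_le Finset.univ (fun _ _ => (pc_pos X hM).le) (fun c e => T e c)
      (fun t : X → Bool => Finset.univ.filter fun e => t e = true)
  refine hcomp.trans ((Hlaw_tuple_le _ (fun _ _ => (pc_pos X hM).le) hsum1 T).trans ?_)
  -- the law of one bit
  set r : X → ℝ := fun e => Ec M (fun c : X → Fin M => if e ∈ Rc m c S then (1 : ℝ) else 0) with hr
  have hr0 : ∀ e, 0 ≤ r e := fun e => Ec_nonneg hM fun c => by split_ifs <;> norm_num
  have hr1 : ∀ e, r e ≤ 1 := by
    intro e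
    have h9 := Ec_mono hM (g := fun c : X → Fin M => if e ∈ Rc m c S then (1 : ℝ) else 0)
      (h := fun _ => (1 : ℝ)) (fun c => by split_ifs <;> norm_num)
    rwa [Ec_const hM] at h9
  have hlaw1 : ∀ e, law Finset.univ (fun _ : X → Fin M => pc X M) (T e) true = r e := by
    intro e
    simp only [law, hr, Ec, hT, decide_eq_true_eq]
    rw [Finset.sum_filter]
    apply Finset.sum_congr rfl
    intro c _
    split_ifs <;> simp
  have hlaw0 : ∀ e, law Finset.univ (fun _ : X → Fin M => pc X M) (T e) false = 1 - r e := by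
    intro e
    have h2 := sum_law Finset.univ (fun _ : X → Fin M => pc X M) (T e)
    rw [Fintype.sum_bool, hlaw1, hsum1] at h2
    linarith
  have hbit : ∀ e, Hlaw Finset.univ (fun _ : X → Fin M => pc X M) (T e)
      = negMulLog (r e) + negMulLog (1 - r e) := by
    intro e
    unfold Hlaw
    rw [Fintype.sum_bool, hlaw1, hlaw0]
  set rbar := ρ * tauM M ^ (S.card - 1) with hrbar
  have hrbar0 : 0 < rbar := mul_pos hρ0 (pow_pos hτ _)
  have hrbar1 : rbar ≤ 1 := by
    have : tauM M ^ (S.card - 1) ≤ 1 := pow_le_one₀ hτ.le (tauM_le_one M)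
    rw [hrbar]
    nlinarith
  have hloglb : 0 ≤ log (1 / rbar) := Real.log_nonneg (by rw [le_div_iff₀ hrbar0]; linarith)
  have hin : ∀ e ∈ S, Hlaw Finset.univ (fun _ : X → Fin M => pc X M) (T e)
      ≤ rbar + rbar * log (1 / rbar) := by
    intro e he
    rw [hbit]
    have h2 : r e ≤ rbar := ret_upper hmM hM he
    have h3 := neg_le_linear (hr0 e) hrbar0
    have h4 := neg_le_one_sub (w := 1 - r e) (by linarith [hr1 e])
    have h5 : r e * log (1 / rbar) ≤ rbar * log (1 / rbar) :=
      mul_le_mul_of_nonneg_right h2 hloglb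
    linarith
  have hout : ∀ e, e ∉ S → Hlaw Finset.univ (fun _ : X → Fin M => pc X M) (T e) = 0 := by
    intro e he
    have h0 : r e = 0 := by
      simp only [hr]
      have : (fun c : X → Fin M => if e ∈ Rc m c S then (1 : ℝ) else 0) = fun _ => 0 := by
        funext c
        rw [if_neg (fun h => he (Rc_subset c S h))]
      rw [this, Ec_const hM]
    rw [hbit, h0]
    simp
  have hsum : ∑ e, Hlaw Finset.univ (fun _ : X → Fin M => pc X M) (T e)
      ≤ (S.card : ℝ) * (rbar + rbar * log (1 / rbar)) := by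
    have h2 : ∑ e, Hlaw Finset.univ (fun _ : X → Fin M => pc X M) (T e)
        = ∑ e ∈ S, Hlaw Finset.univ (fun _ : X → Fin M => pc X M) (T e) := by
      symm
      apply Finset.sum_subset (Finset.subset_univ S)
      intro e _ he
      exact hout e he
    rw [h2]
    refine (Finset.sum_le_sum hin).trans (le_of_eq ?_)
    rw [Finset.sum_const, nsmul_eq_mul]
  refine hsum.trans ?_
  -- analytic estimate
  have hu := umin_nonneg M S
  have hlogρ : log (1 / ρ) = log ((M : ℝ) / m) := by
    rw [hρ, one_div, inv_div]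
  have hlogρ0 : 0 ≤ log ((M : ℝ) / m) := Real.log_nonneg (by rw [le_div_iff₀ hm']; linarith)
  rcases Nat.eq_zero_or_pos S.card with hs | hs
  · rw [hs]
    simp only [Nat.cast_zero, zero_mul]
    positivity
  obtain ⟨k, hk⟩ : ∃ k, S.card = k + 1 := ⟨S.card - 1, by omega⟩
  have hlogr : log (1 / rbar) = log ((M : ℝ) / m) + k * log (1 / tauM M) := by
    rw [hrbar, hk]
    simp only [Nat.add_sub_cancel]
    rw [one_div, Real.log_inv, Real.log_mul hρ0.ne' (pow_pos hτ k).ne', Real.log_pow, ← hlogρ,
      one_div, one_div, Real.log_inv, Real.log_inv]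
    ring
  have hlogτ := log_one_div_tau_le hM2
  have hcount : ((k : ℝ) + 1) * tauM M ^ k ≤ umin M S := by
    unfold umin
    rw [hk]
    have := succ_tau_le_min (show 1 ≤ M from hM) k
    simpa using this
  have hcount2 : ((k : ℝ) + 1) * tauM M ^ k * ((k : ℝ) * (2 / (M : ℝ))) ≤ 8 * umin M S := by
    rcases Nat.eq_zero_or_pos k with h | h
    · rw [h]
      simp only [Nat.cast_zero, mul_zero, zero_mul]
      positivity
    obtain ⟨j, hj⟩ : ∃ j, k = j + 1 := ⟨k - 1, by omega⟩
    have h3 : ((j : ℝ) + 2) * ((j : ℝ) + 1) * tauM M ^ j ≤ 4 * (M : ℝ) * umin M S := by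
      unfold umin
      rw [hk, hj]
      by_cases hc : (((j + 1 + 1 : ℕ) : ℝ)) ≤ M
      · rw [min_eq_left hc]
        have h4 := succ_mul_tau_pow_le (show 1 ≤ M from hM) j
        have : ((j : ℝ) + 2) * (((j : ℝ) + 1) * tauM M ^ j) ≤ ((j : ℝ) + 2) * M :=
          mul_le_mul_of_nonneg_left h4 (by positivity)
        push_cast
        nlinarith
      · push Not at hc
        rw [min_eq_right hc.le]
        have h4 := succ_succ_mul_tau_pow_le (show 1 ≤ M from hM) j
        nlinarith
    have h5 : tauM M ^ (j + 1) ≤ tauM M ^ j :=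
      pow_le_pow_of_le_one hτ.le (tauM_le_one M) (Nat.le_succ j)
    rw [hj]
    push_cast
    have h6 : ((j : ℝ) + 1 + 1) * tauM M ^ (j + 1) * (((j : ℝ) + 1) * (2 / (M : ℝ)))
        = (((j : ℝ) + 2) * ((j : ℝ) + 1) * tauM M ^ (j + 1)) * (2 / (M : ℝ)) := by ring
    rw [h6]
    have h7 : ((j : ℝ) + 2) * ((j : ℝ) + 1) * tauM M ^ (j + 1)
        ≤ ((j : ℝ) + 2) * ((j : ℝ) + 1) * tauM M ^ j :=
      mul_le_mul_of_nonneg_left h5 (by positivity)
    calc (((j : ℝ) + 2) * ((j : ℝ) + 1) * tauM M ^ (j + 1)) * (2 / (M : ℝ))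
        ≤ (4 * (M : ℝ) * umin M S) * (2 / (M : ℝ)) :=
          mul_le_mul_of_nonneg_right (h7.trans h3) (by positivity)
      _ = 8 * umin M S := by field_simp; ring
  rw [hlogr, hrbar, hk]
  simp only [Nat.add_sub_cancel]
  push_cast
  have hkτ : 0 ≤ ((k : ℝ) + 1) * tauM M ^ k := by positivity
  have hlk : (k : ℝ) * log (1 / tauM M) ≤ (k : ℝ) * (2 / (M : ℝ)) :=
    mul_le_mul_of_nonneg_left hlogτ (by positivity)
  have hmain : ((k : ℝ) + 1) * tauM M ^ k * (1 + (log ((M : ℝ) / m) + (k : ℝ) * log (1 / tauM M)))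
      ≤ umin M S * (9 + log ((M : ℝ) / m)) := by
    calc ((k : ℝ) + 1) * tauM M ^ k * (1 + (log ((M : ℝ) / m) + (k : ℝ) * log (1 / tauM M)))
        ≤ ((k : ℝ) + 1) * tauM M ^ k * (1 + (log ((M : ℝ) / m) + (k : ℝ) * (2 / (M : ℝ)))) :=
          mul_le_mul_of_nonneg_left (by linarith) hkτ
      _ = ((k : ℝ) + 1) * tauM M ^ k * (1 + log ((M : ℝ) / m))
          + ((k : ℝ) + 1) * tauM M ^ k * ((k : ℝ) * (2 / (M : ℝ))) := by ring
      _ ≤ umin M S * (1 + log ((M : ℝ) / m)) + 8 * umin M S :=
          add_le_add (mul_le_mul_of_nonneg_right hcount (by linarith)) hcount2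
      _ = _ := by ring
  calc ((k : ℝ) + 1) * (ρ * tauM M ^ k + ρ * tauM M ^ k * (log ((M : ℝ) / m) + (k : ℝ) * log (1 / tauM M)))
      = ρ * (((k : ℝ) + 1) * tauM M ^ k * (1 + (log ((M : ℝ) / m) + (k : ℝ) * log (1 / tauM M)))) := by
        ring
    _ ≤ ρ * (umin M S * (9 + log ((M : ℝ) / m))) := mul_le_mul_of_nonneg_left hmain hρ0.le
    _ = _ := by ring

end Vale.Agent.Lib.P063
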