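import Vale.Agent.Lib.P063.Info

/-!
The spectral weights of a Boolean function and their disintegration over a block of coordinates.
-/

namespace Vale.Agent.Lib.P063

open Finset Real

variable {X : Type*} [DecidableEq X]

lemma sum_powerset_union (T₁ : Finset X) {T₂ : Finset X} (hd : Disjoint T₁ T₂)
    (h : Finset X → ℝ) :
    ∑ S ∈ (T₁ ∪ T₂).powerset, h S = ∑ A ∈ T₁.powerset, ∑ B ∈ T₂.powerset, h (A ∪ B) := by
  classical
  induction T₂ using Finset.induction_on generalizing h with
  | empty => simp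
  | insert e T' he ih =>
    have heT₁ : e ∉ T₁ := fun h' => (Finset.disjoint_left.mp hd h') (Finset.mem_insert_self e T')
    have hd' : Disjoint T₁ T' := Finset.disjoint_of_subset_right (Finset.subset_insert e T') hd
    rw [Finset.union_insert, Finset.sum_powerset_insert (by simp [he, heT₁])]
    rw [ih hd', ih hd', ← Finset.sum_add_distrib]
    apply Finset.sum_congr rfl
    intro A _
    rw [Finset.sum_powerset_insert he]
    congr 1
    apply Finset.sum_congr rfl
    intro B _
    rw [Finset.union_insert]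

variable [Fintype X]

/-- The biased Fourier coefficients of `f`. -/
noncomputable def fhat (p : ℝ) (f : Finset X → ℝ) (S : Finset X) : ℝ := coef p univ S f ∅

/-- The spectral weights of `f`. -/
noncomputable def wgt (p : ℝ) (f : Finset X → ℝ) (S : Finset X) : ℝ := fhat p f S ^ 2

lemma wgt_nonneg (p : ℝ) (f : Finset X → ℝ) (S : Finset X) : 0 ≤ wgt p f S := sq_nonneg _

lemma coef_univ_eq (p : ℝ) (f : Finset X → ℝ) (S x : Finset X) :
    coef p univ S f x = fhat p f S :=
  coef_of_sdiff_eq p univ S f (by simp)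

lemma sum_split (J : Finset X) (h : Finset X → ℝ) :
    ∑ S, h S = ∑ A ∈ J.powerset, ∑ B ∈ Jᶜ.powerset, h (A ∪ B) := by
  have := sum_powerset_union J (disjoint_compl_right) h
  rw [Finset.union_compl, Finset.powerset_univ] at this
  exact this

lemma inter_of_split {J A B : Finset X} (hA : A ⊆ J) (hB : B ⊆ Jᶜ) : (A ∪ B) ∩ J = A := by
  ext a
  simp only [Finset.mem_inter, Finset.mem_union]
  constructor
  · rintro ⟨h | h, h'⟩
    · exact h
    · exact absurd h' (Finset.mem_compl.mp (hB h))
  · intro h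
    exact ⟨Or.inl h, hA h⟩

lemma sdiff_of_split {J A B : Finset X} (hA : A ⊆ J) (hB : B ⊆ Jᶜ) : (A ∪ B) \ J = B := by
  ext a
  simp only [Finset.mem_sdiff, Finset.mem_union]
  constructor
  · rintro ⟨h | h, h'⟩
    · exact absurd (hA h) h'
    · exact h
  · intro h
    exact ⟨Or.inr h, Finset.mem_compl.mp (hB h)⟩

/-- Composing the coefficient on a block and the coefficient on its complement. -/
lemma coef_compl {p : ℝ} (h0 : 0 < p) (h1 : p < 1) (f : Finset X → ℝ) {J A B : Finset X}
    (hA : A ⊆ J) (hB : B ⊆ Jᶜ) (x : Finset X) :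
    coef p Jᶜ B (coef p J A f) x = fhat p f (A ∪ B) := by
  rw [coef_coef h0 h1 hA Jᶜ disjoint_compl_left B hB f x, Finset.union_comm Jᶜ J, Finset.union_compl,
    Finset.union_comm B A, coef_univ_eq]

/-- The square of the partial coefficient, averaged over the complement. -/
lemma avg_sq_coef {p : ℝ} (h0 : 0 < p) (h1 : p < 1) (f : Finset X → ℝ) {J A : Finset X}
    (hA : A ⊆ J) (x : Finset X) :
    avg p Jᶜ (fun y => coef p J A f y ^ 2) x = ∑ B ∈ Jᶜ.powerset, wgt p f (A ∪ B) := by
  rw [parseval_sq h0 h1]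
  apply Finset.sum_congr rfl
  intro B hB
  rw [coef_compl h0 h1 f hA (Finset.mem_powerset.mp hB)]
  rfl

/-- Disintegration of the spectral weights. -/
lemma avg_weighted {p : ℝ} (h0 : 0 < p) (h1 : p < 1) (f : Finset X → ℝ) (J : Finset X)
    (g : Finset X → ℝ) (x : Finset X) :
    avg p Jᶜ (fun y => ∑ A ∈ J.powerset, g A * coef p J A f y ^ 2) x
      = ∑ S, g (S ∩ J) * wgt p f S := by
  rw [avg_sum, sum_split J]
  apply Finset.sum_congr rfl
  intro A hA
  have hA' := Finset.mem_powerset.mp hA
  rw [avg_smul, avg_sq_coef h0 h1 f hA', Finset.mul_sum]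
  apply Finset.sum_congr rfl
  intro B hB
  rw [inter_of_split hA' (Finset.mem_powerset.mp hB)]

/-- The partial coefficients of a Boolean function have squares summing to one. -/
lemma sum_sq_coef {p : ℝ} (h0 : 0 < p) (h1 : p < 1) {f : Finset X → ℝ} (hf : ∀ x, f x ^ 2 = 1)
    (J : Finset X) (y : Finset X) : ∑ A ∈ J.powerset, coef p J A f y ^ 2 = 1 := by
  rw [← parseval_sq h0 h1]
  simp only [hf]
  exact avg_const p J 1 y

lemma sum_wgt {p : ℝ} (h0 : 0 < p) (h1 : p < 1) {f : Finset X → ℝ} (hf : ∀ x, f x ^ 2 = 1) :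
    ∑ S, wgt p f S = 1 := by
  have := sum_sq_coef h0 h1 hf (univ : Finset X) ∅
  rw [Finset.powerset_univ] at this
  exact this

/-- Energy of the partial coefficient on the complement. -/
lemma energy_coef {p : ℝ} (h0 : 0 < p) (h1 : p < 1) (f : Finset X → ℝ) {J A : Finset X}
    (hA : A ⊆ J) (x : Finset X) :
    ∑ B ∈ Jᶜ.powerset, (B.card : ℝ) * coef p Jᶜ B (coef p J A f) x ^ 2
      = ∑ B ∈ Jᶜ.powerset, (B.card : ℝ) * wgt p f (A ∪ B) := by
  apply Finset.sum_congr rfl
  intro B hB
  rw [coef_compl h0 h1 f hA (Finset.mem_powerset.mp hB)]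
  rfl

/-- The Fourier weight on sets containing `e` computes the average of the squared discrete
derivative, which for Boolean functions is proportional to its absolute value. -/
lemma Dop_sq {p : ℝ} (h0 : 0 < p) (h1 : p < 1) {f : Finset X → ℝ} (hf : ∀ x, f x ^ 2 = 1)
    (e : X) (y : Finset X) : Dop p e f y ^ 2 = 2 * sig p * |Dop p e f y| := by
  have hs := sig_pos h0 h1
  unfold Dop
  rw [abs_mul, abs_of_pos hs, mul_pow]
  have ha := hf (insert e y)
  have hb := hf (y.erase e)
  have hab : (f (insert e y) - f (y.erase e)) ^ 2 = 2 * |f (insert e y) - f (y.erase e)| := by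
    have hpm : ∀ a : ℝ, a ^ 2 = 1 → a = 1 ∨ a = -1 := by
      intro a ha
      have : (a - 1) * (a + 1) = 0 := by nlinarith
      rcases mul_eq_zero.mp this with h | h
      · left; linarith
      · right; linarith
    rcases hpm _ ha with ha' | ha' <;> rcases hpm _ hb with hb' | hb' <;> rw [ha', hb'] <;>
      norm_num
  rw [hab]
  ring

end Vale.Agent.Lib.P063
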