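import Vale.Agent.Lib.P063.Sketch2

/-!
The entropy of the sketch, averaged over the colorings and the spectral sets.
-/

namespace Vale.Agent.Lib.P063

open Finset Real

variable {X : Type*} [DecidableEq X] [Fintype X]

lemma Ec_linear6 {M : ℕ} (A B C D : ℝ) (a b d e g h : (X → Fin M) → ℝ) :
    Ec M (fun c => A * (a c + b c) + d c + B * e c + C * g c + D * h c)
      = A * (Ec M a + Ec M b) + Ec M d + B * Ec M e + C * Ec M g + D * Ec M h := by
  unfold Ec
  simp only [Finset.mul_sum, ← Finset.sum_add_distrib]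
  apply Finset.sum_congr rfl
  intros
  ring

lemma CLS_nonneg {p : ℝ} (h0 : 0 < p) (h1 : p < 1) : 0 ≤ CLS p := by
  have hq : 0 < 1 - p := by linarith
  unfold CLS
  have h1' : 0 ≤ log (1 / p) := Real.log_nonneg (by rw [le_div_iff₀ h0]; linarith)
  have h2' : 0 ≤ log (1 / (1 - p)) := Real.log_nonneg (by rw [le_div_iff₀ hq]; linarith)
  positivity

/-- The full upper bound on the entropy of the sketch. -/
theorem entropy_upper {m M : ℕ} (hm : 0 < m) (hmM : m ≤ M) (hmM2 : m ^ 2 ≤ M) (hM2 : 2 ≤ M)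
    {p : ℝ} (h0 : 0 < p) (h1 : p < 1) {f : Finset X → ℝ} (hf : ∀ x, f x ^ 2 = 1)
    {t y₀ : ℝ} (ht : 0 < t) (ht1 : t ≤ 1) (hy₀ : 0 < y₀) (hy₁ : y₀ ≤ 1) :
    Hlaw ((Finset.univ : Finset (X → Fin M)) ×ˢ (Finset.univ : Finset (Finset X)))
        (fun a => pc X M * wgt p f a.2) (fun a => Rc m a.1 a.2)
      ≤ 1 + m * y₀ + ∑ S, (8 * CLS p * umin M S
          + (((m : ℝ) / M) * umin M S) * (10 + log (1 / y₀) + 2 * log (1 / t) + log ((M : ℝ) / m))
          + (t / sig p) * (((m : ℝ) / M) * S.card)) * wgt p f S := by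
  classical
  have hM : 0 < M := by omega
  have hM' : (0 : ℝ) < M := by exact_mod_cast hM
  have hm' : (0 : ℝ) < m := by exact_mod_cast hm
  have hs := sig_pos h0 h1
  have hlogy : 0 ≤ log (1 / y₀) := Real.log_nonneg (by rw [le_div_iff₀ hy₀]; linarith)
  have hlogt : 0 ≤ log (1 / t) := Real.log_nonneg (by rw [le_div_iff₀ ht]; linarith)
  have hCLS := CLS_nonneg h0 h1
  have hmix := H_mix_le (Finset.univ : Finset (X → Fin M)) (Finset.univ : Finset (Finset X))
    (ρc := fun _ => pc X M) (w := wgt p f) (fun _ _ => pc_pos X hM) (fun S _ => wgt_nonneg p f S)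
    (fun c S => Rc m c S)
  refine hmix.trans ?_
  -- the quantity for a fixed coloring
  set Ψ : (X → Fin M) → Finset X → ℝ := fun c S =>
    CLS p * ((if goodC m c S then (((S \ JJC m c).card : ℕ) : ℝ) else 0)
        + ∑ i : Fin m, (if (S ∩ JC c i).card = 1 then (((S ∩ JJC m c) \ JC c i).card : ℝ) else 0))
      + (∑ i : Fin m, if S ∩ JC c i = ∅ then (0 : ℝ) else 1)
      + log (1 / y₀) * (∑ i : Fin m, if 2 ≤ (S ∩ JC c i).card then (1 : ℝ) else 0)
      + 2 * log (1 / t) * (∑ i : Fin m, if (S ∩ JC c i).card = 1 then (1 : ℝ) else 0)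
      + (t / sig p) * (∑ i : Fin m, ((S ∩ JC c i).card : ℝ)) with hΨ
  have hfix : ∀ c : X → Fin M, Hlaw Finset.univ (wgt p f) (fun S => Rc m c S)
      ≤ 1 + m * y₀ + ∑ S, Ψ c S * wgt p f S := by
    intro c
    have h2 : Hlaw Finset.univ (wgt p f) (fun S => Rc m c S)
        ≤ Hlaw Finset.univ (wgt p f) (outT m c) :=
      Hlaw_comp_le Finset.univ (fun S _ => wgt_nonneg p f S) (outT m c) Rout
    refine h2.trans ?_
    have h3 := fixed_bound h0 h1 hf (J := JC (m := m) c) (JJ := JJC m c) (fun i => JC_subset c i)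
      goodT ht hy₀
    refine h3.trans (le_of_eq ?_)
    congr 1
    apply Finset.sum_congr rfl
    intro S _
    congr 1
    simp only [hΨ]
    congr 4
    by_cases hg : goodC m c S
    · rw [if_pos hg, if_pos ((goodT_tup c S).mpr hg)]
    · rw [if_neg hg, if_neg (fun h => hg ((goodT_tup c S).mp h))]
  have hEΨ : ∀ S, Ec M (fun c => Ψ c S)
      ≤ 8 * CLS p * umin M S
        + (((m : ℝ) / M) * umin M S) * (1 + log (1 / y₀) + 2 * log (1 / t))
        + (t / sig p) * (((m : ℝ) / M) * S.card) := by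
    intro S
    have hu := umin_nonneg M S
    have hρ : 0 ≤ (m : ℝ) / M := by positivity
    simp only [hΨ]
    rw [Ec_linear6]
    have s1 := stat1 (X := X) hmM hm S
    have s2 := stat2 (X := X) hmM hM S
    have s3 := stat3 (X := X) hmM hM S
    have s4 := (stat4 (X := X) (m := m) hM S).trans s3
    have s5 := stat5 (X := X) hmM hM S
    have s6 := stat6 (X := X) hmM hM S
    have hmM2' : (m : ℝ) ^ 2 / M ≤ 1 := by
      rw [div_le_one hM']
      exact_mod_cast hmM2
    have s2' : Ec M (fun c : X → Fin M => ∑ i : Fin m,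
        if (S ∩ JC c i).card = 1 then (((S ∩ JJC m c) \ JC c i).card : ℝ) else 0) ≤ 4 * umin M S := by
      refine s2.trans ?_
      nlinarith
    rw [s6]
    have t1 : CLS p * (Ec M (fun c : X → Fin M => if goodC m c S then (((S \ JJC m c).card : ℕ) : ℝ) else 0)
        + Ec M (fun c : X → Fin M => ∑ i : Fin m,
          if (S ∩ JC c i).card = 1 then (((S ∩ JJC m c) \ JC c i).card : ℝ) else 0))
        ≤ CLS p * (4 * umin M S + 4 * umin M S) :=
      mul_le_mul_of_nonneg_left (add_le_add s1 s2') hCLS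
    have t2 := mul_le_mul_of_nonneg_left s4 hlogy
    have t3 := mul_le_mul_of_nonneg_left s5 (by positivity : 0 ≤ 2 * log (1 / t))
    nlinarith
  -- combining
  have hfirst : ∑ c : X → Fin M, pc X M * Hlaw Finset.univ (wgt p f) (fun S => Rc m c S)
      ≤ 1 + m * y₀ + ∑ S, (8 * CLS p * umin M S
        + (((m : ℝ) / M) * umin M S) * (1 + log (1 / y₀) + 2 * log (1 / t))
        + (t / sig p) * (((m : ℝ) / M) * S.card)) * wgt p f S := by
    have h2 := Ec_mono hM hfix
    have h3 : Ec M (fun c : X → Fin M => 1 + m * y₀ + ∑ S, Ψ c S * wgt p f S)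
        = 1 + m * y₀ + ∑ S, Ec M (fun c => Ψ c S) * wgt p f S := by
      have e1 : (fun c : X → Fin M => 1 + m * y₀ + ∑ S, Ψ c S * wgt p f S)
          = fun c => (fun _ => 1 + m * y₀) c + (fun c => ∑ S, Ψ c S * wgt p f S) c := rfl
      rw [e1, Ec_add, Ec_const hM, Ec_sum]
      congr 1
      apply Finset.sum_congr rfl
      intro S _
      unfold Ec
      rw [Finset.sum_mul]
      apply Finset.sum_congr rfl
      intros
      ring
    rw [h3] at h2
    refine h2.trans ?_
    apply add_le_add_right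
    apply Finset.sum_le_sum
    intro S _
    exact mul_le_mul_of_nonneg_right (hEΨ S) (wgt_nonneg p f S)
  have hsecond : ∑ S, wgt p f S * Hlaw Finset.univ (fun _ : X → Fin M => pc X M) (fun c => Rc m c S)
      ≤ ∑ S, (((m : ℝ) / M) * umin M S * (9 + log ((M : ℝ) / m))) * wgt p f S := by
    apply Finset.sum_le_sum
    intro S _
    rw [mul_comm]
    exact mul_le_mul_of_nonneg_right (Hq_bound hm hmM hM2 S) (wgt_nonneg p f S)
  refine (add_le_add hfirst hsecond).trans (le_of_eq ?_)
  rw [add_assoc (1 + (m : ℝ) * y₀), ← Finset.sum_add_distrib]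
  congr 1
  apply Finset.sum_congr rfl
  intro S _
  ring

end Vale.Agent.Lib.P063
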