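import Vale.Agent.Lib.P063.Hyper

/-!
A sparse random sample of an `r`-uniform hypergraph covers many vertices.
-/

namespace Vale.Agent.Lib.P063

open Finset Real

variable {n r : ℕ}

/-- Few edges have all their vertices of high degree. -/
lemma few_inside {m M : ℕ} (hr : 2 ≤ r) (hm : 0 < m) (hMdef : M = (r * m) ^ r)
    (S : Finset (Edge n r)) (hs : 32 * S.card ≤ M) (H : Finset (Fin n))
    (hH : (H.card : ℝ) ≤ 2 * ((m : ℝ) / M) * r * S.card) :
    ((S.filter fun e => e.1 ⊆ H).card : ℝ) ≤ (S.card : ℝ) / 8 := by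
  classical
  have hM : 0 < M := by rw [hMdef]; positivity
  have hM' : (0 : ℝ) < M := by exact_mod_cast hM
  have h1 : (S.filter fun e => e.1 ⊆ H).card ≤ (H.powersetCard r).card := by
    apply Finset.card_le_card_of_injOn (fun e => e.1)
    · intro e he
      have he' := (Finset.mem_filter.mp he).2
      exact Finset.mem_coe.mpr (Finset.mem_powersetCard.mpr ⟨he', e.2⟩)
    · intro e _ e' _ h
      exact Subtype.ext h
  rw [Finset.card_powersetCard] at h1
  have h2 : ((S.filter fun e => e.1 ⊆ H).card : ℝ) ≤ (H.card : ℝ) ^ r := by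
    have := h1.trans (Nat.choose_le_pow _ _)
    exact_mod_cast this
  refine h2.trans ?_
  obtain ⟨j, hj⟩ : ∃ j, r = j + 1 := ⟨r - 1, by omega⟩
  have hj1 : 1 ≤ j := by omega
  set K : ℝ := (r : ℝ) * m with hK
  have hKpos : 0 < K := by
    have : (0 : ℝ) < r := by exact_mod_cast (by omega : 0 < r)
    have : (0 : ℝ) < m := by exact_mod_cast hm
    positivity
  have hMK : (M : ℝ) = K ^ r := by rw [hMdef, hK]; push_cast; rfl
  set s : ℝ := (S.card : ℝ) with hsdef
  have hs0 : 0 ≤ s := by positivity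
  have hsM : 2 * s / M ≤ 1 / 16 := by
    have : (32 : ℝ) * s ≤ M := by rw [hsdef]; exact_mod_cast hs
    rw [div_le_div_iff₀ hM' (by norm_num)]
    linarith
  have hbase : 2 * ((m : ℝ) / M) * r * s = 2 * K * s / M := by
    rw [hK]; field_simp
  rw [hbase] at hH
  have hpow : (H.card : ℝ) ^ r ≤ (2 * K * s / M) ^ r :=
    pow_le_pow_left₀ (by positivity) hH r
  refine hpow.trans ?_
  have hval : (2 * K * s / M) ^ r = 2 * s * (2 * s / M) ^ j := by
    have e1 : 2 * K * s / M = K * (2 * s / M) := by ring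
    rw [e1, mul_pow, ← hMK, hj, pow_succ (2 * s / (M : ℝ)) j]
    field_simp
  rw [hval]
  have h3 : (2 * s / (M : ℝ)) ^ j ≤ 1 / 16 := by
    have h4 : (2 * s / (M : ℝ)) ^ j ≤ (1 / 16 : ℝ) ^ j :=
      pow_le_pow_left₀ (by positivity) hsM j
    have h5 : (1 / 16 : ℝ) ^ j ≤ (1 / 16 : ℝ) ^ 1 :=
      pow_le_pow_of_le_one (by norm_num) (by norm_num) hj1
    simpa using h4.trans h5
  nlinarith

/-- A sparse sample covers many vertices. -/
theorem vertex_lower {m M : ℕ} (hr : 2 ≤ r) (hm : 4 ≤ m) (hMdef : M = (r * m) ^ r)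
    (S : Finset (Edge n r)) (hs : 32 * S.card ≤ M) :
    (1 / 5) * ((m : ℝ) / M) * S.card
      ≤ Ec M (fun c : Edge n r → Fin M => ((Vt (Rc m c S)).card : ℝ)) := by
  classical
  have hm0 : 0 < m := by omega
  have hM : 0 < M := by rw [hMdef]; positivity
  have hM' : (0 : ℝ) < M := by exact_mod_cast hM
  have hmM : m ≤ M := by
    rw [hMdef]
    calc m ≤ r * m := Nat.le_mul_of_pos_left m (by omega)
      _ ≤ (r * m) ^ r := Nat.le_self_pow (by omega) _
  rcases S.eq_empty_or_nonempty with hS | hS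
  · rw [hS]
    simp only [Finset.card_empty, Nat.cast_zero, mul_zero]
    exact Ec_nonneg hM fun c => by positivity
  have hFin : Nonempty (Fin n) := by
    obtain ⟨e, _⟩ := hS
    have : e.1.Nonempty := by
      rw [← Finset.card_pos, e.2]
      omega
    obtain ⟨a, _⟩ := this
    exact ⟨a⟩
  set ρ : ℝ := (m : ℝ) / M with hρ
  have hρ0 : 0 < ρ := by
    have : (0 : ℝ) < m := by exact_mod_cast hm0
    positivity
  set deg : Fin n → ℕ := fun w => (S.filter fun e => w ∈ e.1).card with hdeg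
  have hsumdeg : ∑ w, (deg w : ℝ) = r * S.card := by
    have h1 : ∀ w, (deg w : ℝ) = ∑ e ∈ S, if w ∈ e.1 then (1 : ℝ) else 0 := by
      intro w
      simp only [hdeg]
      rw [Finset.sum_boole]
    simp only [h1]
    rw [Finset.sum_comm]
    have h2 : ∀ e ∈ S, ∑ w, (if w ∈ e.1 then (1 : ℝ) else 0) = r := by
      intro e _
      rw [Finset.sum_boole]
      have : (Finset.univ.filter fun w => w ∈ e.1) = e.1 := by
        ext a; simp
      rw [this, e.2]
    rw [Finset.sum_congr rfl h2, Finset.sum_const, nsmul_eq_mul]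
    ring
  set H : Finset (Fin n) := Finset.univ.filter fun w => 1 < 2 * ρ * (deg w : ℝ) with hHdef
  have hHcard : (H.card : ℝ) ≤ 2 * ρ * r * S.card := by
    have h1 : (H.card : ℝ) = ∑ w ∈ H, (1 : ℝ) := by simp
    rw [h1]
    calc ∑ w ∈ H, (1 : ℝ) ≤ ∑ w ∈ H, 2 * ρ * (deg w : ℝ) := by
          apply Finset.sum_le_sum
          intro w hw
          exact (Finset.mem_filter.mp hw).2.le
      _ ≤ ∑ w, 2 * ρ * (deg w : ℝ) := by
          apply Finset.sum_le_sum_of_subset_of_nonneg (Finset.subset_univ _)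
          intro w _ _
          positivity
      _ = 2 * ρ * r * S.card := by
          rw [← Finset.mul_sum, hsumdeg]
          ring
  have hinside := few_inside hr hm0 hMdef S hs H hHcard
  set S' := S.filter fun e => ¬ e.1 ⊆ H with hS'
  have hS'card : (S.card : ℝ) / 2 ≤ (S'.card : ℝ) := by
    have h1 := Finset.card_filter_add_card_filter_not (s := S) (fun e => e.1 ⊆ H)
    have h2 : ((S.filter fun e => e.1 ⊆ H).card : ℝ) + (S'.card : ℝ) = S.card := by
      exact_mod_cast h1
    have h3 : (0 : ℝ) ≤ S.card := by positivity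
    linarith
  have hex : ∀ e ∈ S', ∃ w ∈ e.1, w ∉ H := by
    intro e he
    have := (Finset.mem_filter.mp he).2
    rcases Finset.not_subset.mp this with ⟨w, h1, h2⟩
    exact ⟨w, h1, h2⟩
  choose! l hl1 hl2 using hex
  set W := S'.image l with hW
  set E : Fin n → Finset (Edge n r) := fun w => S'.filter fun e => l e = w with hE
  have hEmem : ∀ w e, e ∈ E w → e ∈ S' ∧ l e = w := by
    intro w e he
    exact Finset.mem_filter.mp he
  have hEcard : ∀ w ∈ W, 2 * ρ * ((E w).card : ℝ) ≤ 1 := by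
    intro w hw
    obtain ⟨e₀, he₀, rfl⟩ := Finset.mem_image.mp hw
    have h1 : l e₀ ∉ H := hl2 e₀ he₀
    have h2 : ¬ (1 < 2 * ρ * (deg (l e₀) : ℝ)) := by
      intro h3
      exact h1 (Finset.mem_filter.mpr ⟨Finset.mem_univ _, h3⟩)
    have h3 : (E (l e₀)).card ≤ deg (l e₀) := by
      apply Finset.card_le_card
      intro e he
      obtain ⟨h4, h5⟩ := hEmem _ e he
      refine Finset.mem_filter.mpr ⟨(Finset.mem_filter.mp h4).1, ?_⟩
      rw [← h5]
      exact hl1 e h4
    have h4 : ((E (l e₀)).card : ℝ) ≤ deg (l e₀) := by exact_mod_cast h3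
    have h5 := mul_le_mul_of_nonneg_left h4 (by positivity : 0 ≤ 2 * ρ)
    linarith [not_lt.mp h2]
  -- pointwise inequality
  have hpt : ∀ c : Edge n r → Fin M,
      ∑ w ∈ W, (∑ e ∈ E w, (if e ∈ Rc m c S then (1 : ℝ) else 0)
        - ∑ e ∈ E w, ∑ e' ∈ (E w).erase e, (if e ∈ Rc m c S ∧ e' ∈ Rc m c S then (1 : ℝ) else 0))
      ≤ ((Vt (Rc m c S)).card : ℝ) := by
    intro c
    set R₀ := Rc m c S with hR₀
    have hone : ∀ w ∈ W, (∑ e ∈ E w, (if e ∈ R₀ then (1 : ℝ) else 0)
        - ∑ e ∈ E w, ∑ e' ∈ (E w).erase e, (if e ∈ R₀ ∧ e' ∈ R₀ then (1 : ℝ) else 0))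
        ≤ if w ∈ Vt R₀ then (1 : ℝ) else 0 := by
      intro w _
      have hnn : ∀ e ∈ E w, 0 ≤ ∑ e' ∈ (E w).erase e, (if e ∈ R₀ ∧ e' ∈ R₀ then (1 : ℝ) else 0) :=
        fun e _ => Finset.sum_nonneg fun _ _ => by split_ifs <;> norm_num
      by_cases hA : ∃ a ∈ E w, a ∈ R₀
      · obtain ⟨a, haE, haR⟩ := hA
        have hw : w ∈ Vt R₀ := by
          refine Finset.mem_biUnion.mpr ⟨a, haR, ?_⟩
          obtain ⟨h4, h5⟩ := hEmem _ a haE
          rw [← h5]
          exact hl1 a h4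
        rw [if_pos hw]
        have h1 := Finset.single_le_sum hnn haE
        have h2 : ∑ e ∈ E w, (if e ∈ R₀ then (1 : ℝ) else 0)
            = 1 + ∑ e' ∈ (E w).erase a, (if a ∈ R₀ ∧ e' ∈ R₀ then (1 : ℝ) else 0) := by
          rw [← Finset.add_sum_erase _ _ haE, if_pos haR]
          congr 1
          apply Finset.sum_congr rfl
          intro x _
          simp [haR]
        rw [h2]
        linarith
      · push Not at hA
        have h1 : ∑ e ∈ E w, (if e ∈ R₀ then (1 : ℝ) else 0) = 0 := by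
          apply Finset.sum_eq_zero
          intro e he
          rw [if_neg (hA e he)]
        rw [h1]
        have h2 : 0 ≤ ∑ e ∈ E w, ∑ e' ∈ (E w).erase e,
            (if e ∈ R₀ ∧ e' ∈ R₀ then (1 : ℝ) else 0) := Finset.sum_nonneg hnn
        have h3 : (0 : ℝ) ≤ if w ∈ Vt R₀ then (1 : ℝ) else 0 := by split_ifs <;> norm_num
        linarith
    refine (Finset.sum_le_sum hone).trans ?_
    rw [Finset.sum_boole]
    have h4 : (W.filter fun w => w ∈ Vt R₀).card ≤ (Vt R₀).card := by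
      apply Finset.card_le_card
      intro w hw
      exact (Finset.mem_filter.mp hw).2
    exact_mod_cast h4
  refine le_trans ?_ (Ec_mono hM hpt)
  -- expectation
  rw [Ec_sum]
  have hterm : ∀ w ∈ W, (2 / 5) * ρ * ((E w).card : ℝ)
      ≤ Ec M (fun c : Edge n r → Fin M =>
        ∑ e ∈ E w, (if e ∈ Rc m c S then (1 : ℝ) else 0)
          - ∑ e ∈ E w, ∑ e' ∈ (E w).erase e,
            (if e ∈ Rc m c S ∧ e' ∈ Rc m c S then (1 : ℝ) else 0)) := by
    intro w hw
    rw [Ec_sub, Ec_sum, Ec_sum]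
    have h1 : ∀ e ∈ E w, (9 / 10) * ρ ≤ Ec M (fun c : Edge n r → Fin M =>
        if e ∈ Rc m c S then (1 : ℝ) else 0) := by
      intro e he
      exact ret_lower hmM hm (Finset.mem_filter.mp (hEmem w e he).1).1 hs
    have h2 : ∀ e ∈ E w, Ec M (fun c : Edge n r → Fin M =>
        ∑ e' ∈ (E w).erase e, (if e ∈ Rc m c S ∧ e' ∈ Rc m c S then (1 : ℝ) else 0))
        ≤ ((E w).card : ℝ) * ρ ^ 2 := by
      intro e he
      rw [Ec_sum]
      have h3 : ∀ e' ∈ (E w).erase e, Ec M (fun c : Edge n r → Fin M =>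
          if e ∈ Rc m c S ∧ e' ∈ Rc m c S then (1 : ℝ) else 0) ≤ ρ ^ 2 := by
        intro e' he'
        exact pair_upper hmM hM (Finset.ne_of_mem_erase he').symm
      refine (Finset.sum_le_sum h3).trans ?_
      rw [Finset.sum_const, nsmul_eq_mul]
      apply mul_le_mul_of_nonneg_right _ (by positivity)
      exact_mod_cast Finset.card_le_card (Finset.erase_subset e (E w))
    have h4 : ((E w).card : ℝ) * ((9 / 10) * ρ)
        ≤ ∑ e ∈ E w, Ec M (fun c : Edge n r → Fin M => if e ∈ Rc m c S then (1 : ℝ) else 0) := by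
      have := Finset.sum_le_sum h1
      rwa [Finset.sum_const, nsmul_eq_mul] at this
    have h5 : ∑ e ∈ E w, Ec M (fun c : Edge n r → Fin M =>
        ∑ e' ∈ (E w).erase e, (if e ∈ Rc m c S ∧ e' ∈ Rc m c S then (1 : ℝ) else 0))
        ≤ ((E w).card : ℝ) * (((E w).card : ℝ) * ρ ^ 2) := by
      have := Finset.sum_le_sum h2
      rwa [Finset.sum_const, nsmul_eq_mul] at this
    have h6 := hEcard w hw
    have h7 : ((E w).card : ℝ) * (((E w).card : ℝ) * ρ ^ 2)
        ≤ (1 / 2) * ρ * ((E w).card : ℝ) := by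
      have h8 : 0 ≤ ρ * ((E w).card : ℝ) := by positivity
      nlinarith
    linarith
  refine le_trans ?_ (Finset.sum_le_sum hterm)
  have hcardsum : (S'.card : ℝ) = ∑ w ∈ W, ((E w).card : ℝ) := by
    have := Finset.card_eq_sum_card_image l S'
    exact_mod_cast this
  rw [← Finset.mul_sum, ← hcardsum]
  have : (1 / 5) * ρ * (S.card : ℝ) = (2 / 5) * ρ * ((S.card : ℝ) / 2) := by ring
  rw [this]
  exact mul_le_mul_of_nonneg_left hS'card (by positivity)

end Vale.Agent.Lib.P063
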