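import Vale.Agent.Lib.P063.Main3

/-!
From the spectral lower bound to the threshold width.
-/

namespace Vale.Agent.Lib.P063

open Finset Real

/-- The calculus behind the width bound. -/
lemma width_abstract {μ μ' : ℝ → ℝ} {ε K : ℝ} (cont : Continuous μ)
    (hd : ∀ x ∈ Set.Ioo (0 : ℝ) 1, HasDerivAt μ (μ' x) x)
    (hd0 : ∀ x ∈ Set.Ioo (0 : ℝ) 1, 0 ≤ μ' x) (h1 : μ 1 = 1)
    (hε : 0 < ε) (hε2 : ε < 1 / 2)
    (hK : ∀ x ∈ Set.Ioo (0 : ℝ) 1, ε ≤ μ x → μ x ≤ 1 - ε → K ≤ μ' x) (hKpos : 0 < K) :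
    sInf {p : ℝ | p ∈ Set.Icc (0 : ℝ) 1 ∧ 1 - ε ≤ μ p}
      - sInf {p : ℝ | p ∈ Set.Icc (0 : ℝ) 1 ∧ ε ≤ μ p} ≤ (1 - 2 * ε) / K := by
  have hmono : MonotoneOn μ (Set.Icc (0 : ℝ) 1) := by
    apply monotoneOn_of_deriv_nonneg (convex_Icc 0 1) cont.continuousOn
    · intro x hx
      rw [interior_Icc] at hx
      exact (hd x hx).differentiableAt.differentiableWithinAt
    · intro x hx
      rw [interior_Icc] at hx
      rw [(hd x hx).deriv]
      exact hd0 x hx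
  have hcl : ∀ a : ℝ, IsClosed {p : ℝ | p ∈ Set.Icc (0 : ℝ) 1 ∧ a ≤ μ p} := by
    intro a
    have : {p : ℝ | p ∈ Set.Icc (0 : ℝ) 1 ∧ a ≤ μ p}
        = Set.Icc (0 : ℝ) 1 ∩ μ ⁻¹' (Set.Ici a) := rfl
    rw [this]
    exact isClosed_Icc.inter (isClosed_Ici.preimage cont)
  have hne : ∀ a : ℝ, a ≤ 1 → {p : ℝ | p ∈ Set.Icc (0 : ℝ) 1 ∧ a ≤ μ p}.Nonempty := by
    intro a ha
    exact ⟨1, ⟨by norm_num, by norm_num⟩, by rw [h1]; exact ha⟩
  have hbd : ∀ a : ℝ, BddBelow {p : ℝ | p ∈ Set.Icc (0 : ℝ) 1 ∧ a ≤ μ p} := by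
    intro a
    exact ⟨0, fun p hp => hp.1.1⟩
  obtain ⟨p₁, hp₁⟩ : ∃ p₁, p₁ = sInf {p : ℝ | p ∈ Set.Icc (0 : ℝ) 1 ∧ ε ≤ μ p} := ⟨_, rfl⟩
  obtain ⟨p₂, hp₂⟩ : ∃ p₂, p₂ = sInf {p : ℝ | p ∈ Set.Icc (0 : ℝ) 1 ∧ 1 - ε ≤ μ p} := ⟨_, rfl⟩
  rw [← hp₁, ← hp₂]
  have m₁ : p₁ ∈ {p : ℝ | p ∈ Set.Icc (0 : ℝ) 1 ∧ ε ≤ μ p} := by
    rw [hp₁]
    exact (hcl ε).csInf_mem (hne ε (by linarith)) (hbd ε)
  have m₂ : p₂ ∈ {p : ℝ | p ∈ Set.Icc (0 : ℝ) 1 ∧ 1 - ε ≤ μ p} := by
    rw [hp₂]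
    exact (hcl _).csInf_mem (hne _ (by linarith)) (hbd _)
  have hle : p₁ ≤ p₂ := by
    rw [hp₁]
    exact csInf_le (hbd ε) ⟨m₂.1, by linarith [m₂.2]⟩
  have hrhs : 0 ≤ (1 - 2 * ε) / K := div_nonneg (by linarith) hKpos.le
  rcases hle.eq_or_lt with heq | hlt
  · rw [heq]
    simpa using hrhs
  have hIoo : ∀ x ∈ Set.Ioo p₁ p₂, μ x ≤ 1 - ε ∧ ε ≤ μ x ∧ x ∈ Set.Ioo (0 : ℝ) 1 := by
    intro x hx
    have hx0 : 0 < x := lt_of_le_of_lt m₁.1.1 hx.1
    have hx1 : x < 1 := lt_of_lt_of_le hx.2 m₂.1.2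
    refine ⟨?_, ?_, hx0, hx1⟩
    · by_contra hcon
      push Not at hcon
      have : p₂ ≤ x := by
        rw [hp₂]
        exact csInf_le (hbd _) ⟨⟨hx0.le, hx1.le⟩, hcon.le⟩
      linarith [hx.2]
    · exact m₁.2.trans (hmono m₁.1 ⟨hx0.le, hx1.le⟩ hx.1.le)
  have hμ2 : μ p₂ ≤ 1 - ε := by
    have hsub : Set.Ioo p₁ p₂ ⊆ {x | μ x ≤ 1 - ε} := fun x hx => (hIoo x hx).1
    have hclosed : IsClosed {x | μ x ≤ 1 - ε} := isClosed_Iic.preimage cont
    have h3 := closure_minimal hsub hclosed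
    rw [closure_Ioo hlt.ne] at h3
    exact h3 ⟨hle, le_refl _⟩
  obtain ⟨ξ, hξ, hslope⟩ := exists_hasDerivAt_eq_slope μ μ' hlt cont.continuousOn
    (fun x hx => hd x (hIoo x hx).2.2)
  obtain ⟨a1, a2, a3⟩ := hIoo ξ hξ
  have hK2 := hK ξ a3 a2 a1
  rw [hslope] at hK2
  have hpos : 0 < p₂ - p₁ := by linarith
  rw [le_div_iff₀ hpos] at hK2
  rw [le_div_iff₀ hKpos]
  have := m₁.2
  nlinarith

lemma width_le_one {μ : ℝ → ℝ} {ε : ℝ} (h1 : μ 1 = 1) (hε : 0 < ε) (hε2 : ε < 1 / 2) :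
    sInf {p : ℝ | p ∈ Set.Icc (0 : ℝ) 1 ∧ 1 - ε ≤ μ p}
      - sInf {p : ℝ | p ∈ Set.Icc (0 : ℝ) 1 ∧ ε ≤ μ p} ≤ 1 := by
  have hbd : ∀ a : ℝ, BddBelow {p : ℝ | p ∈ Set.Icc (0 : ℝ) 1 ∧ a ≤ μ p} := by
    intro a
    exact ⟨0, fun p hp => hp.1.1⟩
  have h2 : sInf {p : ℝ | p ∈ Set.Icc (0 : ℝ) 1 ∧ 1 - ε ≤ μ p} ≤ 1 :=
    csInf_le (hbd _) ⟨⟨by norm_num, by norm_num⟩, by rw [h1]; linarith⟩
  have h3 : 0 ≤ sInf {p : ℝ | p ∈ Set.Icc (0 : ℝ) 1 ∧ ε ≤ μ p} :=
    le_csInf ⟨1, ⟨by norm_num, by norm_num⟩, by rw [h1]; linarith⟩ (fun p hp => hp.1.1)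
  linarith

section general

variable {X : Type*} [DecidableEq X] [Fintype X]

/-- The sign function of a family. -/
noncomputable def signF (P : Finset (Finset X)) (G : Finset X) : ℝ := if G ∈ P then 1 else -1

lemma signF_sq (P : Finset (Finset X)) (G : Finset X) : signF P G ^ 2 = 1 := by
  unfold signF
  split_ifs <;> norm_num

/-- The measure of a family. -/
noncomputable def muF (P : Finset (Finset X)) (p : ℝ) : ℝ := ∑ G ∈ P, wt p univ G

lemma avg_univ_eq (p : ℝ) (φ : Finset X → ℝ) : avg p univ φ ∅ = ∑ U, wt p univ U * φ U := by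
  rw [avg_eq_sum, Finset.powerset_univ]
  simp

lemma sum_wt_univ (p : ℝ) : ∑ U : Finset X, wt p univ U = 1 := by
  have := avg_const p (univ : Finset X) 1 ∅
  rw [avg_univ_eq] at this
  simpa using this

lemma sum_sign (P : Finset (Finset X)) (p : ℝ) :
    ∑ U, wt p univ U * signF P U = 2 * muF P p - 1 := by
  have e : ∀ U : Finset X, wt p univ U * signF P U
      = 2 * (if U ∈ P then wt p univ U else 0) - wt p univ U := by
    intro U
    unfold signF
    split_ifs <;> ring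
  simp_rw [e]
  rw [Finset.sum_sub_distrib, ← Finset.mul_sum, sum_wt_univ, Finset.sum_ite_mem, Finset.univ_inter]
  rfl

lemma fhat_empty (P : Finset (Finset X)) (p : ℝ) : fhat p (signF P) ∅ = 2 * muF P p - 1 := by
  rw [← sum_sign, ← avg_univ_eq]
  rfl

lemma Vnon_signF {p : ℝ} (h0 : 0 < p) (h1 : p < 1) (P : Finset (Finset X)) :
    Vnon p (signF P) = 4 * muF P p * (1 - muF P p) := by
  have e : ∀ S : Finset X, (if S = ∅ then (0 : ℝ) else 1) * wgt p (signF P) S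
      = wgt p (signF P) S - (if S = ∅ then wgt p (signF P) S else 0) := by
    intro S
    split_ifs <;> ring
  unfold Vnon
  simp_rw [e]
  rw [Finset.sum_sub_distrib, sum_wgt h0 h1 (signF_sq P), Finset.sum_ite_eq']
  simp only [Finset.mem_univ, if_true]
  unfold wgt
  rw [fhat_empty]
  ring

lemma pow_deriv_aux (a : ℕ) {p : ℝ} (hp : p ≠ 0) : (a : ℝ) * p ^ (a - 1) = p ^ a * (a / p) := by
  cases a with
  | zero => simp
  | succ k =>
    simp only [Nat.add_sub_cancel, pow_succ]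
    field_simp

lemma hasDerivAt_xab (a b : ℕ) {p : ℝ} (h0 : 0 < p) (h1 : p < 1) :
    HasDerivAt (fun x : ℝ => x ^ a * (1 - x) ^ b)
      (p ^ a * (1 - p) ^ b * ((a : ℝ) / p - (b : ℝ) / (1 - p))) p := by
  have hq : 1 - p ≠ 0 := by linarith
  have d1 : HasDerivAt (fun x : ℝ => x ^ a) ((a : ℝ) * p ^ (a - 1)) p := hasDerivAt_pow a p
  have d2 : HasDerivAt (fun x : ℝ => (1 - x) ^ b) ((b : ℝ) * (1 - p) ^ (b - 1) * (-1)) p := by
    have := ((hasDerivAt_id p).const_sub (1 : ℝ)).fun_pow b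
    simpa using this
  have d3 := d1.fun_mul d2
  refine d3.congr_deriv ?_
  rw [pow_deriv_aux a h0.ne', pow_deriv_aux b hq]
  ring

lemma sum_chi_single {p : ℝ} (U : Finset X) :
    ∑ e : X, chi p {e} U = (U.card : ℝ) * ((1 - p) / sig p)
      + ((univ \ U).card : ℝ) * (- p / sig p) := by
  unfold chi
  simp only [Finset.prod_singleton]
  rw [Finset.sum_ite, Finset.sum_const, Finset.sum_const, nsmul_eq_mul, nsmul_eq_mul]
  congr 3
  · congr 1
    ext e
    simp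
  · congr 1
    ext e
    simp

lemma hasDerivAt_wt {p : ℝ} (h0 : 0 < p) (h1 : p < 1) (U : Finset X) :
    HasDerivAt (fun x : ℝ => wt x univ U)
      (wt p univ U * ((1 / sig p) * ∑ e : X, chi p {e} U)) p := by
  have hs := sig_pos h0 h1
  have hs2 := sig_sq h0 h1
  have hq : 1 - p ≠ 0 := by linarith
  have d : HasDerivAt (fun x : ℝ => wt x univ U) _ p := hasDerivAt_xab U.card (univ \ U).card h0 h1
  refine d.congr_deriv ?_
  rw [sum_chi_single]
  unfold wt
  congr 1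
  have e : (1 / sig p) * ((U.card : ℝ) * ((1 - p) / sig p)
      + ((univ \ U).card : ℝ) * (- p / sig p))
      = ((U.card : ℝ) * (1 - p) - ((univ \ U).card : ℝ) * p) / sig p ^ 2 := by
    field_simp
    ring
  rw [e, hs2]
  field_simp
  try ring

lemma hasDerivAt_sum_sign {p : ℝ} (h0 : 0 < p) (h1 : p < 1) (f : Finset X → ℝ) :
    HasDerivAt (fun x : ℝ => ∑ U, wt x univ U * f U)
      ((1 / sig p) * ∑ e : X, fhat p f {e}) p := by
  have d : HasDerivAt (fun x : ℝ => ∑ U, wt x univ U * f U)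
      (∑ U, wt p univ U * ((1 / sig p) * ∑ e : X, chi p {e} U) * f U) p :=
    HasDerivAt.fun_sum (fun U _ => (hasDerivAt_wt h0 h1 U).mul_const (f U))
  refine d.congr_deriv ?_
  symm
  rw [Finset.mul_sum]
  have e : ∀ U : Finset X, wt p univ U * ((1 / sig p) * ∑ e : X, chi p {e} U) * f U
      = ∑ e : X, (1 / sig p) * (wt p univ U * chi p {e} U * f U) := by
    intro U
    rw [Finset.mul_sum, Finset.mul_sum, Finset.sum_mul]
    apply Finset.sum_congr rfl
    intro e _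
    ring
  simp_rw [e]
  rw [Finset.sum_comm]
  apply Finset.sum_congr rfl
  intro e _
  rw [← Finset.mul_sum]
  congr 1
  unfold fhat coef
  rw [Finset.powerset_univ]
  simp

lemma fhat_single {p : ℝ} (h0 : 0 < p) (h1 : p < 1) (f : Finset X → ℝ) (e : X) :
    fhat p f {e} = avg p (univ.erase e) (Dop p e f) ∅ := by
  have := coef_insert_mem h0 h1 (T := univ.erase e) (A := ∅) (e := e) (by simp) (by simp) f ∅
  rw [Finset.insert_erase (Finset.mem_univ e), insert_empty_eq] at this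
  exact this

lemma signF_mono {P : Finset (Finset X)} (hinc : ∀ G G' : Finset X, G ⊆ G' → G ∈ P → G' ∈ P)
    {G G' : Finset X} (h : G ⊆ G') : signF P G ≤ signF P G' := by
  unfold signF
  by_cases hG : G ∈ P
  · rw [if_pos hG, if_pos (hinc G G' h hG)]
  · rw [if_neg hG]
    split_ifs <;> norm_num

lemma fhat_single_mono {p : ℝ} (h0 : 0 < p) (h1 : p < 1) {P : Finset (Finset X)}
    (hinc : ∀ G G' : Finset X, G ⊆ G' → G ∈ P → G' ∈ P) (e : X) :
    fhat p (signF P) {e}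
      = (1 / (2 * sig p)) * ∑ S, (if e ∈ S then wgt p (signF P) S else 0) := by
  rw [fhat_single h0 h1, ← avg_abs_Dop h0 h1 (signF_sq P) e ∅]
  congr 1
  funext y
  rw [abs_of_nonneg]
  unfold Dop
  apply mul_nonneg (sig_pos h0 h1).le
  have : signF P (y.erase e) ≤ signF P (insert e y) :=
    signF_mono hinc ((Finset.erase_subset e y).trans (Finset.subset_insert e y))
  linarith

lemma sum_fhat_single {p : ℝ} (h0 : 0 < p) (h1 : p < 1) {P : Finset (Finset X)}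
    (hinc : ∀ G G' : Finset X, G ⊆ G' → G ∈ P → G' ∈ P) :
    ∑ e : X, fhat p (signF P) {e} = (1 / (2 * sig p)) * Iinf p (signF P) := by
  simp_rw [fhat_single_mono h0 h1 hinc]
  rw [← Finset.mul_sum, Finset.sum_comm]
  congr 1
  unfold Iinf
  apply Finset.sum_congr rfl
  intro S _
  rw [Finset.sum_ite_mem, Finset.univ_inter, Finset.sum_const, nsmul_eq_mul]

/-- The derivative of the measure of an increasing family. -/
theorem hasDerivAt_muF {p : ℝ} (h0 : 0 < p) (h1 : p < 1) {P : Finset (Finset X)}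
    (hinc : ∀ G G' : Finset X, G ⊆ G' → G ∈ P → G' ∈ P) :
    HasDerivAt (muF P) (Iinf p (signF P) / (4 * (p * (1 - p)))) p := by
  have hs := sig_pos h0 h1
  have hs2 := sig_sq h0 h1
  have d := (hasDerivAt_sum_sign h0 h1 (signF P)).const_add (1 : ℝ) |>.div_const 2
  have e : (fun x : ℝ => (1 + ∑ U, wt x univ U * signF P U) / 2) = muF P := by
    funext x
    rw [sum_sign]
    ring
  rw [e] at d
  refine d.congr_deriv ?_
  rw [sum_fhat_single h0 h1 hinc, ← hs2]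
  field_simp
  try ring

lemma Iinf_nonneg (p : ℝ) (f : Finset X → ℝ) : 0 ≤ Iinf p f :=
  Finset.sum_nonneg fun S _ => mul_nonneg (by positivity) (wgt_nonneg p f S)

lemma muF_continuous (P : Finset (Finset X)) : Continuous (muF P) := by
  unfold muF wt
  fun_prop

lemma muF_one {P : Finset (Finset X)} (hinc : ∀ G G' : Finset X, G ⊆ G' → G ∈ P → G' ∈ P)
    (hP : P ≠ ∅) : muF P 1 = 1 := by
  obtain ⟨G, hG⟩ := Finset.nonempty_iff_ne_empty.mpr hP
  have hu : (univ : Finset X) ∈ P := hinc G univ (Finset.subset_univ G) hG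
  unfold muF
  rw [Finset.sum_eq_single (univ : Finset X)]
  · simp [wt]
  · intro H _ hH
    unfold wt
    have : (univ \ H).card ≠ 0 := by
      intro h0
      rw [Finset.card_eq_zero, Finset.sdiff_eq_empty_iff_subset] at h0
      exact hH (Finset.eq_univ_of_forall fun x => h0 (Finset.mem_univ x))
    simp [this]
  · intro h
    exact absurd hu h

end general


section hyper

variable {n r : ℕ}

lemma muP_eq_muF (P : Finset (Finset (Edge n r))) : muP P = muF P := by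
  funext p
  unfold muP muF wt
  apply Finset.sum_congr rfl
  intro G _
  rw [← Finset.compl_eq_univ_sdiff, Finset.card_compl]

lemma map_eq_permHyper (g : Equiv.Perm (Fin n)) (x : Finset (Edge n r)) :
    x.map (edgePerm g).toEmbedding = permHyper g x := by
  unfold permHyper
  rw [Finset.map_eq_image]
  rfl

lemma permHyper_symm (g : Equiv.Perm (Fin n)) (x : Finset (Edge n r)) :
    permHyper g.symm (permHyper g x) = x := by
  unfold permHyper
  rw [Finset.image_image]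
  have : permEdge (r := r) g.symm ∘ permEdge g = id := by
    funext e
    exact (edgePerm g).left_inv e
  rw [this, Finset.image_id]

lemma signF_inv {P : Finset (Finset (Edge n r))} (hP : IsHyperProperty P)
    (g : Equiv.Perm (Fin n)) (x : Finset (Edge n r)) :
    signF P (x.map (edgePerm g).toEmbedding) = signF P x := by
  rw [map_eq_permHyper]
  unfold signF
  by_cases hx : x ∈ P
  · rw [if_pos hx, if_pos (hP g x hx)]
  · rw [if_neg hx, if_neg]
    intro h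
    apply hx
    have := hP g.symm _ h
    rwa [permHyper_symm] at this

lemma v0_le_of {μ ε : ℝ} (h1 : ε ≤ μ) (h2 : μ ≤ 1 - ε) :
    4 * ε * (1 - ε) ≤ 4 * μ * (1 - μ) := by
  nlinarith [mul_nonneg (sub_nonneg.mpr h1) (sub_nonneg.mpr h2)]

lemma exponent_eq (r : ℕ) : -(r : ℝ) / ((r : ℝ) - 1) = - theta r := by
  unfold theta
  ring

/-- The threshold width of a hypergraph property, for large `n`. -/
lemma width_large {ε c ℓ : ℝ} (hε : 0 < ε) (hε2 : ε < 1 / 2) (hc : 0 < c) (hℓ : 0 < ℓ)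
    {P : Finset (Finset (Edge n r))} (hinc : IsIncreasingFamily P) (hne : P ≠ ∅)
    (hL : ∀ x : ℝ, 0 < x → x < 1 → 4 * ε * (1 - ε) ≤ Vnon x (signF P) →
      c * ℓ ^ theta r ≤ Iinf x (signF P) / (4 * (x * (1 - x)))) :
    widthP P ε ≤ (1 - 2 * ε) / c * ℓ ^ (- theta r) := by
  have hinc' : ∀ G G' : Finset (Edge n r), G ⊆ G' → G ∈ P → G' ∈ P := hinc
  unfold widthP critP
  rw [muP_eq_muF]
  have hrp : 0 < ℓ ^ theta r := by positivity
  have key := width_abstract (μ := muF P)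
    (μ' := fun x => Iinf x (signF P) / (4 * (x * (1 - x)))) (ε := ε) (K := c * ℓ ^ theta r)
    (muF_continuous P) (fun x hx => hasDerivAt_muF hx.1 hx.2 hinc')
    (fun x hx => div_nonneg (Iinf_nonneg _ _)
      (mul_nonneg (by norm_num) (mul_nonneg hx.1.le (by linarith [hx.2]))))
    (muF_one hinc' hne) hε hε2
    (fun x hx a1 a2 => hL x hx.1 hx.2 (by
      rw [Vnon_signF hx.1 hx.2]
      exact v0_le_of a1 a2)) (by positivity)
  refine key.trans (le_of_eq ?_)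
  rw [Real.rpow_neg hℓ.le]
  field_simp

theorem width_main (r : ℕ) (hr : 2 ≤ r) (ε : ℝ) (hε : 0 < ε) (hε2 : ε < 1 / 2) :
    ∃ C : ℝ, ∀ n : ℕ, r ≤ n → ∀ P : Finset (Finset (Edge n r)), IsHyperProperty P →
      IsIncreasingFamily P → P ≠ ∅ → P ≠ Finset.univ →
      widthP P ε ≤ C * (Real.log n) ^ (-(r : ℝ) / ((r : ℝ) - 1)) := by
  have hv₀ : 0 < 4 * ε * (1 - ε) := by
    have : 0 < 1 - ε := by linarith
    positivity
  obtain ⟨c, hc, L₀, hL⟩ := deriv_lower r hr hv₀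
  have hθ := theta_ge_one hr
  refine ⟨max ((1 - 2 * ε) / c) ((max L₀ 1) ^ theta r), ?_⟩
  intro n hn P hP hinc hne _
  rw [exponent_eq]
  have hn2 : 2 ≤ n := hr.trans hn
  have hn1 : (1 : ℝ) < n := by
    have : (2 : ℝ) ≤ n := by exact_mod_cast hn2
    linarith
  have hℓ : 0 < Real.log n := Real.log_pos hn1
  have hrp : 0 < (Real.log n) ^ (- theta r) := by positivity
  by_cases hcase : L₀ ≤ Real.log n
  · have h1 := width_large (n := n) (r := r) hε hε2 hc hℓ hinc hne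
      (fun x hx0 hx1 hv => hL n (by omega) hcase x hx0 hx1 (signF P) (signF_sq P)
        (signF_inv hP) hv)
    exact h1.trans (mul_le_mul_of_nonneg_right (le_max_left _ _) hrp.le)
  · push Not at hcase
    have hinc' : ∀ G G' : Finset (Edge n r), G ⊆ G' → G ∈ P → G' ∈ P := hinc
    have h1 : widthP P ε ≤ 1 := by
      unfold widthP critP
      rw [muP_eq_muF]
      exact width_le_one (muF_one hinc' hne) hε hε2
    refine h1.trans ?_
    have h2 : Real.log n ≤ max L₀ 1 := hcase.le.trans (le_max_left _ _)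
    have h3 : (Real.log n) ^ theta r ≤ (max L₀ 1) ^ theta r :=
      Real.rpow_le_rpow hℓ.le h2 (by linarith)
    have h4 : 0 < (Real.log n) ^ theta r := by positivity
    have h5 : (max L₀ 1) ^ theta r * (Real.log n) ^ (- theta r)
        ≤ max ((1 - 2 * ε) / c) ((max L₀ 1) ^ theta r) * (Real.log n) ^ (- theta r) :=
      mul_le_mul_of_nonneg_right (le_max_right _ _) hrp.le
    refine le_trans ?_ h5
    rw [Real.rpow_neg hℓ.le, ← div_eq_mul_inv, le_div_iff₀ h4]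
    linarith

end hyper

end Vale.Agent.Lib.P063
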